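import Mathlib

/-!
Bipartite classes: 0/1 matrices with prescribed row and column sums, and the
switch (interchange) relation on them.
-/

namespace Vale.Agent.H12.Bip

open Finset

variable {R C : Type} [Fintype R] [DecidableEq R] [Fintype C] [DecidableEq C]

/-- the 0/1 matrices (rows `R`, columns `C`) with row sums `r` and column sums `c` -/
def BOmega (r : R → ℕ) (c : C → ℕ) : Type :=
  {M : R → C → Bool // (∀ i, (univ.filter (fun x => M i x = true)).card = r i) ∧
    (∀ x, (univ.filter (fun i => M i x = true)).card = c x)}

instance instFintypeBOmega (r : R → ℕ) (c : C → ℕ) : Fintype (BOmega r c) := by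
  unfold BOmega; infer_instance

instance instDecEqBOmega (r : R → ℕ) (c : C → ℕ) : DecidableEq (BOmega r c) := by
  unfold BOmega; infer_instance

/-- flip the four entries in rows `i`, `j` and columns `x`, `y` -/
def flip (M : R → C → Bool) (i j : R) (x y : C) : R → C → Bool :=
  fun a b => if (a = i ∨ a = j) ∧ (b = x ∨ b = y) then !M a b else M a b

/-- `M'` arises from `M` by one switch: a 2 x 2 minor equal to the identity pattern
is replaced by the other permutation pattern -/
def BSwitch (M M' : R → C → Bool) : Prop :=
  ∃ i j x y, i ≠ j ∧ x ≠ y ∧ M i x = true ∧ M j y = true ∧ M i y = false ∧ M j x = false ∧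
    M' = flip M i j x y

instance instDecBSwitch : DecidableRel (BSwitch (R := R) (C := C)) := fun M M' => by
  unfold BSwitch; infer_instance

/-- Laplacian of the switch graph of the class `BOmega r c` -/
noncomputable def lapB (r : R → ℕ) (c : C → ℕ) (f : BOmega r c → ℝ) (M : BOmega r c) : ℝ :=
  ∑ M' : BOmega r c, if BSwitch M.1 M'.1 then f M - f M' else 0

end Vale.Agent.H12.Bip
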