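import Vale.Agent.H12.LineSum

namespace Vale.Agent.H12.PrimeSum

open Finset Pointwise

variable {G : Type*} [AddCommGroup G]

/-- the set of all sums `∑ i ∈ τ, φ i` with `φ i ∈ F i` -/
def sumset {k : ℕ} (F : Fin k → Set G) (τ : Finset (Fin k)) : Set G :=
  {s | ∃ φ : Fin k → G, (∀ i ∈ τ, φ i ∈ F i) ∧ s = ∑ i ∈ τ, φ i}

/-- directness of every sub-sum of the family -/
def DirS {k : ℕ} (F : Fin k → Set G) : Prop :=
  ∀ (τ : Finset (Fin k)) (φ φ' : Fin k → G), (∀ i ∈ τ, φ i ∈ F i) → (∀ i ∈ τ, φ' i ∈ F i) →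
    ∑ i ∈ τ, φ i = ∑ i ∈ τ, φ' i → ∀ i ∈ τ, φ i = φ' i

theorem sum_ite_split {k : ℕ} (τ : Finset (Fin k)) (φ e : Fin k → G) [DecidablePred (· ∈ τ)] :
    ∑ i, (if i ∈ τ then φ i else e i) = ∑ i ∈ τ, φ i + ∑ i ∈ τᶜ, e i := by
  rw [← Finset.sum_add_sum_compl τ]
  congr 1
  · exact Finset.sum_congr rfl (fun i hi => if_pos hi)
  · exact Finset.sum_congr rfl (fun i hi => if_neg (Finset.mem_compl.mp hi))

theorem dirS_of_tiling {k : ℕ} (F : Fin k → Set G) (A : Set G)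
    (hA : ∀ g, ∃! q : G × (Fin k → G), q.1 ∈ A ∧ (∀ i, q.2 i ∈ F i) ∧ q.1 + ∑ i, q.2 i = g) :
    DirS F := by
  classical
  intro τ φ φ' hφ hφ' hsum i hi
  obtain ⟨q, ⟨hqA, hqF, -⟩, -⟩ := hA 0
  have key : ∀ ψ : Fin k → G, (∀ i ∈ τ, ψ i ∈ F i) →
      ((q.1, fun i => if i ∈ τ then ψ i else q.2 i) : G × (Fin k → G)).1 ∈ A ∧
      (∀ i, ((q.1, fun i => if i ∈ τ then ψ i else q.2 i) : G × (Fin k → G)).2 i ∈ F i) ∧
      ((q.1, fun i => if i ∈ τ then ψ i else q.2 i) : G × (Fin k → G)).1 +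
        ∑ i, ((q.1, fun i => if i ∈ τ then ψ i else q.2 i) : G × (Fin k → G)).2 i =
        q.1 + (∑ i ∈ τ, ψ i + ∑ i ∈ τᶜ, q.2 i) := by
    intro ψ hψ
    refine ⟨hqA, ?_, ?_⟩
    · intro i
      show (if i ∈ τ then ψ i else q.2 i) ∈ F i
      by_cases h : i ∈ τ
      · rw [if_pos h]; exact hψ i h
      · rw [if_neg h]; exact hqF i
    · show q.1 + ∑ i, (if i ∈ τ then ψ i else q.2 i) = _
      rw [sum_ite_split]
  have h1 := key φ hφ
  have h2 := key φ' hφ'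
  rw [← hsum] at h2
  have h3 := (hA _).unique h1 h2
  have h4 := congrFun (congrArg Prod.snd h3) i
  simpa [hi] using h4

theorem compl_of_tiling {k : ℕ} (F : Fin k → Set G) (A : Set G)
    (hA : ∀ g, ∃! q : G × (Fin k → G), q.1 ∈ A ∧ (∀ i, q.2 i ∈ F i) ∧ q.1 + ∑ i, q.2 i = g) :
    Compl A (sumset F Finset.univ) Set.univ where
  cov g := by
    simp only [Set.mem_univ, true_iff]
    obtain ⟨q, ⟨hqA, hqF, hsum⟩, -⟩ := hA g
    exact ⟨q.1, hqA, q.2, fun i _ => hqF i, by rw [← hsum]; abel⟩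
  uniq a ha a' ha' g hf hf' := by
    obtain ⟨φ, hφ, h1⟩ := hf
    obtain ⟨φ', hφ', h2⟩ := hf'
    have e1 : ((a, φ) : G × (Fin k → G)).1 ∈ A ∧ (∀ i, ((a, φ) : G × (Fin k → G)).2 i ∈ F i) ∧
        ((a, φ) : G × (Fin k → G)).1 + ∑ i, ((a, φ) : G × (Fin k → G)).2 i = g :=
      ⟨ha, fun i => hφ i (Finset.mem_univ i), by
        show a + ∑ i, φ i = g
        rw [← h1]; abel⟩
    have e2 : ((a', φ') : G × (Fin k → G)).1 ∈ A ∧
        (∀ i, ((a', φ') : G × (Fin k → G)).2 i ∈ F i) ∧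
        ((a', φ') : G × (Fin k → G)).1 + ∑ i, ((a', φ') : G × (Fin k → G)).2 i = g :=
      ⟨ha', fun i => hφ' i (Finset.mem_univ i), by
        show a' + ∑ i, φ' i = g
        rw [← h2]; abel⟩
    exact congrArg Prod.fst ((hA g).unique e1 e2)

theorem tiling_of_compl {k : ℕ} (F : Fin k → Set G) (A : Set G) (hdir : DirS F)
    (hc : Compl A (sumset F Finset.univ) Set.univ) :
    ∀ g, ∃! q : G × (Fin k → G), q.1 ∈ A ∧ (∀ i, q.2 i ∈ F i) ∧ q.1 + ∑ i, q.2 i = g := by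
  intro g
  obtain ⟨a, ha, φ, hφ, h1⟩ := (hc.cov g).mp trivial
  refine ⟨(a, φ), ⟨ha, fun i => hφ i (Finset.mem_univ i), ?_⟩, ?_⟩
  · show a + ∑ i, φ i = g
    rw [← h1]; abel
  · rintro ⟨a', φ'⟩ ⟨ha', hφ', hs⟩
    have hs' : a' + ∑ i, φ' i = g := hs
    have haa : a' = a := by
      refine hc.uniq a' ha' a ha g ⟨φ', fun i _ => hφ' i, ?_⟩ ⟨φ, hφ, h1⟩
      rw [← hs']; abel
    subst haa
    have hsum : ∑ i, φ' i = ∑ i, φ i := by
      have e : a' + ∑ i, φ' i = a' + ∑ i, φ i := by rw [hs', ← h1]; abel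
      exact add_left_cancel e
    have h3 := hdir Finset.univ φ' φ (fun i _ => hφ' i) hφ hsum
    have h4 : φ' = φ := funext (fun i => h3 i (Finset.mem_univ i))
    rw [h4]

theorem sumset_nonempty {k : ℕ} (F : Fin k → Set G) (hne : ∀ i, (F i).Nonempty)
    (τ : Finset (Fin k)) : (sumset F τ).Nonempty := by
  choose e he using hne
  exact ⟨∑ i ∈ τ, e i, e, fun i _ => he i, rfl⟩

/-- splitting the family into a sub-family and its complement -/
theorem tile2_split {k : ℕ} (F : Fin k → Set G) {A : Set G} (hdir : DirS F)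
    (hc : Compl A (sumset F Finset.univ) Set.univ) (τ : Finset (Fin k)) :
    Tile2 A (sumset F τ) (sumset F τᶜ) := by
  classical
  refine ⟨?_, ?_⟩
  · intro g
    obtain ⟨a, ha, φ, hφ, h1⟩ := (hc.cov g).mp trivial
    refine ⟨a, ha, ∑ i ∈ τ, φ i, ⟨φ, fun i _ => hφ i (Finset.mem_univ i), rfl⟩,
      ∑ i ∈ τᶜ, φ i, ⟨φ, fun i _ => hφ i (Finset.mem_univ i), rfl⟩, ?_⟩
    have e : g = a + ∑ i, φ i := by rw [← h1]; abel
    rw [e, ← Finset.sum_add_sum_compl τ φ, add_assoc]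
  · rintro a ha f₁ ⟨φ, hφ, rfl⟩ f₂ ⟨ψ, hψ, rfl⟩ a' ha' f₁' ⟨φ', hφ', rfl⟩ f₂' ⟨ψ', hψ', rfl⟩ heq
    have hχ : ∀ (α β : Fin k → G), (∀ i ∈ τ, α i ∈ F i) → (∀ i ∈ τᶜ, β i ∈ F i) →
        ∀ i ∈ (Finset.univ : Finset (Fin k)), (if i ∈ τ then α i else β i) ∈ F i := by
      intro α β hα hβ i _
      by_cases h : i ∈ τ
      · rw [if_pos h]; exact hα i h
      · rw [if_neg h]; exact hβ i (Finset.mem_compl.mpr h)
    have m1 : a + ∑ i ∈ τ, φ i + ∑ i ∈ τᶜ, ψ i - a ∈ sumset F Finset.univ :=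
      ⟨fun i => if i ∈ τ then φ i else ψ i, hχ φ ψ hφ hψ, by rw [sum_ite_split]; abel⟩
    have m2 : a + ∑ i ∈ τ, φ i + ∑ i ∈ τᶜ, ψ i - a' ∈ sumset F Finset.univ :=
      ⟨fun i => if i ∈ τ then φ' i else ψ' i, hχ φ' ψ' hφ' hψ', by
        rw [sum_ite_split, heq]; abel⟩
    have haa : a = a' := hc.uniq a ha a' ha' _ m1 m2
    subst haa
    have hsum : ∑ i, (if i ∈ τ then φ i else ψ i) = ∑ i, (if i ∈ τ then φ' i else ψ' i) := by
      rw [sum_ite_split, sum_ite_split]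
      have e1 : a + ∑ i ∈ τ, φ i + ∑ i ∈ τᶜ, ψ i = a + (∑ i ∈ τ, φ i + ∑ i ∈ τᶜ, ψ i) := by abel
      have e2 : a + ∑ i ∈ τ, φ' i + ∑ i ∈ τᶜ, ψ' i = a + (∑ i ∈ τ, φ' i + ∑ i ∈ τᶜ, ψ' i) := by
        abel
      rw [e1, e2] at heq
      exact add_left_cancel heq
    have h3 := hdir Finset.univ _ _ (hχ φ ψ hφ hψ) (hχ φ' ψ' hφ' hψ') hsum
    refine ⟨rfl, ?_, ?_⟩
    · refine Finset.sum_congr rfl (fun i hi => ?_)
      have h4 := h3 i (Finset.mem_univ i)
      rwa [if_pos hi, if_pos hi] at h4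
    · refine Finset.sum_congr rfl (fun i hi => ?_)
      have h4 := h3 i (Finset.mem_univ i)
      rwa [if_neg (Finset.mem_compl.mp hi), if_neg (Finset.mem_compl.mp hi)] at h4

theorem compl_of_tile2 {k : ℕ} (F : Fin k → Set G) {A : Set G} (τ : Finset (Fin k))
    (hT : Tile2 A (sumset F τ) (sumset F τᶜ)) : Compl A (sumset F Finset.univ) Set.univ where
  cov g := by
    classical
    simp only [Set.mem_univ, true_iff]
    obtain ⟨a, ha, f₁, ⟨φ, hφ, rfl⟩, f₂, ⟨ψ, hψ, rfl⟩, rfl⟩ := hT.ex g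
    refine ⟨a, ha, fun i => if i ∈ τ then φ i else ψ i, ?_, ?_⟩
    · intro i _
      by_cases h : i ∈ τ
      · simp only [if_pos h]; exact hφ i h
      · simp only [if_neg h]; exact hψ i (Finset.mem_compl.mpr h)
    · rw [sum_ite_split]; abel
  uniq a ha a' ha' g hf hf' := by
    obtain ⟨φ, hφ, h1⟩ := hf
    obtain ⟨φ', hφ', h2⟩ := hf'
    refine (hT.uniq a ha (∑ i ∈ τ, φ i) ⟨φ, fun i _ => hφ i (Finset.mem_univ i), rfl⟩
      (∑ i ∈ τᶜ, φ i) ⟨φ, fun i _ => hφ i (Finset.mem_univ i), rfl⟩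
      a' ha' (∑ i ∈ τ, φ' i) ⟨φ', fun i _ => hφ' i (Finset.mem_univ i), rfl⟩
      (∑ i ∈ τᶜ, φ' i) ⟨φ', fun i _ => hφ' i (Finset.mem_univ i), rfl⟩ ?_).1
    rw [add_assoc, add_assoc, Finset.sum_add_sum_compl, Finset.sum_add_sum_compl, ← h1, ← h2]
    abel

/-- a family of rigid sets is jointly rigid: every complement of a direct sub-sum is invariant
under the intersection of the subgroups `μ i • ⟨F i - F i⟩` -/
theorem family_rigid {k : ℕ} (F : Fin k → Set G) (μ : Fin k → ℕ) (hne : ∀ i, (F i).Nonempty)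
    (hdir : DirS F)
    (hr : ∀ i, ∀ B : Set G, Compl B (F i) Set.univ → Inv (Psub (μ i) (F i)) B) :
    ∀ (τ : Finset (Fin k)) (B : Set G), Compl B (sumset F τ) Set.univ →
      Inv (⨅ i ∈ τ, Psub (μ i) (F i)) B := by
  classical
  intro τ
  induction τ using Finset.induction_on with
  | empty =>
    intro B hB v _ a _
    obtain ⟨b, hb, φ, -, h⟩ := (hB.cov (a + v)).mp trivial
    rw [Finset.sum_empty] at h
    have e : a + v = b := sub_eq_zero.mp h
    rw [e]; exact hb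
  | insert i₀ τ' hi₀ ih =>
    intro B hB
    have hT : Tile2 B (F i₀) (sumset F τ') := by
      refine ⟨?_, ?_⟩
      · intro g
        obtain ⟨b, hb, φ, hφ, h⟩ := (hB.cov g).mp trivial
        rw [Finset.sum_insert hi₀] at h
        refine ⟨b, hb, φ i₀, hφ i₀ (Finset.mem_insert_self _ _), ∑ i ∈ τ', φ i,
          ⟨φ, fun i hi => hφ i (Finset.mem_insert_of_mem hi), rfl⟩, ?_⟩
        rw [add_assoc, ← h]; abel
      · rintro b hb f hf s ⟨φ, hφ, rfl⟩ b' hb' f' hf' s' ⟨φ', hφ', rfl⟩ heq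
        have hup : ∀ (α : Fin k → G) (x : G), x ∈ F i₀ → (∀ i ∈ τ', α i ∈ F i) →
            ∀ i ∈ insert i₀ τ', Function.update α i₀ x i ∈ F i := by
          intro α x hx hα i hi
          rcases Finset.mem_insert.mp hi with h | h
          · subst h; rw [Function.update_self]; exact hx
          · have hne' : i ≠ i₀ := fun h' => hi₀ (h' ▸ h)
            rw [Function.update_of_ne hne']; exact hα i h
        have hupsum : ∀ (α : Fin k → G) (x : G),
            ∑ i ∈ insert i₀ τ', Function.update α i₀ x i = x + ∑ i ∈ τ', α i := by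
          intro α x
          rw [Finset.sum_insert hi₀, Function.update_self]
          congr 1
          refine Finset.sum_congr rfl (fun i hi => ?_)
          have hne' : i ≠ i₀ := fun h' => hi₀ (h' ▸ hi)
          rw [Function.update_of_ne hne']
        have m1 : b + f + ∑ i ∈ τ', φ i - b ∈ sumset F (insert i₀ τ') :=
          ⟨Function.update φ i₀ f, hup φ f hf hφ, by rw [hupsum]; abel⟩
        have m2 : b + f + ∑ i ∈ τ', φ i - b' ∈ sumset F (insert i₀ τ') :=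
          ⟨Function.update φ' i₀ f', hup φ' f' hf' hφ', by rw [hupsum, heq]; abel⟩
        have hbb : b = b' := hB.uniq b hb b' hb' _ m1 m2
        subst hbb
        have hsum : ∑ i ∈ insert i₀ τ', Function.update φ i₀ f i =
            ∑ i ∈ insert i₀ τ', Function.update φ' i₀ f' i := by
          rw [hupsum, hupsum]
          have e1 : b + f + ∑ i ∈ τ', φ i = b + (f + ∑ i ∈ τ', φ i) := by abel
          have e2 : b + f' + ∑ i ∈ τ', φ' i = b + (f' + ∑ i ∈ τ', φ' i) := by abel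
          rw [e1, e2] at heq
          exact add_left_cancel heq
        have h3 := hdir (insert i₀ τ') _ _ (hup φ f hf hφ) (hup φ' f' hf' hφ') hsum
        refine ⟨rfl, ?_, ?_⟩
        · have h4 := h3 i₀ (Finset.mem_insert_self _ _)
          rwa [Function.update_self, Function.update_self] at h4
        · refine Finset.sum_congr rfl (fun i hi => ?_)
          have hne' : i ≠ i₀ := fun h' => hi₀ (h' ▸ hi)
          have h4 := h3 i (Finset.mem_insert_of_mem hi)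
          rwa [Function.update_of_ne hne', Function.update_of_ne hne'] at h4
    have h₁ := hr i₀ _ hT.compl_right
    have h₂ := ih _ hT.swap.compl_right
    have h := inv_inter hT (hne i₀) (sumset_nonempty F hne τ') h₁ h₂
    rw [Finset.iInf_insert]
    exact h

/-- one re-gluing step of the iteration -/
theorem family_step {k : ℕ} (F : Fin k → Set G) (μ : Fin k → ℕ) (hne : ∀ i, (F i).Nonempty)
    (hdir : DirS F)
    (hr : ∀ i, ∀ B : Set G, Compl B (F i) Set.univ → Inv (Psub (μ i) (F i)) B)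
    {A : Set G} (hA : Compl A (sumset F Finset.univ) Set.univ)
    (τ : Finset (Fin k)) (W K H : AddSubgroup G) (hW : Inv W A)
    (hH : ∀ s ∈ sumset F τᶜ, ∀ s' ∈ sumset F τᶜ, s - s' ∈ H)
    (hK : K ≤ W ⊔ ⨅ i ∈ τ, Psub (μ i) (F i))
    (hKH : K ⊓ H ≤ W) :
    ∃ A' : Set G, Compl A' (sumset F Finset.univ) Set.univ ∧ Inv K A' := by
  have hT := tile2_split F hdir hA τ
  have hc := hT.compl_left (sumset_nonempty F hne τ)
  have hB := hT.compl_right
  have hinvB : Inv (W ⊔ ⨅ i ∈ τ, Psub (μ i) (F i)) (A + sumset F τᶜ) :=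
    (hW.add_right _).sup (family_rigid F μ hne hdir hr τ _ hB)
  obtain ⟨A', hc', hinv'⟩ := reglue H K hc hH (hinvB.mono hK) (hW.mono hKH)
  exact ⟨A', compl_of_tile2 F τ (Tile2.of_compl hc' hB), hinv'⟩

/-- `N • (ℤ-span of the vectors b j, j ∈ T)` -/
def Lam {m : ℕ} (b : Fin m → G) (N : ℕ) (T : Set (Fin m)) : AddSubgroup G where
  carrier := {y | ∃ c : Fin m → ℤ, (∀ j, j ∉ T → c j = 0) ∧ y = N • ∑ j, c j • b j}
  add_mem' := by
    rintro x y ⟨c, hc, rfl⟩ ⟨c', hc', rfl⟩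
    refine ⟨c + c', fun j hj => by simp [hc j hj, hc' j hj], ?_⟩
    rw [← smul_add, ← Finset.sum_add_distrib]
    congr 1
    exact Finset.sum_congr rfl (fun j _ => by rw [Pi.add_apply, add_smul])
  zero_mem' := ⟨0, fun _ _ => rfl, by simp⟩
  neg_mem' := by
    rintro x ⟨c, hc, rfl⟩
    refine ⟨-c, fun j hj => by simp [hc j hj], ?_⟩
    rw [← smul_neg, ← Finset.sum_neg_distrib]
    congr 1
    exact Finset.sum_congr rfl (fun j _ => by rw [Pi.neg_apply, neg_smul])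

theorem mem_Lam {m : ℕ} {b : Fin m → G} {N : ℕ} {T : Set (Fin m)} {y : G} :
    y ∈ Lam b N T ↔ ∃ c : Fin m → ℤ, (∀ j, j ∉ T → c j = 0) ∧ y = N • ∑ j, c j • b j := Iff.rfl

theorem sum_update_split {m : ℕ} (b : Fin m → G) (c : Fin m → ℤ) (jj : Fin m) :
    ∑ j, c j • b j = ∑ j, Function.update c jj 0 j • b j + c jj • b jj := by
  classical
  rw [← Finset.add_sum_erase Finset.univ (fun j => c j • b j) (Finset.mem_univ jj),
    ← Finset.add_sum_erase Finset.univ (fun j => Function.update c jj 0 j • b j)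
      (Finset.mem_univ jj)]
  have e : ∑ j ∈ Finset.univ.erase jj, Function.update c jj 0 j • b j =
      ∑ j ∈ Finset.univ.erase jj, c j • b j :=
    Finset.sum_congr rfl (fun j hj => by
      rw [Function.update_of_ne (Finset.ne_of_mem_erase hj)])
  rw [e, Function.update_self, zero_smul]
  abel

theorem smul_sum_mul {m : ℕ} (b : Fin m → G) (N M : ℕ) (u : Fin m → ℤ) :
    (N * M) • ∑ j, u j • b j = N • ∑ j, ((M : ℤ) * u j) • b j := by
  rw [mul_smul, Finset.smul_sum]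
  congr 1
  exact Finset.sum_congr rfl (fun j _ => by rw [← natCast_zsmul, smul_smul])

/-- **Periodic tilings for direct sums of rigid sets whose spans are simultaneously
coordinatizable.** -/
theorem adapted_family_periodic [IsNoetherian ℤ G] {k m : ℕ} (F : Fin k → Set G) (μ : Fin k → ℕ)
    (hμ : ∀ i, 0 < μ i)
    (hr : ∀ i, ∀ B : Set G, Compl B (F i) Set.univ → Inv (Psub (μ i) (F i)) B)
    (b : Fin m → G) (S : Fin k → Set (Fin m))
    (hb : ∀ c : Fin m → ℤ, ∑ j, c j • b j = 0 → ∀ j, c j = 0)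
    (h1 : ∀ i, ∀ f ∈ F i, ∀ f' ∈ F i, ∃ (n : ℕ) (c : Fin m → ℤ), 0 < n ∧
      (∀ j, j ∉ S i → c j = 0) ∧ n • (f - f') = ∑ j, c j • b j)
    (h2 : ∀ i, ∀ j ∈ S i, ∃ n : ℕ, 0 < n ∧ n • b j ∈ Psub 1 (F i))
    (A : Set G)
    (hA : ∀ g, ∃! q : G × (Fin k → G), q.1 ∈ A ∧ (∀ i, q.2 i ∈ F i) ∧ q.1 + ∑ i, q.2 i = g) :
    ∃ (A' : Set G) (N : ℕ), 0 < N ∧
      (∀ g, ∃! q : G × (Fin k → G), q.1 ∈ A' ∧ (∀ i, q.2 i ∈ F i) ∧ q.1 + ∑ i, q.2 i = g) ∧
      ∀ a ∈ A', ∀ v : G, a + N • v ∈ A' := by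
  classical
  have hdir := dirS_of_tiling F A hA
  have hc := compl_of_tiling F A hA
  have hne : ∀ i, (F i).Nonempty := by
    obtain ⟨q, ⟨-, hqF, -⟩, -⟩ := hA 0
    exact fun i => ⟨q.2 i, hqF i⟩
  have h2' : ∀ i j, ∃ n : ℕ, 0 < n ∧ (j ∈ S i → n • b j ∈ Psub 1 (F i)) := by
    intro i j
    by_cases h : j ∈ S i
    · obtain ⟨n, hn, hm⟩ := h2 i j h
      exact ⟨n, hn, fun _ => hm⟩
    · exact ⟨1, one_pos, fun h' => absurd h' h⟩
  choose ν hνpos hν using h2'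
  obtain ⟨M, hMdef⟩ : ∃ M : ℕ, M = ∏ p : Fin k × Fin m, (ν p.1 p.2 * μ p.1) := ⟨_, rfl⟩
  have hMpos : 0 < M := by
    rw [hMdef]
    exact Finset.prod_pos (fun p _ => Nat.mul_pos (hνpos p.1 p.2) (hμ p.1))
  have hM : ∀ i j, j ∈ S i → M • b j ∈ Psub (μ i) (F i) := by
    intro i j hj
    have hdvd : ν i j * μ i ∣ M := by
      rw [hMdef]
      exact Finset.dvd_prod_of_mem (fun p : Fin k × Fin m => ν p.1 p.2 * μ p.1)
        (Finset.mem_univ (i, j))
    obtain ⟨c, hc⟩ := hdvd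
    have e : M • b j = (c * μ i) • (ν i j • b j) := by
      rw [hc, ← mul_smul]; congr 1; ring
    rw [e]
    exact mul_smul_mem_Psub c (μ i) (F i) (hν i j hj)
  have hdiff : ∀ (τ' : Finset (Fin k)) (TS : Set (Fin m)), (∀ i ∈ τ', S i ⊆ TS) →
      ∀ s ∈ sumset F τ', ∀ s' ∈ sumset F τ', s - s' ∈ sat (Lam b 1 TS) := by
    rintro τ' TS hTS s ⟨φ, hφ, rfl⟩ s' ⟨φ', hφ', rfl⟩
    rw [← Finset.sum_sub_distrib]
    refine AddSubgroup.sum_mem _ (fun i hi => ?_)
    obtain ⟨n, c, hn, hc0, hc⟩ := h1 i (φ i) (hφ i hi) (φ' i) (hφ' i hi)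
    refine mem_sat.mpr ⟨n, hn, c, fun j hj => hc0 j (fun h => hj (hTS i hi h)), ?_⟩
    rw [hc, one_smul]
  have iter : ∀ j : ℕ, j ≤ m → ∃ (A₁ : Set G) (N : ℕ), 0 < N ∧
      Compl A₁ (sumset F Finset.univ) Set.univ ∧
      Inv (Lam b N {j' : Fin m | (j' : ℕ) < j}) A₁ := by
    intro j
    induction j with
    | zero =>
      intro _
      refine ⟨A, 1, one_pos, hc, ?_⟩
      intro y hy a ha
      obtain ⟨c, hc0, rfl⟩ := mem_Lam.mp hy
      have hc' : c = 0 := funext (fun j' => hc0 j' (by simp))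
      simpa [hc'] using ha
    | succ j ih =>
      intro hj
      obtain ⟨A₁, N, hN, hc₁, hinv₁⟩ := ih (Nat.le_of_succ_le hj)
      obtain ⟨jj, hjj⟩ : ∃ jj : Fin m, (jj : ℕ) = j := ⟨⟨j, hj⟩, rfl⟩
      obtain ⟨τ, hτ⟩ : ∃ τ : Finset (Fin k), ∀ i, i ∈ τ ↔ jj ∈ S i :=
        ⟨Finset.univ.filter (fun i => jj ∈ S i), fun i => by simp⟩
      obtain ⟨TS, hTS⟩ : ∃ TS : Set (Fin m), TS = {j'' | ∃ i, i ∉ τ ∧ j'' ∈ S i} := ⟨_, rfl⟩
      have hjTS : jj ∉ TS := by
        rw [hTS]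
        rintro ⟨i, hi, hjS⟩
        exact hi ((hτ i).mpr hjS)
      have hsupp : ∀ c : Fin m → ℤ, (∀ j', j' ∉ {j' : Fin m | (j' : ℕ) < j + 1} → c j' = 0) →
          c jj = 0 → ∀ j', j' ∉ {j' : Fin m | (j' : ℕ) < j} → c j' = 0 := by
        intro c hc0 hcj j' hj'
        by_cases h : j' = jj
        · rw [h]; exact hcj
        · refine hc0 j' (fun h' => ?_)
          have h1' : (j' : ℕ) < j + 1 := h'
          have h2' : ¬ (j' : ℕ) < j := hj'
          have h3 : (j' : ℕ) = j := by omega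
          exact h (Fin.ext (by rw [h3, hjj]))
      obtain ⟨A₂, hc₂, hinv₂⟩ := family_step F μ hne hdir hr hc₁ τ
        (Lam b N {j' : Fin m | (j' : ℕ) < j}) (Lam b (N * M) {j' : Fin m | (j' : ℕ) < j + 1})
        (sat (Lam b 1 TS)) hinv₁
        (hdiff τᶜ TS (fun i hi x hx => by
          rw [hTS]; exact ⟨i, Finset.mem_compl.mp hi, hx⟩))
        (by
          intro y hy
          obtain ⟨c, hc0, rfl⟩ := mem_Lam.mp hy
          rw [sum_update_split b c jj, smul_add]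
          refine AddSubgroup.mem_sup.mpr ⟨_, ?_, _, ?_, rfl⟩
          · refine mem_Lam.mpr ⟨fun j' => (M : ℤ) * Function.update c jj 0 j', ?_,
              smul_sum_mul b N M _⟩
            intro j' hj'
            have h0 : Function.update c jj 0 j' = 0 := by
              refine hsupp (Function.update c jj 0) (fun j'' hj'' => ?_)
                (Function.update_self _ _ _) j' hj'
              by_cases h'' : j'' = jj
              · rw [h'', Function.update_self]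
              · rw [Function.update_of_ne h'']; exact hc0 j'' hj''
            show (M : ℤ) * Function.update c jj 0 j' = 0
            rw [h0, mul_zero]
          · refine AddSubgroup.mem_iInf.mpr (fun i => AddSubgroup.mem_iInf.mpr (fun hi => ?_))
            have e : (N * M) • (c jj • b jj) = c jj • (N • (M • b jj)) := by
              rw [mul_smul, smul_comm M (c jj) (b jj), smul_comm N (c jj)]
            rw [e]
            exact AddSubgroup.zsmul_mem _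
              (AddSubgroup.nsmul_mem _ (hM i jj ((hτ i).mp hi)) N) (c jj))
        (by
          intro y hy
          obtain ⟨hy1, hy2⟩ := AddSubgroup.mem_inf.mp hy
          obtain ⟨c, hc0, rfl⟩ := mem_Lam.mp hy1
          obtain ⟨n, hn, hny⟩ := mem_sat.mp hy2
          obtain ⟨e, he0, he⟩ := mem_Lam.mp hny
          have hKn : 0 < n * (N * M) := Nat.mul_pos hn (Nat.mul_pos hN hMpos)
          have h0 : ∑ j', (((n * (N * M) : ℕ) : ℤ) * c j' - e j') • b j' = 0 := by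
            have e1 : ∑ j', (((n * (N * M) : ℕ) : ℤ) * c j' - e j') • b j' =
                (n * (N * M)) • ∑ j', c j' • b j' - ∑ j', e j' • b j' := by
              rw [Finset.smul_sum, ← Finset.sum_sub_distrib]
              refine Finset.sum_congr rfl (fun j' _ => ?_)
              rw [sub_smul, ← smul_smul, natCast_zsmul]
            rw [e1, mul_smul, he, one_smul, sub_self]
          have hcoef : ∀ j', ((n * (N * M) : ℕ) : ℤ) * c j' = e j' :=
            fun j' => sub_eq_zero.mp (hb _ h0 j')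
          have hcj : c jj = 0 := by
            have h3 := hcoef jj
            rw [he0 jj hjTS] at h3
            rcases mul_eq_zero.mp h3 with h4 | h4
            · exact absurd (Int.natCast_eq_zero.mp h4) (Nat.pos_iff_ne_zero.mp hKn)
            · exact h4
          refine mem_Lam.mpr ⟨fun j' => (M : ℤ) * c j', ?_, smul_sum_mul b N M c⟩
          intro j' hj'
          show (M : ℤ) * c j' = 0
          rw [hsupp c hc0 hcj j' hj', mul_zero])
      exact ⟨A₂, N * M, Nat.mul_pos hN hMpos, hc₂, hinv₂⟩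
  obtain ⟨A₁, N, hN, hc₁, hinv₁⟩ := iter m le_rfl
  obtain ⟨n₃, hn₃, hs₃⟩ := exists_exponent (Lam b 1 Set.univ)
  obtain ⟨A₂, hc₂, hinv₂⟩ := family_step F μ hne hdir hr hc₁ ∅
    (Lam b N {j' : Fin m | (j' : ℕ) < m}) (mulSub (N * n₃)) (sat (Lam b 1 Set.univ)) hinv₁
    (hdiff ∅ᶜ Set.univ (fun i _ => Set.subset_univ _))
    (by
      have e : (⨅ i ∈ (∅ : Finset (Fin k)), Psub (μ i) (F i)) = ⊤ := by simp
      rw [e, sup_top_eq]
      exact le_top)
    (by
      intro x hx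
      obtain ⟨hx1, hx2⟩ := AddSubgroup.mem_inf.mp hx
      obtain ⟨l, hl, rfl⟩ := mulSub_inf_sat hs₃ (Nat.mul_pos hN hn₃) hx1 hx2
      obtain ⟨c, -, rfl⟩ := mem_Lam.mp hl
      exact mem_Lam.mpr ⟨c, fun j' hj' => absurd j'.isLt hj', by rw [one_smul]⟩)
  exact ⟨A₂, N * n₃, Nat.mul_pos hN hn₃, tiling_of_compl F A₂ hdir hc₂,
    fun a ha v => hinv₂ _ (mem_mulSub.mpr ⟨v, rfl⟩) a ha⟩

/-- **Periodic tilings for direct sums of any number of sets, each of prime cardinality or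
contained in a line, whose spans are simultaneously coordinatizable.** -/
theorem prime_or_line_family_periodic [IsNoetherian ℤ G]
    (htf : ∀ (n : ℤ) (w : G), n • w = 0 → n = 0 ∨ w = 0) {k m : ℕ} (F : Fin k → Finset G)
    (hF : ∀ i, (F i).card.Prime ∨ ∃ f₀ w : G, ∀ f ∈ F i, ∃ c : ℤ, f = f₀ + c • w)
    (b : Fin m → G) (S : Fin k → Set (Fin m))
    (hb : ∀ c : Fin m → ℤ, ∑ j, c j • b j = 0 → ∀ j, c j = 0)
    (h1 : ∀ i, ∀ f ∈ F i, ∀ f' ∈ F i, ∃ (n : ℕ) (c : Fin m → ℤ), 0 < n ∧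
      (∀ j, j ∉ S i → c j = 0) ∧ n • (f - f') = ∑ j, c j • b j)
    (h2 : ∀ i, ∀ j ∈ S i, ∃ n : ℕ, 0 < n ∧
      n • b j ∈ AddSubgroup.closure {x : G | ∃ f ∈ F i, ∃ f' ∈ F i, x = f - f'})
    (A : Set G)
    (hA : ∀ g, ∃! q : G × (Fin k → G), q.1 ∈ A ∧ (∀ i, q.2 i ∈ F i) ∧ q.1 + ∑ i, q.2 i = g) :
    ∃ (A' : Set G) (N : ℕ), 0 < N ∧
      (∀ g, ∃! q : G × (Fin k → G), q.1 ∈ A' ∧ (∀ i, q.2 i ∈ F i) ∧ q.1 + ∑ i, q.2 i = g) ∧
      ∀ a ∈ A', ∀ v : G, a + N • v ∈ A' := by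
  have hrig := fun i => rigid_of_prime_or_line htf (F i) (hF i)
  choose μ hμ hr using hrig
  refine adapted_family_periodic (fun i => (↑(F i) : Set G)) μ hμ hr b S hb
    (fun i f hf f' hf' => h1 i f hf f' hf') (fun i j hj => ?_) A hA
  obtain ⟨n, hn, h⟩ := h2 i j hj
  refine ⟨n, hn, ?_⟩
  have e : {x : G | ∃ f ∈ F i, ∃ f' ∈ F i, x = f - f'} =
      {x : G | ∃ f ∈ (↑(F i) : Set G), ∃ f' ∈ (↑(F i) : Set G), x = 1 • (f - f')} := by
    ext x; simp
  rw [e] at h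
  exact h

end Vale.Agent.H12.PrimeSum
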