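import Mathlib

/-!
Graph Laplacian on a finite set with a symmetric relation:
an operator inequality `κ L ≤ L^2` together with connectedness gives the
Poincare inequality with constant `κ` on mean-zero functions.
-/

namespace Vale.Agent.H12.GapCore

open Finset

variable {X : Type*} [Fintype X]

/-- graph Laplacian of the relation `adj` -/
noncomputable def lap (adj : X → X → Prop) [DecidableRel adj] (f : X → ℝ) (x : X) : ℝ :=
  ∑ y, if adj x y then f x - f y else 0

variable (adj : X → X → Prop) [DecidableRel adj]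

theorem lap_add (f g : X → ℝ) (x : X) : lap adj (f + g) x = lap adj f x + lap adj g x := by
  unfold lap
  rw [← Finset.sum_add_distrib]
  refine Finset.sum_congr rfl (fun y _ => ?_)
  by_cases h : adj x y <;> simp [h]; ring

theorem lap_smul (c : ℝ) (f : X → ℝ) (x : X) : lap adj (c • f) x = c * lap adj f x := by
  unfold lap
  rw [Finset.mul_sum]
  refine Finset.sum_congr rfl (fun y _ => ?_)
  by_cases h : adj x y <;> simp [h]; ring

/-- the Laplacian as a linear map -/
noncomputable def lapL : (X → ℝ) →ₗ[ℝ] (X → ℝ) where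
  toFun f := lap adj f
  map_add' f g := by funext x; exact lap_add adj f g x
  map_smul' c f := by funext x; simp [lap_smul]

theorem lapL_apply (f : X → ℝ) (x : X) : lapL adj f x = lap adj f x := rfl

/-- the symmetric bilinear Dirichlet form -/
theorem inner_lap (hs : ∀ x y, adj x y → adj y x) (f g : X → ℝ) :
    ∑ x, g x * lap adj f x
      = (1 / 2 : ℝ) * ∑ x, ∑ y, if adj x y then (f x - f y) * (g x - g y) else 0 := by
  have h1 : ∑ x, g x * lap adj f x = ∑ x, ∑ y, if adj x y then g x * (f x - f y) else 0 := by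
    refine Finset.sum_congr rfl (fun x _ => ?_)
    unfold lap
    rw [Finset.mul_sum]
    refine Finset.sum_congr rfl (fun y _ => ?_)
    by_cases h : adj x y <;> simp [h]
  have h2 : ∑ x, g x * lap adj f x = ∑ x, ∑ y, if adj x y then -(g y * (f x - f y)) else 0 := by
    rw [h1, Finset.sum_comm]
    refine Finset.sum_congr rfl (fun x _ => ?_)
    refine Finset.sum_congr rfl (fun y _ => ?_)
    by_cases h : adj x y
    · have h' : adj y x := hs x y h
      simp only [h, h', if_true]
      ring
    · have h' : ¬ adj y x := fun h'' => h (hs y x h'')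
      simp [h, h']
  have h3 : ∑ x, g x * lap adj f x + ∑ x, g x * lap adj f x
      = ∑ x, ∑ y, if adj x y then (f x - f y) * (g x - g y) else 0 := by
    nth_rewrite 1 [h1]
    rw [h2, ← Finset.sum_add_distrib]
    refine Finset.sum_congr rfl (fun x _ => ?_)
    rw [← Finset.sum_add_distrib]
    refine Finset.sum_congr rfl (fun y _ => ?_)
    by_cases h : adj x y <;> simp [h]; ring
  linarith

theorem inner_lap_symm (hs : ∀ x y, adj x y → adj y x) (f g : X → ℝ) :
    ∑ x, g x * lap adj f x = ∑ x, f x * lap adj g x := by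
  rw [inner_lap adj hs f g, inner_lap adj hs g f]
  congr 1
  refine Finset.sum_congr rfl (fun x _ => ?_)
  refine Finset.sum_congr rfl (fun y _ => ?_)
  by_cases h : adj x y <;> simp [h]; ring

theorem inner_lap_self (hs : ∀ x y, adj x y → adj y x) (f : X → ℝ) :
    ∑ x, f x * lap adj f x
      = (1 / 2 : ℝ) * ∑ x, ∑ y, if adj x y then (f x - f y) ^ 2 else 0 := by
  rw [inner_lap adj hs f f]
  congr 1
  refine Finset.sum_congr rfl (fun x _ => ?_)
  refine Finset.sum_congr rfl (fun y _ => ?_)
  by_cases h : adj x y <;> simp [h]; ring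

theorem inner_lap_self_nonneg (hs : ∀ x y, adj x y → adj y x) (f : X → ℝ) :
    0 ≤ ∑ x, f x * lap adj f x := by
  rw [inner_lap_self adj hs f]
  apply mul_nonneg (by norm_num)
  refine Finset.sum_nonneg (fun x _ => Finset.sum_nonneg (fun y _ => ?_))
  by_cases h : adj x y <;> simp [h]; positivity

theorem sum_lap (hs : ∀ x y, adj x y → adj y x) (f : X → ℝ) : ∑ x, lap adj f x = 0 := by
  have := inner_lap adj hs f (fun _ => (1 : ℝ))
  simpa using this

/-- a function killed by the Laplacian is constant along the relation -/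
theorem eq_of_lap_eq_zero (hs : ∀ x y, adj x y → adj y x) (f : X → ℝ)
    (hf : ∀ x, lap adj f x = 0) : ∀ x y, adj x y → f x = f y := by
  have h0 : ∑ x, f x * lap adj f x = 0 := by simp [hf]
  rw [inner_lap_self adj hs f] at h0
  have h1 : ∑ x, ∑ y, (if adj x y then (f x - f y) ^ 2 else 0) = 0 := by linarith
  have hnn : ∀ x ∈ (Finset.univ : Finset X),
      0 ≤ ∑ y, (if adj x y then (f x - f y) ^ 2 else 0) := by
    intro x _
    refine Finset.sum_nonneg (fun y _ => ?_)
    by_cases h : adj x y <;> simp [h]; positivity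
  intro x y hxy
  have h2 := (Finset.sum_eq_zero_iff_of_nonneg hnn).mp h1 x (Finset.mem_univ x)
  have hnn2 : ∀ y ∈ (Finset.univ : Finset X), 0 ≤ (if adj x y then (f x - f y) ^ 2 else 0) := by
    intro y _
    by_cases h : adj x y <;> simp [h]; positivity
  have h3 := (Finset.sum_eq_zero_iff_of_nonneg hnn2).mp h2 y (Finset.mem_univ y)
  simp only [hxy, if_true] at h3
  have : f x - f y = 0 := by
    rcases pow_eq_zero_iff (n := 2) (by norm_num) |>.mp h3 with h
    exact h
  linarith

theorem const_of_lap_eq_zero (hs : ∀ x y, adj x y → adj y x)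
    (hc : ∀ x y, Relation.ReflTransGen adj x y) (f : X → ℝ)
    (hf : ∀ x, lap adj f x = 0) : ∀ x y, f x = f y := by
  intro x y
  have h := eq_of_lap_eq_zero adj hs f hf
  induction hc x y with
  | refl => rfl
  | tail _ hbc ih => rw [ih]; exact h _ _ hbc

/-- the mean-zero subspace -/
def meanZero (X : Type*) [Fintype X] : Submodule ℝ (X → ℝ) where
  carrier := {f | ∑ x, f x = 0}
  add_mem' := by
    intro f g hf hg
    simp only [Set.mem_ofPred_eq, Pi.add_apply, Finset.sum_add_distrib] at *
    rw [hf, hg, add_zero]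
  zero_mem' := by simp
  smul_mem' := by
    intro c f hf
    simp only [Set.mem_ofPred_eq, Pi.smul_apply, smul_eq_mul, ← Finset.mul_sum] at *
    rw [hf, mul_zero]

theorem mem_meanZero (f : X → ℝ) : f ∈ meanZero X ↔ ∑ x, f x = 0 := Iff.rfl

/-- on a connected graph the Laplacian is onto the mean-zero functions -/
theorem exists_lap_eq (hs : ∀ x y, adj x y → adj y x)
    (hc : ∀ x y, Relation.ReflTransGen adj x y) (f : X → ℝ) (hf : ∑ x, f x = 0) :
    ∃ h : X → ℝ, ∀ x, lap adj h x = f x := by
  have hW : ∀ g ∈ meanZero X, lapL adj g ∈ meanZero X := by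
    intro g _
    rw [mem_meanZero]
    exact sum_lap adj hs g
  set T : meanZero X →ₗ[ℝ] meanZero X := (lapL adj).restrict hW with hT
  have hinj : Function.Injective T := by
    rw [← LinearMap.ker_eq_bot, LinearMap.ker_eq_bot']
    intro g hg
    have hg0 : ∀ x, lap adj g.1 x = 0 := by
      intro x
      have := congrArg Subtype.val hg
      rw [hT, LinearMap.coe_restrict_apply] at this
      exact congrFun this x
    have hconst := const_of_lap_eq_zero adj hs hc g.1 hg0
    have hsum : ∑ x, g.1 x = 0 := (mem_meanZero g.1).mp g.2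
    apply Subtype.ext
    funext x
    have : ∑ y, g.1 y = ∑ _y : X, g.1 x :=
      Finset.sum_congr rfl (fun y _ => hconst y x)
    rw [hsum, Finset.sum_const, Finset.card_univ, nsmul_eq_mul] at this
    have hcard : (0 : ℝ) < Fintype.card X := by
      have : 0 < Fintype.card X := Fintype.card_pos_iff.mpr ⟨x⟩
      exact_mod_cast this
    have : g.1 x = 0 := by
      rcases mul_eq_zero.mp this.symm with h | h
      · linarith
      · exact h
    simpa using this
  have hsurj : Function.Surjective T := LinearMap.injective_iff_surjective.mp hinj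
  obtain ⟨h, hh⟩ := hsurj ⟨f, (mem_meanZero f).mpr hf⟩
  refine ⟨h.1, fun x => ?_⟩
  have := congrArg Subtype.val hh
  rw [hT, LinearMap.coe_restrict_apply] at this
  exact congrFun this x

/-- **Poincare inequality from the operator inequality `κ L ≤ L^2`.** -/
theorem poincare_of_sq (hs : ∀ x y, adj x y → adj y x)
    (hc : ∀ x y, Relation.ReflTransGen adj x y) (κ : ℝ) (hκ : 0 ≤ κ)
    (hsq : ∀ h : X → ℝ, κ * ∑ x, h x * lap adj h x ≤ ∑ x, lap adj h x ^ 2)
    (f : X → ℝ) (hf : ∑ x, f x = 0) :
    κ * ∑ x, f x ^ 2 ≤ ∑ x, f x * lap adj f x := by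
  obtain ⟨h, hh⟩ := exists_lap_eq adj hs hc f hf
  have hfe : f = lap adj h := by funext x; exact (hh x).symm
  set g : X → ℝ := f - κ • h with hg
  have hpsd := inner_lap_self_nonneg adj hs g
  have hLg : ∀ x, lap adj g x = lap adj f x - κ * f x := by
    intro x
    have : lap adj g x = lapL adj (f - κ • h) x := rfl
    rw [this, map_sub, map_smul]
    simp only [Pi.sub_apply, Pi.smul_apply, smul_eq_mul, lapL_apply]
    rw [hh x]
  have e1 : ∑ x, g x * lap adj g x
      = ∑ x, f x * lap adj f x - κ * ∑ x, f x ^ 2 - κ * ∑ x, h x * lap adj f x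
        + κ ^ 2 * ∑ x, h x * f x := by
    rw [Finset.mul_sum, Finset.mul_sum, Finset.mul_sum, ← Finset.sum_sub_distrib,
      ← Finset.sum_sub_distrib, ← Finset.sum_add_distrib]
    refine Finset.sum_congr rfl (fun x _ => ?_)
    rw [hLg x, hg]
    simp only [Pi.sub_apply, Pi.smul_apply, smul_eq_mul]
    ring
  have e2 : ∑ x, h x * lap adj f x = ∑ x, f x ^ 2 := by
    rw [inner_lap_symm adj hs f h]
    refine Finset.sum_congr rfl (fun x _ => ?_)
    rw [hh x]; ring
  have e3 : ∑ x, h x * f x = ∑ x, h x * lap adj h x :=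
    Finset.sum_congr rfl (fun x _ => by rw [hh x])
  have e4 : ∑ x, lap adj h x ^ 2 = ∑ x, f x ^ 2 :=
    Finset.sum_congr rfl (fun x _ => by rw [hh x])
  have h5 := hsq h
  rw [e4] at h5
  rw [e1, e2, e3] at hpsd
  nlinarith [mul_le_mul_of_nonneg_left h5 hκ]

end Vale.Agent.H12.GapCore
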