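import Vale.Agent.H12.SwitchChain
import Vale.Agent.H90.KTV.Defs

/-!
Bridge from an operator inequality on the space of all simple graphs on `V`
(block diagonal over the degree classes) to the Poincare inequality on each
class `Omega d`, and from there to the mixing bound for the switch chain.
-/

namespace Vale.Agent.H12.Switch

open Finset SimpleGraph
open scoped Classical

/-- Mixing from a Poincare inequality with constant `2 / m`: at most `m * n^6` steps. -/
theorem mixing_of_poincare_gen (n : ℕ) (hn : 4 ≤ n) (d : Fin n → ℕ) (m : ℕ) (hm : 1 ≤ m)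
    (hP : ∀ f : Omega d → ℝ, ∑ G, f G = 0 →
      (2 / (m : ℝ)) * ∑ G, f G ^ 2 ≤ ∑ G, f G * lapΩ d f G) :
    ∃ t ≤ m * n ^ 6, ∀ G : Omega d,
      (1 / 2 : ℝ) * ∑ G', |(kernel d ^ t) G G' - 1 / (Fintype.card (Omega d) : ℝ)| ≤ 1 / 4 := by
  have hNeq : Fintype.card (Fin 4 ↪ Fin n) = n.descFactorial 4 := by
    rw [Fintype.card_embedding_eq]; simp
  have hNpos : 0 < Fintype.card (Fin 4 ↪ Fin n) := by
    rw [hNeq]
    exact Nat.pos_of_ne_zero (fun h => by
      rw [Nat.descFactorial_eq_zero_iff_lt] at h; omega)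
  have hmr : (1 : ℝ) ≤ (m : ℝ) := by exact_mod_cast hm
  have hmpos : (0 : ℝ) < (m : ℝ) := by linarith
  refine ⟨m * Fintype.card (Fin 4 ↪ Fin n) * (n * n + 2), ?_, ?_⟩
  · rw [hNeq, mul_assoc]
    exact Nat.mul_le_mul_left m (descFactorial_bound n hn)
  · intro G
    have hNr : (1 : ℝ) ≤ (Fintype.card (Fin 4 ↪ Fin n) : ℝ) := by exact_mod_cast hNpos
    have hκ : 2 / (m : ℝ) ≤ 2 * (Fintype.card (Fin 4 ↪ Fin n) : ℝ) := by
      rw [div_le_iff₀ hmpos]
      nlinarith
    have h := l1_bound_of_poincare d hNpos (2 / (m : ℝ)) hκ hP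
      (m * Fintype.card (Fin 4 ↪ Fin n) * (n * n + 2)) G
    have e : (1 - 2 / (m : ℝ) / (2 * (Fintype.card (Fin 4 ↪ Fin n) : ℝ)))
        = 1 - 1 / ((m * Fintype.card (Fin 4 ↪ Fin n) : ℕ) : ℝ) := by
      push_cast
      field_simp
    rw [e] at h
    have hmN : 0 < m * Fintype.card (Fin 4 ↪ Fin n) := Nat.mul_pos (by omega) hNpos
    have hp := pow_bound (m * Fintype.card (Fin 4 ↪ Fin n)) (n * n + 2) hmN
    have hc : (Fintype.card (Omega d) : ℝ) ≤ (2 : ℝ) ^ (n * n) := by
      exact_mod_cast card_Omega_le n d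
    set S := ∑ G', |(kernel d ^ (m * Fintype.card (Fin 4 ↪ Fin n) * (n * n + 2))) G G'
      - 1 / (Fintype.card (Omega d) : ℝ)| with hS
    have hS0 : 0 ≤ S := Finset.sum_nonneg (fun _ _ => abs_nonneg _)
    have hmNr : (1 : ℝ) ≤ ((m * Fintype.card (Fin 4 ↪ Fin n) : ℕ) : ℝ) := by
      exact_mod_cast hmN
    have hpn : (0 : ℝ) ≤ (1 - 1 / ((m * Fintype.card (Fin 4 ↪ Fin n) : ℕ) : ℝ))
        ^ (m * Fintype.card (Fin 4 ↪ Fin n) * (n * n + 2)) := by
      apply pow_nonneg
      have : 1 / ((m * Fintype.card (Fin 4 ↪ Fin n) : ℕ) : ℝ) ≤ 1 := by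
        rw [div_le_one (by linarith)]; exact hmNr
      linarith
    have h2 : S ^ 2 ≤ (2 : ℝ) ^ (n * n) * (1 / 2 : ℝ) ^ (n * n + 2) := by
      calc S ^ 2 ≤ (Fintype.card (Omega d) : ℝ)
            * (1 - 1 / ((m * Fintype.card (Fin 4 ↪ Fin n) : ℕ) : ℝ))
            ^ (m * Fintype.card (Fin 4 ↪ Fin n) * (n * n + 2)) := h
        _ ≤ (2 : ℝ) ^ (n * n) * (1 - 1 / ((m * Fintype.card (Fin 4 ↪ Fin n) : ℕ) : ℝ))
            ^ (m * Fintype.card (Fin 4 ↪ Fin n) * (n * n + 2)) :=
            mul_le_mul_of_nonneg_right hc hpn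
        _ ≤ (2 : ℝ) ^ (n * n) * (1 / 2 : ℝ) ^ (n * n + 2) :=
            mul_le_mul_of_nonneg_left hp (by positivity)
    have h3 : (2 : ℝ) ^ (n * n) * (1 / 2 : ℝ) ^ (n * n + 2) = 1 / 4 := by
      rw [pow_add, ← mul_assoc, ← mul_pow]
      norm_num
    rw [h3] at h2
    nlinarith

section bridge

variable {V : Type} [Fintype V]

/-- extension by zero of a function on `Omega d` to all simple graphs -/
noncomputable def ext0 (d : V → ℕ) (f : Omega d → ℝ) (G : SimpleGraph V) : ℝ :=
  if h : ∀ i, G.degree i = d i then f ⟨G, h⟩ else 0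

theorem ext0_val (d : V → ℕ) (f : Omega d → ℝ) (G : Omega d) : ext0 d f G.1 = f G := by
  unfold ext0
  rw [dif_pos G.2]
  exact congrArg f (Subtype.ext rfl)

theorem ext0_of_not (d : V → ℕ) (f : Omega d → ℝ) {G : SimpleGraph V}
    (h : ¬ ∀ i, G.degree i = d i) : ext0 d f G = 0 := by
  unfold ext0
  rw [dif_neg h]

/-- sum over all graphs of a function vanishing outside the class of `d` -/
theorem sum_class [instF : Fintype (SimpleGraph V)] (d : V → ℕ) (g : SimpleGraph V → ℝ)
    (hg : ∀ G, (¬ ∀ i, G.degree i = d i) → g G = 0) :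
    ∑ G : SimpleGraph V, g G = ∑ G : Omega d, g G.1 := by
  have h1 : ∑ G : SimpleGraph V, g G
      = ∑ G ∈ (univ : Finset (SimpleGraph V)).filter (fun G => ∀ i, G.degree i = d i), g G := by
    rw [Finset.sum_filter]
    refine Finset.sum_congr rfl (fun G _ => ?_)
    by_cases h : ∀ i, G.degree i = d i
    · rw [if_pos h]
    · rw [if_neg h, hg G h]
  rw [h1]
  exact Finset.sum_subtype _ (fun G => by simp) g

/-- **Bridge.** A Poincare inequality with constant `c` (ordered-pair Dirichlet form) for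
functions on all simple graphs, relative to the averaging over degree classes, gives the
Poincare inequality with constant `c / 2` for the Laplacian of each `Omega d`. -/
theorem gap_of_main [instF : Fintype (SimpleGraph V)]
    (rel : SimpleGraph V → SimpleGraph V → Prop) [DecidableRel rel]
    (hrel : ∀ G H : SimpleGraph V, rel G H ↔ ∀ v, G.degree v = H.degree v)
    [DecidableRel (IsSwitch (V := V))] (c : ℝ)
    (hmain : ∀ F : SimpleGraph V → ℝ,
      c * ∑ G, (F G - Vale.Agent.H90.avgRel rel F G) ^ 2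
        ≤ ∑ G, ∑ G', if IsSwitch G G' then (F G - F G') ^ 2 else 0)
    (d : V → ℕ) (f : Omega d → ℝ) (hf : ∑ G, f G = 0) :
    c / 2 * ∑ G, f G ^ 2 ≤ ∑ G, f G * lapΩ d f G := by
  have hmainF := hmain (ext0 d f)
  -- the class average of ext0 vanishes
  have havg : ∀ G : SimpleGraph V, Vale.Agent.H90.avgRel rel (ext0 d f) G = 0 := by
    intro G
    unfold Vale.Agent.H90.avgRel
    have hsum : ∑ y ∈ univ.filter (fun y => rel G y), ext0 d f y = 0 := by
      by_cases hG : ∀ i, G.degree i = d i
      · have e1 : ∑ y ∈ univ.filter (fun y => rel G y), ext0 d f y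
            = ∑ y : SimpleGraph V, ext0 d f y := by
          rw [Finset.sum_filter]
          refine Finset.sum_congr rfl (fun y _ => ?_)
          by_cases hy : rel G y
          · rw [if_pos hy]
          · rw [if_neg hy]
            symm
            apply ext0_of_not
            intro hyd
            apply hy
            rw [hrel]
            intro v
            rw [hG v, hyd v]
        rw [e1, sum_class d (ext0 d f) (fun G h => ext0_of_not d f h)]
        rw [← hf]
        exact Finset.sum_congr rfl (fun G _ => ext0_val d f G)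
      · apply Finset.sum_eq_zero
        intro y hy
        rw [Finset.mem_filter] at hy
        apply ext0_of_not
        intro hyd
        apply hG
        intro i
        rw [(hrel G y).1 hy.2 i, hyd i]
    rw [hsum, zero_div]
  have hL : ∑ G, (ext0 d f G - Vale.Agent.H90.avgRel rel (ext0 d f) G) ^ 2
      = ∑ G : Omega d, f G ^ 2 := by
    have e1 : ∑ G, (ext0 d f G - Vale.Agent.H90.avgRel rel (ext0 d f) G) ^ 2
        = ∑ G, (ext0 d f G) ^ 2 := by
      refine Finset.sum_congr rfl (fun G _ => ?_)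
      rw [havg G, sub_zero]
    rw [e1, sum_class d (fun G => (ext0 d f G) ^ 2)
      (fun G h => by simp only [ext0_of_not d f h]; norm_num)]
    exact Finset.sum_congr rfl (fun G _ => by rw [ext0_val])
  have hR : ∑ G, ∑ G', (if IsSwitch G G' then (ext0 d f G - ext0 d f G') ^ 2 else 0)
      = ∑ G : Omega d, ∑ G' : Omega d, if adjΩ d G G' then (f G - f G') ^ 2 else 0 := by
    have hzero : ∀ G : SimpleGraph V, (¬ ∀ i, G.degree i = d i) →
        ∑ G', (if IsSwitch G G' then (ext0 d f G - ext0 d f G') ^ 2 else 0) = 0 := by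
      intro G hG
      apply Finset.sum_eq_zero
      intro G' _
      by_cases hs : IsSwitch G G'
      · rw [if_pos hs]
        have hG' : ¬ ∀ i, G'.degree i = d i := by
          intro h
          apply hG
          intro i
          rw [← h i]
          exact (IsSwitch.degree hs i).symm
        rw [ext0_of_not d f hG, ext0_of_not d f hG']
        norm_num
      · rw [if_neg hs]
    rw [sum_class d _ hzero]
    refine Finset.sum_congr rfl (fun G _ => ?_)
    have hzero' : ∀ G' : SimpleGraph V, (¬ ∀ i, G'.degree i = d i) →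
        (if IsSwitch G.1 G' then (ext0 d f G.1 - ext0 d f G') ^ 2 else 0) = 0 := by
      intro G' hG'
      by_cases hs : IsSwitch G.1 G'
      · exfalso
        apply hG'
        intro i
        rw [IsSwitch.degree hs i]
        exact G.2 i
      · rw [if_neg hs]
    rw [sum_class d _ hzero']
    refine Finset.sum_congr rfl (fun G' _ => ?_)
    rw [ext0_val, ext0_val]
    by_cases h : IsSwitch G.1 G'.1
    · rw [if_pos h, if_pos (show adjΩ d G G' from h)]
    · rw [if_neg h, if_neg (show ¬ adjΩ d G G' from h)]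
  rw [hL, hR] at hmainF
  have h2 : ∑ G, f G * lapΩ d f G
      = (1 / 2 : ℝ) * ∑ G, ∑ G', if adjΩ d G G' then (f G - f G') ^ 2 else 0 :=
    GapCore.inner_lap_self (adjΩ d) (adjΩ_symm d) f
  rw [h2]
  linarith

/-- the bridge for the relation `equal degrees`, all instances classical -/
theorem poincare_of_main (c : ℝ)
    (hmain : ∀ F : SimpleGraph V → ℝ,
      c * ∑ G, (F G - Vale.Agent.H90.avgRel
          (fun G H : SimpleGraph V => ∀ v, G.degree v = H.degree v) F G) ^ 2
        ≤ ∑ G, ∑ G', if IsSwitch G G' then (F G - F G') ^ 2 else 0)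
    (d : V → ℕ) (f : Omega d → ℝ) (hf : ∑ G, f G = 0) :
    c / 2 * ∑ G, f G ^ 2 ≤ ∑ G, f G * lapΩ d f G :=
  gap_of_main (fun G H : SimpleGraph V => ∀ v, G.degree v = H.degree v)
    (fun _ _ => Iff.rfl) c hmain d f hf

end bridge

/-- **Final reduction.** If for every finite vertex type the ordered-pair Dirichlet form
of the switch graph on simple graphs dominates `4 / m` times the squared distance to the
average over the graphs with the same degrees, then the lazy switch chain of every degree
function `d` on `Fin n` is within total variation distance `1/4` of uniform after at most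
`m * n^6` steps. -/
theorem mixing_of_main (m : ℕ) (hm : 1 ≤ m)
    (hmain : ∀ (V : Type) [Fintype V] (F : SimpleGraph V → ℝ),
      (4 / (m : ℝ)) * ∑ G, (F G - Vale.Agent.H90.avgRel
          (fun G H : SimpleGraph V => ∀ v, G.degree v = H.degree v) F G) ^ 2
        ≤ ∑ G, ∑ G', if IsSwitch G G' then (F G - F G') ^ 2 else 0)
    (n : ℕ) (hn : 4 ≤ n) (d : Fin n → ℕ) :
    ∃ t ≤ m * n ^ 6, ∀ G : Omega d,
      (1 / 2 : ℝ) * ∑ G', |(kernel d ^ t) G G' - 1 / (Fintype.card (Omega d) : ℝ)| ≤ 1 / 4 := by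
  apply mixing_of_poincare_gen n hn d m hm
  intro f hf
  have := poincare_of_main (V := Fin n) (4 / (m : ℝ)) (hmain (Fin n)) d f hf
  have e : (4 / (m : ℝ)) / 2 = 2 / (m : ℝ) := by ring
  rw [e] at this
  exact this

end Vale.Agent.H12.Switch
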