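import Vale.Agent.H12.PrimeSum

namespace Vale.Agent.H12.PrimeSum

open Finset Pointwise

/-- characterisation of membership at an extreme position of the window -/
theorem newman_edge {C : Finset ℤ} {X : Set ℤ} (hX : ∀ n : ℤ, ∃! c, c ∈ C ∧ n - c ∈ X)
    (y c₀ : ℤ) (hc₀ : c₀ ∈ C) : y - c₀ ∈ X ↔ ∀ c ∈ C, c ≠ c₀ → y - c ∉ X := by
  constructor
  · intro h c hc hne hmem
    exact hne ((hX y).unique ⟨hc, hmem⟩ ⟨hc₀, h⟩)
  · intro h
    obtain ⟨c, ⟨hc, hmem⟩, -⟩ := hX y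
    by_cases hcc : c = c₀
    · rw [← hcc]; exact hmem
    · exact absurd hmem (h c hc hcc)

theorem newman_determined {C : Finset ℤ} (hne : C.Nonempty) {T T' : Set ℤ}
    (hT : ∀ n : ℤ, ∃! c, c ∈ C ∧ n - c ∈ T) (hT' : ∀ n : ℤ, ∃! c, c ∈ C ∧ n - c ∈ T')
    (n : ℤ) (hag : ∀ i, n ≤ i → i < n + (C.max' hne - C.min' hne) → (i ∈ T ↔ i ∈ T')) :
    ∀ i, i ∈ T ↔ i ∈ T' := by
  obtain ⟨lo, hlo⟩ : ∃ lo, lo = C.min' hne := ⟨_, rfl⟩
  obtain ⟨hi, hhi⟩ : ∃ hi, hi = C.max' hne := ⟨_, rfl⟩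
  rw [← hlo, ← hhi] at hag
  have hlo_mem : lo ∈ C := hlo ▸ C.min'_mem hne
  have hhi_mem : hi ∈ C := hhi ▸ C.max'_mem hne
  have hle : ∀ c ∈ C, lo ≤ c := fun c hc => hlo ▸ C.min'_le c hc
  have hge : ∀ c ∈ C, c ≤ hi := fun c hc => hhi ▸ C.le_max' c hc
  have hplus : ∀ j : ℤ, (∀ i, j ≤ i → i < j + (hi - lo) → (i ∈ T ↔ i ∈ T')) →
      (j + (hi - lo) ∈ T ↔ j + (hi - lo) ∈ T') := by
    intro j hj
    have e : j + (hi - lo) = (j + hi) - lo := by ring
    rw [e, newman_edge hT (j + hi) lo hlo_mem, newman_edge hT' (j + hi) lo hlo_mem]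
    refine forall_congr' (fun c => forall_congr' (fun hc => forall_congr' (fun hcne => ?_)))
    have h1 : lo < c := lt_of_le_of_ne (hle c hc) (Ne.symm hcne)
    have h2 := hge c hc
    rw [hj (j + hi - c) (by linarith) (by linarith)]
  have hminus : ∀ j : ℤ, (∀ i, j ≤ i → i < j + (hi - lo) → (i ∈ T ↔ i ∈ T')) →
      (j - 1 ∈ T ↔ j - 1 ∈ T') := by
    intro j hj
    have e : j - 1 = (j - 1 + hi) - hi := by ring
    rw [e, newman_edge hT (j - 1 + hi) hi hhi_mem, newman_edge hT' (j - 1 + hi) hi hhi_mem]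
    refine forall_congr' (fun c => forall_congr' (fun hc => forall_congr' (fun hcne => ?_)))
    have h1 : c < hi := lt_of_le_of_ne (hge c hc) hcne
    have h2 := hle c hc
    rw [hj (j - 1 + hi - c) (by omega) (by omega)]
  have hall : ∀ j : ℤ, ∀ i, j ≤ i → i < j + (hi - lo) → (i ∈ T ↔ i ∈ T') := by
    intro j
    refine Int.inductionOn' (motive := fun j => ∀ i, j ≤ i → i < j + (hi - lo) → (i ∈ T ↔ i ∈ T')) j n hag (fun k _ ih => ?_) (fun k _ ih => ?_)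
    · intro i hi1 hi2
      by_cases h : i = k + (hi - lo)
      · rw [h]; exact hplus k ih
      · exact ih i (by omega) (by omega)
    · intro i hi1 hi2
      by_cases h : i = k - 1
      · rw [h]; exact hminus k ih
      · exact ih i (by omega) (by omega)
  intro i
  have h := hplus (i - (hi - lo)) (hall _)
  simpa using h

/-- **Newman's theorem** with a uniform period: every complement of a finite set `C` of integers
is periodic with period `N`, where `N` depends only on `C`. -/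
theorem newman (C : Finset ℤ) : ∃ N : ℕ, 0 < N ∧ ∀ T : Set ℤ,
    (∀ n : ℤ, ∃! c, c ∈ C ∧ n - c ∈ T) → ∀ t, t ∈ T ↔ t + (N : ℤ) ∈ T := by
  classical
  by_cases hne : C.Nonempty
  swap
  · refine ⟨1, one_pos, fun T hT => ?_⟩
    obtain ⟨c, ⟨hc, -⟩, -⟩ := hT 0
    exact absurd ⟨c, hc⟩ hne
  obtain ⟨m, hm⟩ : ∃ m : ℕ, (m : ℤ) = C.max' hne - C.min' hne :=
    ⟨(C.max' hne - C.min' hne).toNat,
      Int.toNat_of_nonneg (sub_nonneg.mpr (C.min'_le _ (C.max'_mem hne)))⟩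
  refine ⟨(2 ^ m).factorial, Nat.factorial_pos _, fun T hT => ?_⟩
  obtain ⟨win, hwin⟩ : ∃ win : ℕ → Finset ℕ,
      ∀ j u, u ∈ win j ↔ u < m ∧ (j : ℤ) + (u : ℤ) ∈ T :=
    ⟨fun j => (Finset.range m).filter (fun u => (j : ℤ) + (u : ℤ) ∈ T), fun j u => by simp⟩
  have hmaps : ∀ j ∈ Finset.range (2 ^ m + 1), win j ∈ (Finset.range m).powerset := by
    intro j _
    refine Finset.mem_powerset.mpr (fun u hu => ?_)
    exact Finset.mem_range.mpr ((hwin j u).mp hu).1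
  have hcard : ((Finset.range m).powerset).card < (Finset.range (2 ^ m + 1)).card := by
    simp
  obtain ⟨j₁, hj₁, j₂, hj₂, hne12, hw12⟩ :=
    Finset.exists_ne_map_eq_of_card_lt_of_maps_to hcard hmaps
  have key : ∀ a b : ℕ, a < b → win a = win b →
      ∀ t, t ∈ T ↔ t + ((b - a : ℕ) : ℤ) ∈ T := by
    intro a b hab hw
    have hT' : ∀ n : ℤ, ∃! c, c ∈ C ∧ n - c ∈ {t : ℤ | t + ((b - a : ℕ) : ℤ) ∈ T} := by
      intro n
      obtain ⟨c, ⟨hc, hmem⟩, huniq⟩ := hT (n + ((b - a : ℕ) : ℤ))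
      refine ⟨c, ⟨hc, ?_⟩, ?_⟩
      · show n - c + ((b - a : ℕ) : ℤ) ∈ T
        have e : n - c + ((b - a : ℕ) : ℤ) = n + ((b - a : ℕ) : ℤ) - c := by ring
        rw [e]; exact hmem
      · rintro c' ⟨hc', hmem'⟩
        apply huniq
        refine ⟨hc', ?_⟩
        have e : n + ((b - a : ℕ) : ℤ) - c' = n - c' + ((b - a : ℕ) : ℤ) := by ring
        rw [e]; exact hmem'
    refine newman_determined hne hT hT' (a : ℤ) ?_
    intro i hi1 hi2
    obtain ⟨u, hu⟩ : ∃ u : ℕ, (u : ℤ) = i - a := ⟨(i - a).toNat, Int.toNat_of_nonneg (by linarith)⟩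
    have hum : u < m := by
      have h : (u : ℤ) < m := by rw [hu, hm]; linarith
      exact_mod_cast h
    have h1 : i ∈ T ↔ u ∈ win a := by
      rw [hwin]
      have e : (a : ℤ) + u = i := by rw [hu]; ring
      rw [e]; tauto
    have h2 : u ∈ win b ↔ i + ((b - a : ℕ) : ℤ) ∈ T := by
      rw [hwin]
      have e : (b : ℤ) + u = i + ((b - a : ℕ) : ℤ) := by
        rw [hu, Nat.cast_sub hab.le]; ring
      rw [e]; tauto
    rw [h1, hw, h2]; rfl
  obtain ⟨D, hDpos, hDle, hD⟩ : ∃ D : ℕ, 0 < D ∧ D ≤ 2 ^ m ∧ ∀ t, t ∈ T ↔ t + (D : ℤ) ∈ T := by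
    have b1 := Finset.mem_range.mp hj₁
    have b2 := Finset.mem_range.mp hj₂
    rcases lt_or_gt_of_ne hne12 with h | h
    · exact ⟨j₂ - j₁, Nat.sub_pos_of_lt h, by omega, key j₁ j₂ h hw12⟩
    · exact ⟨j₁ - j₂, Nat.sub_pos_of_lt h, by omega, key j₂ j₁ h hw12.symm⟩
  obtain ⟨q, hq⟩ := Nat.dvd_factorial hDpos hDle
  rw [hq]
  have hmul : ∀ q : ℕ, ∀ t, t ∈ T ↔ t + ((D * q : ℕ) : ℤ) ∈ T := by
    intro q
    induction q with
    | zero => intro t; simp
    | succ q ih =>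
      intro t
      rw [ih t, hD (t + ((D * q : ℕ) : ℤ))]
      have e : t + ((D * q : ℕ) : ℤ) + (D : ℤ) = t + ((D * (q + 1) : ℕ) : ℤ) := by
        push_cast; ring
      rw [e]
  exact hmul q


variable {G : Type*} [AddCommGroup G]

theorem inv_closure_of_iff {S : Set G} {B : Set G} (h : ∀ y ∈ S, ∀ a, a ∈ B ↔ a + y ∈ B) :
    Inv (AddSubgroup.closure S) B := by
  have hiff : ∀ k ∈ AddSubgroup.closure S, ∀ a, a ∈ B ↔ a + k ∈ B := by
    intro k hk
    induction hk using AddSubgroup.closure_induction with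
    | mem y hy => exact h y hy
    | zero => intro a; simp
    | add y z _ _ hy hz => intro a; rw [hy a, hz (a + y), add_assoc]
    | neg y _ hy => intro a; rw [hy (a + -y)]; simp
  exact fun k hk a ha => (hiff k hk a).mp ha

/-- A finite set contained in a line `f₀ + ℤ w` is rigid: every complement is invariant under
`m • (F - F)` for some `m > 0` depending only on `F`. -/
theorem line_inv (htf : ∀ (n : ℤ) (w : G), n • w = 0 → n = 0 ∨ w = 0) (F : Finset G) (f₀ w : G)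
    (hF : ∀ f ∈ F, ∃ c : ℤ, f = f₀ + c • w) :
    ∃ m : ℕ, 0 < m ∧ ∀ B : Set G, Compl B (↑F) Set.univ → Inv (Psub m (↑F : Set G)) B := by
  classical
  by_cases hw : w = 0
  · refine ⟨1, one_pos, fun B _ => inv_closure_of_iff ?_⟩
    rintro y ⟨f, hf, f', hf', rfl⟩ a
    obtain ⟨c, hc⟩ := hF f hf
    obtain ⟨c', hc'⟩ := hF f' hf'
    have e : f - f' = 0 := by rw [hc, hc', hw]; simp
    simp [e]
  choose! γ hγ using hF
  obtain ⟨N, hN, hnew⟩ := newman (F.image γ)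
  refine ⟨N, hN, fun B hB => ?_⟩
  have hper : ∀ x, x ∈ B ↔ x + (N : ℤ) • w ∈ B := by
    intro x
    have hT : ∀ n : ℤ, ∃! c, c ∈ F.image γ ∧ n - c ∈ {t : ℤ | x + t • w ∈ B} := by
      intro n
      obtain ⟨b, hb, hf⟩ := (hB.cov (x + n • w + f₀)).mp trivial
      have hfe := hγ _ hf
      have hbe : x + (n - γ (x + n • w + f₀ - b)) • w = b := by
        have h2 : γ (x + n • w + f₀ - b) • w = x + n • w - b := by
          have h3 : γ (x + n • w + f₀ - b) • w =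
              (f₀ + γ (x + n • w + f₀ - b) • w) - f₀ := by abel
          rw [h3, ← hfe]; abel
        rw [sub_smul, h2]; abel
      refine ⟨γ (x + n • w + f₀ - b), ⟨Finset.mem_image_of_mem γ hf, ?_⟩, ?_⟩
      · show x + (n - γ (x + n • w + f₀ - b)) • w ∈ B
        rw [hbe]; exact hb
      · rintro c' ⟨hc', hmem'⟩
        obtain ⟨f', hf', rfl⟩ := Finset.mem_image.mp hc'
        have hb' : x + (n - γ f') • w ∈ B := hmem'
        have e' : x + n • w + f₀ - (x + (n - γ f') • w) = f' := by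
          have e1 : x + n • w + f₀ - (x + (n - γ f') • w) = f₀ + γ f' • w := by
            rw [sub_smul]; abel
          rw [e1]; exact (hγ f' hf').symm
        have h4 := hB.uniq _ hb' _ hb (x + n • w + f₀) (by rw [e']; exact hf') hf
        rw [← hbe] at h4
        have h5 : (γ (x + n • w + f₀ - b) - γ f') • w = 0 := by
          have h6 := add_left_cancel h4
          rw [sub_smul, sub_smul] at h6
          rw [sub_smul]
          have h7 : γ (x + n • w + f₀ - b) • w - γ f' • w =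
              (n • w - γ f' • w) - (n • w - γ (x + n • w + f₀ - b) • w) := by abel
          rw [h7, h6]; abel
        rcases htf _ _ h5 with h8 | h8
        · exact (sub_eq_zero.mp h8).symm
        · exact absurd h8 hw
    have h := hnew _ hT 0
    simpa using h
  have hperk : ∀ k : ℤ, ∀ x, x ∈ B ↔ x + k • ((N : ℤ) • w) ∈ B := by
    intro k
    induction k using Int.induction_on with
    | zero => intro x; simp
    | succ i ih =>
      intro x
      rw [ih x, hper (x + (i : ℤ) • ((N : ℤ) • w))]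
      have e : x + (i : ℤ) • ((N : ℤ) • w) + (N : ℤ) • w = x + ((i : ℤ) + 1) • ((N : ℤ) • w) := by
        rw [add_smul, one_smul]; abel
      rw [e]
    | pred i ih =>
      intro x
      rw [ih x, hper (x + (-(i : ℤ) - 1) • ((N : ℤ) • w))]
      have e : x + (-(i : ℤ) - 1) • ((N : ℤ) • w) + (N : ℤ) • w = x + (-(i : ℤ)) • ((N : ℤ) • w) := by
        rw [sub_smul, one_smul]; abel
      rw [e]
  refine inv_closure_of_iff ?_
  rintro y ⟨f, hf, f', hf', rfl⟩ a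
  have e : N • (f - f') = (γ f - γ f') • ((N : ℤ) • w) := by
    have e1 : f - f' = (γ f - γ f') • w := by
      have hf1 := hγ f hf
      have hf2 := hγ f' hf'
      have e2 : (f₀ + γ f • w) - (f₀ + γ f' • w) = (γ f - γ f') • w := by
        rw [sub_smul]; abel
      rw [← e2, ← hf1, ← hf2]
    rw [e1, ← natCast_zsmul, smul_comm]
  rw [e]
  exact hperk _ a

/-- rigidity for sets of prime cardinality or contained in a line -/
theorem rigid_of_prime_or_line (htf : ∀ (n : ℤ) (w : G), n • w = 0 → n = 0 ∨ w = 0)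
    (F : Finset G)
    (h : F.card.Prime ∨ ∃ f₀ w : G, ∀ f ∈ F, ∃ c : ℤ, f = f₀ + c • w) :
    ∃ m : ℕ, 0 < m ∧ ∀ B : Set G, Compl B (↑F) Set.univ → Inv (Psub m (↑F : Set G)) B := by
  rcases h with h | ⟨f₀, w, h⟩
  · exact ⟨F.card, h.pos, fun B hB => szegedy_inv B F h hB⟩
  · exact line_inv htf F f₀ w h

/-- **Periodic tilings for direct sums of two sets, each of prime cardinality or contained in a
line.** -/
theorem prime_or_line_pair_periodic [IsNoetherian ℤ G] [DecidableEq G]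
    (htf : ∀ (n : ℤ) (w : G), n • w = 0 → n = 0 ∨ w = 0) (F₁ F₂ : Finset G)
    (h₁ : F₁.card.Prime ∨ ∃ f₀ w : G, ∀ f ∈ F₁, ∃ c : ℤ, f = f₀ + c • w)
    (h₂ : F₂.card.Prime ∨ ∃ f₀ w : G, ∀ f ∈ F₂, ∃ c : ℤ, f = f₀ + c • w)
    (hdir : (F₁ + F₂).card = F₁.card * F₂.card) (A : Set G)
    (hA : ∀ g, ∃! a, a ∈ A ∧ g - a ∈ F₁ + F₂) :
    ∃ (A' : Set G) (N : ℕ), 0 < N ∧ (∀ g, ∃! a, a ∈ A' ∧ g - a ∈ F₁ + F₂) ∧
      ∀ a ∈ A', ∀ v : G, a + N • v ∈ A' := by
  have hinj := Finset.card_add_iff.mp hdir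
  have hT : Tile2 A (↑F₁ : Set G) (↑F₂ : Set G) := by
    refine ⟨?_, ?_⟩
    · intro g
      obtain ⟨a, ⟨ha, hf⟩, -⟩ := hA g
      obtain ⟨f₁, hf₁, f₂, hf₂, h⟩ := Finset.mem_add.mp hf
      exact ⟨a, ha, f₁, hf₁, f₂, hf₂, by rw [add_assoc, h]; abel⟩
    · intro a ha f₁ hf₁ f₂ hf₂ a' ha' f₁' hf₁' f₂' hf₂' heq
      have h1 : a + f₁ + f₂ - a ∈ F₁ + F₂ :=
        Finset.mem_add.mpr ⟨f₁, hf₁, f₂, hf₂, by abel⟩
      have h2 : a + f₁ + f₂ - a' ∈ F₁ + F₂ :=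
        Finset.mem_add.mpr ⟨f₁', hf₁', f₂', hf₂', by rw [heq]; abel⟩
      have haa : a = a' := (hA (a + f₁ + f₂)).unique ⟨ha, h1⟩ ⟨ha', h2⟩
      subst haa
      have hff : f₁ + f₂ = f₁' + f₂' := by
        have e : a + f₁ + f₂ = a + (f₁ + f₂) := by abel
        have e' : a + f₁' + f₂' = a + (f₁' + f₂') := by abel
        rw [e, e'] at heq
        exact add_left_cancel heq
      have m1 : ((f₁, f₂) : G × G) ∈ (↑F₁ : Set G) ×ˢ (↑F₂ : Set G) :=
        Set.mem_prod.mpr ⟨Finset.mem_coe.mpr hf₁, Finset.mem_coe.mpr hf₂⟩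
      have m2 : ((f₁', f₂') : G × G) ∈ (↑F₁ : Set G) ×ˢ (↑F₂ : Set G) :=
        Set.mem_prod.mpr ⟨Finset.mem_coe.mpr hf₁', Finset.mem_coe.mpr hf₂'⟩
      have h3 := hinj m1 m2 hff
      exact ⟨rfl, congrArg Prod.fst h3, congrArg Prod.snd h3⟩
  obtain ⟨a₀, -, e₁, he₁, e₂, he₂, -⟩ := hT.ex 0
  obtain ⟨m₁, hm₁, hr₁⟩ := rigid_of_prime_or_line htf F₁ h₁
  obtain ⟨m₂, hm₂, hr₂⟩ := rigid_of_prime_or_line htf F₂ h₂
  obtain ⟨A', N, hN, hc, hinv⟩ := rigid_pair_periodic (F₁ := (↑F₁ : Set G)) (F₂ := (↑F₂ : Set G))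
    ⟨e₁, he₁⟩ ⟨e₂, he₂⟩ hm₁ hm₂ hr₁ hr₂ hT
  refine ⟨A', N, hN, ?_, hinv⟩
  intro g
  have hmem : ∀ x : G, x ∈ (↑F₁ : Set G) + (↑F₂ : Set G) ↔ x ∈ F₁ + F₂ := by
    intro x
    rw [← Finset.coe_add, Finset.mem_coe]
  obtain ⟨a, ha, hf⟩ := (hc.cov g).mp trivial
  refine ⟨a, ⟨ha, (hmem _).mp hf⟩, ?_⟩
  rintro a' ⟨ha', hf'⟩
  exact hc.uniq a' ha' a ha g ((hmem _).mpr hf') hf


end Vale.Agent.H12.PrimeSum
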