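import Vale.Agent.H12.LoopSum

namespace Vale.Agent.H12.PrimeSum

open Finset Pointwise

/-- the cross product on `ℤ^3` in coordinates -/
def cr (u v : Fin 3 → ℤ) : Fin 3 → ℤ :=
  ![u 1 * v 2 - u 2 * v 1, u 2 * v 0 - u 0 * v 2, u 0 * v 1 - u 1 * v 0]

/-- the linear functional `x ↦ n · x` on `ℤ^3` -/
def dtHom (n : Fin 3 → ℤ) : (Fin 3 → ℤ) →+ ℤ where
  toFun x := n 0 * x 0 + n 1 * x 1 + n 2 * x 2
  map_zero' := by simp
  map_add' := by intro x y; simp only [Pi.add_apply]; ring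

theorem dtHom_apply (n x : Fin 3 → ℤ) : dtHom n x = n 0 * x 0 + n 1 * x 1 + n 2 * x 2 := rfl

theorem cr_apply_zero (u v : Fin 3 → ℤ) : cr u v 0 = u 1 * v 2 - u 2 * v 1 := rfl
theorem cr_apply_one (u v : Fin 3 → ℤ) : cr u v 1 = u 2 * v 0 - u 0 * v 2 := rfl
theorem cr_apply_two (u v : Fin 3 → ℤ) : cr u v 2 = u 0 * v 1 - u 1 * v 0 := rfl

/-- Cramer's rule in dimension three -/
theorem cramer3 (u v w x : Fin 3 → ℤ) :
    dtHom (cr u v) w • x =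
      dtHom (cr v w) x • u + dtHom (cr w u) x • v + dtHom (cr u v) x • w := by
  funext j
  fin_cases j
  · show dtHom (cr u v) w * x 0 =
      dtHom (cr v w) x * u 0 + dtHom (cr w u) x * v 0 + dtHom (cr u v) x * w 0
    simp only [dtHom_apply, cr_apply_zero, cr_apply_one, cr_apply_two]; ring
  · show dtHom (cr u v) w * x 1 =
      dtHom (cr v w) x * u 1 + dtHom (cr w u) x * v 1 + dtHom (cr u v) x * w 1
    simp only [dtHom_apply, cr_apply_zero, cr_apply_one, cr_apply_two]; ring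
  · show dtHom (cr u v) w * x 2 =
      dtHom (cr v w) x * u 2 + dtHom (cr w u) x * v 2 + dtHom (cr u v) x * w 2
    simp only [dtHom_apply, cr_apply_zero, cr_apply_one, cr_apply_two]; ring

theorem fin3_ext {u v : Fin 3 → ℤ} (h0 : u 0 = v 0) (h1 : u 1 = v 1) (h2 : u 2 = v 2) : u = v := by
  funext j
  fin_cases j
  · exact h0
  · exact h1
  · exact h2

/-- a finite set of `ℤ^3` that is not contained in a line contains three non-collinear points -/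
theorem exists_noncollinear (F : Finset (Fin 3 → ℤ)) (hne : F.Nonempty)
    (hline : ¬ ∃ f₀ w : Fin 3 → ℤ, ∀ f ∈ F, ∃ c : ℤ, f = f₀ + c • w) :
    ∃ f₀ ∈ F, ∃ f₁ ∈ F, ∃ f₂ ∈ F, cr (f₁ - f₀) (f₂ - f₀) ≠ 0 := by
  by_contra hcon
  have hall : ∀ f₀ ∈ F, ∀ f₁ ∈ F, ∀ f₂ ∈ F, cr (f₁ - f₀) (f₂ - f₀) = 0 := by
    intro f₀ h₀ f₁ h₁ f₂ h₂
    by_contra h
    exact hcon ⟨f₀, h₀, f₁, h₁, f₂, h₂, h⟩
  obtain ⟨f₀, hf₀⟩ := hne
  by_cases hconst : ∀ f ∈ F, f = f₀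
  · exact hline ⟨f₀, 0, fun f hf => ⟨0, by rw [hconst f hf]; simp⟩⟩
  · obtain ⟨f₁, hf₁⟩ := not_forall.mp hconst
    obtain ⟨hf₁F, hf₁ne⟩ := Classical.not_imp.mp hf₁
    obtain ⟨u, hu⟩ : ∃ u : Fin 3 → ℤ, u = f₁ - f₀ := ⟨_, rfl⟩
    have hu0 : u ≠ 0 := by
      rw [hu]; exact sub_ne_zero.mpr hf₁ne
    obtain ⟨g₁, hg₁⟩ : ∃ g₁ : ℤ, g₁ = (Int.gcd (u 1) (u 2) : ℤ) := ⟨_, rfl⟩
    obtain ⟨g, hg⟩ : ∃ g : ℤ, g = (Int.gcd (u 0) g₁ : ℤ) := ⟨_, rfl⟩
    have hd0 : g ∣ u 0 := by rw [hg]; exact Int.gcd_dvd_left _ _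
    have hdg : g ∣ g₁ := by rw [hg]; exact Int.gcd_dvd_right _ _
    have hd1 : g ∣ u 1 := dvd_trans hdg (by rw [hg₁]; exact Int.gcd_dvd_left _ _)
    have hd2 : g ∣ u 2 := dvd_trans hdg (by rw [hg₁]; exact Int.gcd_dvd_right _ _)
    have hg0 : g ≠ 0 := by
      intro h0
      rw [h0] at hd0 hd1 hd2
      exact hu0 (fin3_ext (zero_dvd_iff.mp hd0) (zero_dvd_iff.mp hd1) (zero_dvd_iff.mp hd2))
    obtain ⟨a0, a1, a2, hbez⟩ : ∃ a0 a1 a2 : ℤ, a0 * u 0 + a1 * u 1 + a2 * u 2 = g := by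
      have e1 := Int.gcd_eq_gcd_ab (u 1) (u 2)
      have e0 := Int.gcd_eq_gcd_ab (u 0) g₁
      rw [← hg₁] at e1
      rw [← hg] at e0
      refine ⟨Int.gcdA (u 0) g₁, Int.gcdA (u 1) (u 2) * Int.gcdB (u 0) g₁,
        Int.gcdB (u 1) (u 2) * Int.gcdB (u 0) g₁, ?_⟩
      rw [e0, e1]; ring
    obtain ⟨w, hw⟩ : ∃ w : Fin 3 → ℤ, ∀ j, u j = g * w j := by
      refine ⟨fun j => u j / g, fun j => ?_⟩
      have hdj : g ∣ u j := by
        fin_cases j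
        · exact hd0
        · exact hd1
        · exact hd2
      exact (Int.mul_ediv_cancel' hdj).symm
    refine hline ⟨f₀, w, fun f hf => ?_⟩
    obtain ⟨d, hd⟩ : ∃ d : Fin 3 → ℤ, d = f - f₀ := ⟨_, rfl⟩
    have hcr := hall f₀ hf₀ f₁ hf₁F f hf
    rw [← hu, ← hd] at hcr
    have r1 : u 1 * d 2 - u 2 * d 1 = 0 := by
      have h := congrFun hcr 0
      rw [cr_apply_zero] at h; exact h
    have r2 : u 2 * d 0 - u 0 * d 2 = 0 := by
      have h := congrFun hcr 1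
      rw [cr_apply_one] at h; exact h
    have r3 : u 0 * d 1 - u 1 * d 0 = 0 := by
      have h := congrFun hcr 2
      rw [cr_apply_two] at h; exact h
    refine ⟨a0 * d 0 + a1 * d 1 + a2 * d 2, ?_⟩
    have hcomp : ∀ l, d l = (a0 * d 0 + a1 * d 1 + a2 * d 2) * w l := by
      intro l
      have hkey : g * d l = g * ((a0 * d 0 + a1 * d 1 + a2 * d 2) * w l) := by
        have e : g * ((a0 * d 0 + a1 * d 1 + a2 * d 2) * w l) =
            (a0 * d 0 + a1 * d 1 + a2 * d 2) * u l := by rw [hw l]; ring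
        rw [e, ← hbez]
        fin_cases l
        · show (a0 * u 0 + a1 * u 1 + a2 * u 2) * d 0 = (a0 * d 0 + a1 * d 1 + a2 * d 2) * u 0
          linear_combination (-a1) * r3 + a2 * r2
        · show (a0 * u 0 + a1 * u 1 + a2 * u 2) * d 1 = (a0 * d 0 + a1 * d 1 + a2 * d 2) * u 1
          linear_combination a0 * r3 - a2 * r1
        · show (a0 * u 0 + a1 * u 1 + a2 * u 2) * d 2 = (a0 * d 0 + a1 * d 1 + a2 * d 2) * u 2
          linear_combination (-a0) * r2 + a1 * r1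
      exact mul_left_cancel₀ hg0 hkey
    funext l
    have h := hcomp l
    rw [hd] at h
    simp only [Pi.sub_apply] at h
    simp only [Pi.add_apply, Pi.smul_apply, smul_eq_mul]
    rw [hd] at *
    simp only [Pi.sub_apply] at *
    linarith

/-- **Periodic tilings in `ℤ^3` for direct sums of sets of prime cardinality, none of which is
contained in a line.** -/
theorem dim3_noncollinear_periodic {k : ℕ} (F : Fin k → Finset (Fin 3 → ℤ))
    (hF : ∀ i, (F i).card.Prime)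
    (hline : ∀ i, ¬ ∃ f₀ w : Fin 3 → ℤ, ∀ f ∈ F i, ∃ c : ℤ, f = f₀ + c • w)
    (A : Set (Fin 3 → ℤ))
    (hA : ∀ g : Fin 3 → ℤ, ∃! q : (Fin 3 → ℤ) × (Fin k → Fin 3 → ℤ),
      q.1 ∈ A ∧ (∀ i, q.2 i ∈ F i) ∧ q.1 + ∑ i, q.2 i = g) :
    ∃ (A' : Set (Fin 3 → ℤ)) (N : ℕ), 0 < N ∧
      (∀ g : Fin 3 → ℤ, ∃! q : (Fin 3 → ℤ) × (Fin k → Fin 3 → ℤ),
        q.1 ∈ A' ∧ (∀ i, q.2 i ∈ F i) ∧ q.1 + ∑ i, q.2 i = g) ∧
      ∀ a ∈ A', ∀ v : Fin 3 → ℤ, a + N • v ∈ A' := by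
  have key : ∀ i, ∃ t : (Fin 3 → ℤ) →+ ℤ, (∀ f ∈ F i, ∀ f' ∈ F i, t f = t f') ∧
      ∃ N : ℕ, 0 < N ∧ ∀ x, t x = 0 → N • x ∈
        AddSubgroup.closure {y : Fin 3 → ℤ | ∃ f ∈ F i, ∃ f' ∈ F i, y = f - f'} := by
    intro i
    obtain ⟨f₀, hf₀, f₁, hf₁, f₂, hf₂, hn⟩ :=
      exists_noncollinear (F i) (Finset.card_pos.mp (hF i).pos) (hline i)
    have hcl : ∀ f ∈ F i, f - f₀ ∈
        AddSubgroup.closure {y : Fin 3 → ℤ | ∃ f ∈ F i, ∃ f' ∈ F i, y = f - f'} :=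
      fun f hf => AddSubgroup.subset_closure ⟨f, hf, f₀, hf₀, rfl⟩
    obtain ⟨n, hn_def⟩ : ∃ n : Fin 3 → ℤ, n = cr (f₁ - f₀) (f₂ - f₀) := ⟨_, rfl⟩
    rw [← hn_def] at hn
    by_cases hpl : ∀ f ∈ F i, dtHom n (f - f₀) = 0
    · refine ⟨dtHom n, ?_, ?_⟩
      · intro f hf f' hf'
        have h1 := hpl f hf
        have h2 := hpl f' hf'
        rw [map_sub] at h1 h2
        linarith
      · have hNpos : 0 < dtHom n n := by
          rw [dtHom_apply]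
          by_contra hle
          have h0 : n 0 = 0 := by nlinarith [sq_nonneg (n 0), sq_nonneg (n 1), sq_nonneg (n 2)]
          have h1 : n 1 = 0 := by nlinarith [sq_nonneg (n 0), sq_nonneg (n 1), sq_nonneg (n 2)]
          have h2 : n 2 = 0 := by nlinarith [sq_nonneg (n 0), sq_nonneg (n 1), sq_nonneg (n 2)]
          exact hn (fin3_ext h0 h1 h2)
        refine ⟨(dtHom n n).toNat, by omega, fun x hx => ?_⟩
        have hid := cramer3 (f₁ - f₀) (f₂ - f₀) n x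
        rw [← hn_def, hx, zero_smul, add_zero] at hid
        have e : (dtHom n n).toNat • x = dtHom n n • x := by
          rw [← natCast_zsmul, Int.toNat_of_nonneg hNpos.le]
        rw [e, hid]
        exact add_mem (AddSubgroup.zsmul_mem _ (hcl f₁ hf₁) _)
          (AddSubgroup.zsmul_mem _ (hcl f₂ hf₂) _)
    · obtain ⟨f₃, hf₃⟩ := not_forall.mp hpl
      obtain ⟨hf₃F, hf₃n⟩ := Classical.not_imp.mp hf₃
      refine ⟨0, fun _ _ _ _ => rfl, (dtHom n (f₃ - f₀)).natAbs, Int.natAbs_pos.mpr hf₃n,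
        fun x _ => ?_⟩
      have hid := cramer3 (f₁ - f₀) (f₂ - f₀) (f₃ - f₀) x
      rw [← hn_def] at hid
      have hmem : dtHom n (f₃ - f₀) • x ∈
          AddSubgroup.closure {y : Fin 3 → ℤ | ∃ f ∈ F i, ∃ f' ∈ F i, y = f - f'} := by
        rw [hid]
        exact add_mem (add_mem (AddSubgroup.zsmul_mem _ (hcl f₁ hf₁) _)
          (AddSubgroup.zsmul_mem _ (hcl f₂ hf₂) _)) (AddSubgroup.zsmul_mem _ (hcl f₃ hf₃F) _)
      rw [← natCast_zsmul]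
      rcases Int.natAbs_eq (dtHom n (f₃ - f₀)) with h | h
      · rw [← h]; exact hmem
      · have e : ((dtHom n (f₃ - f₀)).natAbs : ℤ) = -dtHom n (f₃ - f₀) := by omega
        rw [e, neg_smul]; exact neg_mem hmem
  choose t ht1 ht2 using key
  exact prime_hyperplane_family_periodic F hF t ht1 ht2 A hA

end Vale.Agent.H12.PrimeSum
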