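import Vale.Agent.H12.FamilySum

namespace Vale.Agent.H12.PrimeSum

open Finset Pointwise

variable {G : Type*} [AddCommGroup G]

/-- a system of pairwise saturated complements: `B i ⊕ F i = G` for every `i`, and every `B j`
is a union of tiles `b + F i`, `b ∈ B i` -/
structure Sys {k : ℕ} (F : Fin k → Set G) (B : Fin k → Set G) : Prop where
  compl : ∀ i, Compl (B i) (F i) Set.univ
  sat : ∀ i j, i ≠ j → ∀ b ∈ B i, ∀ f ∈ F i, ∀ f' ∈ F i, b + f ∈ B j → b + f' ∈ B j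

theorem sys_of_tiling {k : ℕ} (F : Fin k → Set G) (h0 : ∀ i, (0 : G) ∈ F i) (A : Set G)
    (hA : ∀ g, ∃! q : G × (Fin k → G), q.1 ∈ A ∧ (∀ i, q.2 i ∈ F i) ∧ q.1 + ∑ i, q.2 i = g) :
    Sys F (fun i => {y | ∃ a ∈ A, ∃ φ : Fin k → G, (∀ j, φ j ∈ F j) ∧ φ i = 0 ∧
      y = a + ∑ j, φ j}) := by
  classical
  have hup : ∀ (φ : Fin k → G) (i : Fin k) (x : G), (∀ j, φ j ∈ F j) → x ∈ F i →
      ∀ j, Function.update φ i x j ∈ F j := by
    intro φ i x hφ hx j
    by_cases h : j = i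
    · subst h; rw [Function.update_self]; exact hx
    · rw [Function.update_of_ne h]; exact hφ j
  have hsum : ∀ (φ : Fin k → G) (i : Fin k) (x : G),
      ∑ j, Function.update φ i x j = ∑ j, φ j + (x - φ i) := by
    intro φ i x
    rw [← Finset.add_sum_erase Finset.univ (fun j => Function.update φ i x j) (Finset.mem_univ i),
      ← Finset.add_sum_erase Finset.univ φ (Finset.mem_univ i), Function.update_self]
    have e : ∑ j ∈ Finset.univ.erase i, Function.update φ i x j =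
        ∑ j ∈ Finset.univ.erase i, φ j :=
      Finset.sum_congr rfl (fun j hj => by
        rw [Function.update_of_ne (Finset.ne_of_mem_erase hj)])
    rw [e]; abel
  have hmem : ∀ (i : Fin k) (a : G) (φ : Fin k → G), a ∈ A → (∀ j, φ j ∈ F j) →
      ((∃ a' ∈ A, ∃ φ' : Fin k → G, (∀ j, φ' j ∈ F j) ∧ φ' i = 0 ∧
        a + ∑ j, φ j = a' + ∑ j, φ' j) ↔ φ i = 0) := by
    intro i a φ ha hφ
    constructor
    · rintro ⟨a', ha', φ', hφ', hφi', heq⟩
      have h := (hA (a + ∑ j, φ j)).unique (y₁ := (a, φ)) (y₂ := (a', φ'))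
        ⟨ha, hφ, rfl⟩ ⟨ha', hφ', heq.symm⟩
      have h2 : φ = φ' := congrArg Prod.snd h
      rw [h2]; exact hφi'
    · intro h
      exact ⟨a, ha, φ, hφ, h, rfl⟩
  refine ⟨fun i => ⟨fun g => ?_, ?_⟩, ?_⟩
  · simp only [Set.mem_univ, true_iff]
    obtain ⟨q, ⟨hqA, hqF, hs⟩, -⟩ := hA g
    refine ⟨q.1 + ∑ j, Function.update q.2 i 0 j, ⟨q.1, hqA, Function.update q.2 i 0,
      hup q.2 i 0 hqF (h0 i), Function.update_self _ _ _, rfl⟩, ?_⟩
    rw [hsum, ← hs]
    have e : q.1 + ∑ i, q.2 i - (q.1 + (∑ j, q.2 j + (0 - q.2 i))) = q.2 i := by abel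
    rw [e]; exact hqF i
  · rintro b ⟨a, ha, φ, hφ, hφi, rfl⟩ b' ⟨a', ha', φ', hφ', hφi', rfl⟩ g hf hf'
    have h := (hA g).unique (y₁ := (a, Function.update φ i (g - (a + ∑ j, φ j))))
      (y₂ := (a', Function.update φ' i (g - (a' + ∑ j, φ' j))))
      ⟨ha, hup φ i _ hφ hf, by
        show a + ∑ j, Function.update φ i (g - (a + ∑ j, φ j)) j = g
        rw [hsum, hφi]; abel⟩
      ⟨ha', hup φ' i _ hφ' hf', by
        show a' + ∑ j, Function.update φ' i (g - (a' + ∑ j, φ' j)) j = g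
        rw [hsum, hφi']; abel⟩
    have h2 := congrFun (congrArg Prod.snd h) i
    simp only [Function.update_self] at h2
    exact sub_right_injective h2
  · rintro i j hij b ⟨a, ha, φ, hφ, hφi, rfl⟩ f hf f' hf' hbf
    have e : ∀ x : G, a + ∑ j, φ j + x = a + ∑ j, Function.update φ i x j := by
      intro x
      rw [hsum, hφi]; abel
    have hbf' : ∃ a' ∈ A, ∃ φ' : Fin k → G, (∀ j', φ' j' ∈ F j') ∧ φ' j = 0 ∧
        a + ∑ j, Function.update φ i f j = a' + ∑ j, φ' j := by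
      rw [← e]; exact hbf
    have h1 := (hmem j a (Function.update φ i f) ha (hup φ i f hφ hf)).mp hbf'
    rw [Function.update_of_ne (Ne.symm hij)] at h1
    have h2 := (hmem j a (Function.update φ i f') ha (hup φ i f' hφ hf')).mpr (by
      rw [Function.update_of_ne (Ne.symm hij)]; exact h1)
    show ∃ a' ∈ A, ∃ φ' : Fin k → G, (∀ j', φ' j' ∈ F j') ∧ φ' j = 0 ∧
        a + ∑ j, φ j + f' = a' + ∑ j, φ' j
    rw [e]; exact h2

theorem tiling_of_sys {k : ℕ} (F : Fin k → Set G) (h0 : ∀ i, (0 : G) ∈ F i) (B : Fin k → Set G)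
    (hS : Sys F B) :
    ∀ g, ∃! q : G × (Fin k → G), q.1 ∈ (⋂ i, B i) ∧ (∀ i, q.2 i ∈ F i) ∧
      q.1 + ∑ i, q.2 i = g := by
  classical
  have c1 : ∀ (S : Finset (Fin k)) (a : G) (φ : Fin k → G), (∀ i, a ∈ B i) →
      (∀ j ∈ S, φ j ∈ F j) → ∀ i, i ∉ S → a + ∑ j ∈ S, φ j ∈ B i := by
    intro S
    induction S using Finset.induction_on with
    | empty => intro a φ ha _ i _; simpa using ha i
    | insert s S hs ih =>
      intro a φ ha hφ i hi
      have his : i ≠ s := fun h => hi (h ▸ Finset.mem_insert_self _ _)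
      have hiS : i ∉ S := fun h => hi (Finset.mem_insert_of_mem h)
      have hφS : ∀ j ∈ S, φ j ∈ F j := fun j hj => hφ j (Finset.mem_insert_of_mem hj)
      have hb_s := ih a φ ha hφS s hs
      have hb_i := ih a φ ha hφS i hiS
      have h := hS.sat s i (Ne.symm his) _ hb_s 0 (h0 s) (φ s)
        (hφ s (Finset.mem_insert_self _ _)) (by rw [add_zero]; exact hb_i)
      rw [Finset.sum_insert hs]
      have e : a + (φ s + ∑ j ∈ S, φ j) = a + ∑ j ∈ S, φ j + φ s := by abel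
      rw [e]; exact h
  have c2 : ∀ (S : Finset (Fin k)) (g : G), (∀ i, i ∉ S → g ∈ B i) →
      ∃ a, (∀ i, a ∈ B i) ∧ ∃ φ : Fin k → G, (∀ j ∈ S, φ j ∈ F j) ∧ g = a + ∑ j ∈ S, φ j := by
    intro S
    induction S using Finset.induction_on with
    | empty =>
      intro g hg
      exact ⟨g, fun i => hg i (Finset.notMem_empty i), fun _ => 0,
        fun j hj => absurd hj (Finset.notMem_empty j), by simp⟩
    | insert s S hs ih =>
      intro g hg
      obtain ⟨b, hb, hf⟩ := ((hS.compl s).cov g).mp trivial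
      have hbB : ∀ i, i ∉ S → b ∈ B i := by
        intro i hi
        by_cases his : i = s
        · rw [his]; exact hb
        · have hgi : g ∈ B i := hg i (fun h => (Finset.mem_insert.mp h).elim his hi)
          have h := hS.sat s i (Ne.symm his) b hb (g - b) hf 0 (h0 s) (by
            rw [add_sub_cancel]; exact hgi)
          rw [add_zero] at h; exact h
      obtain ⟨a, ha, φ, hφ, hsum⟩ := ih b hbB
      refine ⟨a, ha, Function.update φ s (g - b), ?_, ?_⟩
      · intro j hj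
        rcases Finset.mem_insert.mp hj with h | h
        · rw [h, Function.update_self]; exact hf
        · have hne : j ≠ s := fun h' => hs (h' ▸ h)
          rw [Function.update_of_ne hne]; exact hφ j h
      · rw [Finset.sum_insert hs, Function.update_self]
        have e : ∑ j ∈ S, Function.update φ s (g - b) j = ∑ j ∈ S, φ j :=
          Finset.sum_congr rfl (fun j hj => by
            have hne : j ≠ s := fun h' => hs (h' ▸ hj)
            rw [Function.update_of_ne hne])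
        have e2 : a + (g - b + ∑ j ∈ S, φ j) = g - b + (a + ∑ j ∈ S, φ j) := by abel
        rw [e, e2, ← hsum]; abel
  have c3 : ∀ (S : Finset (Fin k)) (a a' : G) (φ φ' : Fin k → G), (∀ i, a ∈ B i) →
      (∀ i, a' ∈ B i) → (∀ j ∈ S, φ j ∈ F j) → (∀ j ∈ S, φ' j ∈ F j) →
      a + ∑ j ∈ S, φ j = a' + ∑ j ∈ S, φ' j → a = a' ∧ ∀ j ∈ S, φ j = φ' j := by
    intro S
    induction S using Finset.induction_on with
    | empty =>
      intro a a' φ φ' _ _ _ _ h
      exact ⟨by simpa using h, fun j hj => absurd hj (Finset.notMem_empty j)⟩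
    | insert s S hs ih =>
      intro a a' φ φ' ha ha' hφ hφ' h
      have hφS : ∀ j ∈ S, φ j ∈ F j := fun j hj => hφ j (Finset.mem_insert_of_mem hj)
      have hφS' : ∀ j ∈ S, φ' j ∈ F j := fun j hj => hφ' j (Finset.mem_insert_of_mem hj)
      have hb := c1 S a φ ha hφS s hs
      have hb' := c1 S a' φ' ha' hφS' s hs
      rw [Finset.sum_insert hs, Finset.sum_insert hs] at h
      have hbb : a + ∑ j ∈ S, φ j = a' + ∑ j ∈ S, φ' j := by
        refine (hS.compl s).uniq _ hb _ hb' (a + (φ s + ∑ j ∈ S, φ j)) ?_ ?_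
        · have e : a + (φ s + ∑ j ∈ S, φ j) - (a + ∑ j ∈ S, φ j) = φ s := by abel
          rw [e]; exact hφ s (Finset.mem_insert_self _ _)
        · have e : a + (φ s + ∑ j ∈ S, φ j) - (a' + ∑ j ∈ S, φ' j) = φ' s := by
            rw [h]; abel
          rw [e]; exact hφ' s (Finset.mem_insert_self _ _)
      obtain ⟨haa, hφφ⟩ := ih a a' φ φ' ha ha' hφS hφS' hbb
      refine ⟨haa, fun j hj => ?_⟩
      rcases Finset.mem_insert.mp hj with h' | h'
      · rw [h']
        have e1 : a + (φ s + ∑ j ∈ S, φ j) = (a + ∑ j ∈ S, φ j) + φ s := by abel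
        have e2 : a' + (φ' s + ∑ j ∈ S, φ' j) = (a' + ∑ j ∈ S, φ' j) + φ' s := by abel
        rw [e1, e2, hbb] at h
        exact add_left_cancel h
      · exact hφφ j h'
  intro g
  obtain ⟨a, ha, φ, hφ, hsum⟩ := c2 Finset.univ g (fun i hi => absurd (Finset.mem_univ i) hi)
  refine ⟨(a, φ), ⟨Set.mem_iInter.mpr ha, fun i => hφ i (Finset.mem_univ i), hsum.symm⟩, ?_⟩
  rintro ⟨a', φ'⟩ ⟨ha', hφ', hs'⟩
  have ha'' : ∀ i, a' ∈ B i := Set.mem_iInter.mp ha'
  have hs'' : a' + ∑ i, φ' i = g := hs'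
  obtain ⟨h1, h2⟩ := c3 Finset.univ a' a φ' φ ha'' ha (fun i _ => hφ' i) hφ (by
    rw [hs'', hsum])
  rw [h1, funext (fun i => h2 i (Finset.mem_univ i))]

theorem exists_smul_mem_of_fin (t : G →+ ℤ) (M : AddSubgroup G) (R : Finset G)
    (hR : ∀ x, t x = 0 → ∃ r ∈ R, x - r ∈ M) (x : G) (hx : t x = 0) :
    ∃ n : ℤ, n ≠ 0 ∧ n • x ∈ M := by
  classical
  have hch : ∀ n : ℕ, ∃ r : {r // r ∈ R}, n • x - (r : G) ∈ M := by
    intro n
    obtain ⟨r, hr, h⟩ := hR (n • x) (by rw [map_nsmul, hx, smul_zero])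
    exact ⟨⟨r, hr⟩, h⟩
  choose ρ hρ using hch
  obtain ⟨n, n', hne, heq⟩ := Finite.exists_ne_map_eq_of_infinite ρ
  refine ⟨(n : ℤ) - n', sub_ne_zero.mpr (by exact_mod_cast hne), ?_⟩
  have h1 := hρ n
  have h2 := hρ n'
  rw [heq] at h1
  have h3 := M.sub_mem h1 h2
  have e : n • x - ↑(ρ n') - (n' • x - ↑(ρ n')) = ((n : ℤ) - n') • x := by
    rw [sub_smul, natCast_zsmul, natCast_zsmul]; abel
  rw [e] at h3; exact h3

theorem exists_common_smul {ι : Type*} (s : Finset ι) (P : ι → G → Prop)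
    (hP : ∀ j g (c : ℤ), P j g → P j (c • g)) (x : G)
    (h : ∀ j ∈ s, ∃ c : ℤ, c ≠ 0 ∧ P j (c • x)) : ∃ c : ℤ, c ≠ 0 ∧ ∀ j ∈ s, P j (c • x) := by
  classical
  induction s using Finset.induction_on with
  | empty => exact ⟨1, one_ne_zero, fun j hj => absurd hj (Finset.notMem_empty j)⟩
  | insert a s ha ih =>
    obtain ⟨c₁, hc₁, h₁⟩ := ih (fun j hj => h j (Finset.mem_insert_of_mem hj))
    obtain ⟨c₂, hc₂, h₂⟩ := h a (Finset.mem_insert_self _ _)
    refine ⟨c₁ * c₂, mul_ne_zero hc₁ hc₂, fun j hj => ?_⟩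
    rcases Finset.mem_insert.mp hj with hja | hj'
    · rw [hja, mul_smul]; exact hP a _ c₁ h₂
    · rw [mul_comm, mul_smul]; exact hP j _ c₂ (h₁ j hj')

/-- **The looping step.** Given a system of pairwise saturated complements and a homomorphism
`t : G → ℤ`, the complements `B i`, `i ∈ I`, whose invariance groups have finite index in `ker t`
can simultaneously be made periodic in a direction transversal to `ker t`, provided the other
complements have periods transversal to `ker t`. -/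
theorem loop_step {k : ℕ} (F : Fin k → Set G) (B : Fin k → Set G) (hS : Sys F B)
    (t : G →+ ℤ) (D : ℕ) (hD : ∀ i, ∀ f ∈ F i, |t f| ≤ (D : ℤ))
    (M : Fin k → AddSubgroup G) (hM : ∀ i, Inv (M i) (B i)) (I : Finset (Fin k))
    (hI1 : ∀ i ∈ I, ∀ x ∈ M i, t x = 0)
    (hI2 : ∀ i ∈ I, ∀ f ∈ F i, t f = 0)
    (hI3 : ∀ i ∈ I, ∃ R : Finset G, ∀ x, t x = 0 → ∃ r ∈ R, x - r ∈ M i)
    (hJ : ∀ j, j ∉ I → ∃ h ∈ M j, t h ≠ 0)
    (g₁ : G) (hg₁ : t g₁ ≠ 0) :
    ∃ (B' : Fin k → Set G) (g₀ : G), Sys F B' ∧ t g₀ ≠ 0 ∧ (∀ j, j ∉ I → B' j = B j) ∧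
      ∀ i ∈ I, Inv (M i) (B' i) ∧ ∀ x, x ∈ B' i ↔ x + g₀ ∈ B' i := by
  classical
  have hMiff : ∀ i, ∀ m ∈ M i, ∀ x, x ∈ B i ↔ x + m ∈ B i := by
    intro i m hm x
    refine ⟨fun h => hM i m hm x h, fun h => ?_⟩
    have h' := hM i (-m) ((M i).neg_mem hm) _ h
    rw [add_neg_cancel_right] at h'
    exact h'
  have hJ' : ∀ j, ∃ h, j ∉ I → h ∈ M j ∧ t h ≠ 0 := by
    intro j
    by_cases hj : j ∈ I
    · exact ⟨0, fun h => absurd hj h⟩
    · obtain ⟨h, h1, h2⟩ := hJ j hj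
      exact ⟨h, fun _ => ⟨h1, h2⟩⟩
  choose hh hhM using hJ'
  obtain ⟨Q, hQdef⟩ : ∃ Q : Fin k → G → Prop, ∀ j g, Q j g ↔
      (j ∉ I → ∃ a : ℤ, ∀ i ∈ I, g - a • hh j ∈ M i) := ⟨_, fun _ _ => Iff.rfl⟩
  have hQmul : ∀ j g (c : ℤ), Q j g → Q j (c • g) := by
    intro j g c hq
    rw [hQdef] at hq ⊢
    intro hj
    obtain ⟨a, ha⟩ := hq hj
    refine ⟨c * a, fun i hi => ?_⟩
    have h := (M i).zsmul_mem (ha i hi) c
    rw [smul_sub, smul_smul] at h
    exact h
  have hQex : ∀ j ∈ (Finset.univ : Finset (Fin k)), ∃ c : ℤ, c ≠ 0 ∧ Q j (c • g₁) := by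
    intro j _
    by_cases hj : j ∈ I
    · exact ⟨1, one_ne_zero, (hQdef j _).mpr (fun h => absurd hj h)⟩
    · obtain ⟨hjM, hjt⟩ := hhM j hj
      have hek : t (t g₁ • hh j - t (hh j) • g₁) = 0 := by
        rw [map_sub, map_zsmul, map_zsmul, smul_eq_mul, smul_eq_mul]; ring
      obtain ⟨n, hn, hnM⟩ := exists_common_smul I (fun i g => g ∈ M i)
        (fun i g c hg => (M i).zsmul_mem hg c) (t g₁ • hh j - t (hh j) • g₁)
        (fun i hi => by
          obtain ⟨R, hR⟩ := hI3 i hi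
          exact exists_smul_mem_of_fin t (M i) R hR _ hek)
      refine ⟨n * t (hh j), mul_ne_zero hn hjt, (hQdef j _).mpr
        (fun _ => ⟨n * t g₁, fun i hi => ?_⟩)⟩
      have h1 := (M i).neg_mem (hnM i hi)
      have e : (n * t (hh j)) • g₁ - (n * t g₁) • hh j =
          -(n • (t g₁ • hh j - t (hh j) • g₁)) := by
        rw [smul_sub, smul_smul, smul_smul]; abel
      rw [e]; exact h1
  obtain ⟨c, hc, hQc⟩ := exists_common_smul Finset.univ Q hQmul g₁ hQex
  obtain ⟨g₂, hg₂pos, hQg₂⟩ : ∃ g₂, 0 < t g₂ ∧ ∀ j, Q j g₂ := by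
    have hne : t (c • g₁) ≠ 0 := by
      rw [map_zsmul, smul_eq_mul]; exact mul_ne_zero hc hg₁
    rcases lt_or_gt_of_ne hne with h | h
    · refine ⟨(-1 : ℤ) • (c • g₁), ?_, fun j => hQmul j _ _ (hQc j (Finset.mem_univ j))⟩
      rw [map_zsmul, smul_eq_mul]; linarith
    · exact ⟨c • g₁, h, fun j => hQc j (Finset.mem_univ j)⟩
  obtain ⟨g₃, hg₃, hQg₃⟩ : ∃ g₃, (D : ℤ) < t g₃ ∧ ∀ j, Q j g₃ := by
    refine ⟨((D : ℤ) + 1) • g₂, ?_, fun j => hQmul j _ _ (hQg₂ j)⟩
    rw [map_zsmul, smul_eq_mul]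
    have h1 : (1 : ℤ) ≤ t g₂ := hg₂pos
    have hD0 : (0 : ℤ) ≤ D := Int.natCast_nonneg D
    nlinarith
  -- representatives of the slab modulo the invariance groups
  have hI3' : ∀ i, ∃ R : Finset G, i ∈ I → ∀ x, t x = 0 → ∃ r ∈ R, x - r ∈ M i := by
    intro i
    by_cases hi : i ∈ I
    · obtain ⟨R, hR⟩ := hI3 i hi
      exact ⟨R, fun _ => hR⟩
    · exact ⟨∅, fun h => absurd h hi⟩
  choose R hR using hI3'
  have hwv : ∀ v : ℤ, ∃ w : G, (∃ w', t w' = v) → t w = v := by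
    intro v
    by_cases h : ∃ w', t w' = v
    · obtain ⟨w, hw⟩ := h
      exact ⟨w, fun _ => hw⟩
    · exact ⟨0, fun h' => absurd h' h⟩
  choose wv hwv using hwv
  obtain ⟨X, hXdef⟩ : ∃ X : Finset (Fin k × G), X = Finset.univ ×ˢ
      ((Finset.univ : Finset (Fin k)).biUnion fun i =>
        (Finset.Icc (-(D : ℤ)) D ×ˢ R i).image fun p => wv p.1 + p.2) := ⟨_, rfl⟩
  have hX : ∀ i ∈ I, ∀ w, |t w| ≤ (D : ℤ) → ∃ ρ, (i, ρ) ∈ X ∧ w - ρ ∈ M i := by
    intro i hi w hw
    have hv : t (wv (t w)) = t w := hwv (t w) ⟨w, rfl⟩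
    obtain ⟨r, hr, hrM⟩ := hR i hi (w - wv (t w)) (by rw [map_sub, hv, sub_self])
    refine ⟨wv (t w) + r, ?_, ?_⟩
    · rw [hXdef]
      exact Finset.mem_product.mpr ⟨Finset.mem_univ _, Finset.mem_biUnion.mpr
        ⟨i, Finset.mem_univ _, Finset.mem_image.mpr ⟨(t w, r), Finset.mem_product.mpr
          ⟨Finset.mem_Icc.mpr (abs_le.mp hw), hr⟩, rfl⟩⟩⟩
    · have e : w - (wv (t w) + r) = w - wv (t w) - r := by abel
      rw [e]; exact hrM
  -- pigeonhole on the states of the slab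
  obtain ⟨σ, hσdef⟩ : ∃ σ : ℕ → Finset (Fin k × G), ∀ m p, p ∈ σ m ↔
      (p ∈ X ∧ p.2 + m • g₃ ∈ B p.1) :=
    ⟨fun m => X.filter fun p => p.2 + m • g₃ ∈ B p.1, fun m p => Finset.mem_filter⟩
  obtain ⟨m₀, m₁, hlt, hσ⟩ : ∃ m₀ m₁ : ℕ, m₀ < m₁ ∧ σ m₀ = σ m₁ := by
    have hfin : ∀ m, σ m ∈ X.powerset := fun m =>
      Finset.mem_powerset.mpr (fun p hp => ((hσdef m p).mp hp).1)
    obtain ⟨m, m', hne, heq⟩ := Finite.exists_ne_map_eq_of_infinite
      (fun m : ℕ => (⟨σ m, hfin m⟩ : {s // s ∈ X.powerset}))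
    have heq' : σ m = σ m' := congrArg Subtype.val heq
    rcases lt_or_gt_of_ne hne with h | h
    · exact ⟨m, m', h, heq'⟩
    · exact ⟨m', m, h, heq'.symm⟩
  have hstate : ∀ i ρ, (i, ρ) ∈ X → (ρ + m₀ • g₃ ∈ B i ↔ ρ + m₁ • g₃ ∈ B i) := by
    intro i ρ hρ
    have h1 : (i, ρ) ∈ σ m₀ ↔ (i, ρ) ∈ σ m₁ := by rw [hσ]
    rw [hσdef, hσdef] at h1
    exact ⟨fun h => (h1.mp ⟨hρ, h⟩).2, fun h => (h1.mpr ⟨hρ, h⟩).2⟩
  obtain ⟨g₀, hg₀⟩ : ∃ g₀ : G, g₀ = (m₁ - m₀) • g₃ := ⟨_, rfl⟩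
  obtain ⟨t₀, ht₀⟩ : ∃ t₀ : ℤ, t₀ = t (m₀ • g₃) := ⟨_, rfl⟩
  obtain ⟨P, hP⟩ : ∃ P : ℤ, P = t g₀ := ⟨_, rfl⟩
  have hm : m₁ • g₃ = m₀ • g₃ + g₀ := by
    rw [hg₀, ← add_smul]; congr 1; omega
  have hPD : (D : ℤ) < P := by
    rw [hP, hg₀, map_nsmul, nsmul_eq_mul]
    have h1 : (1 : ℤ) ≤ ((m₁ - m₀ : ℕ) : ℤ) := by exact_mod_cast Nat.sub_pos_of_lt hlt
    have hD0 : (0 : ℤ) ≤ D := Int.natCast_nonneg D
    nlinarith
  have hPpos : 0 < P := lt_of_le_of_lt (Int.natCast_nonneg D) hPD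
  have hQg₀ : ∀ j, Q j g₀ := by
    intro j
    rw [hg₀, ← natCast_zsmul]
    exact hQmul j _ _ (hQg₃ j)
  have hK : ∀ i ∈ I, ∀ z, |t z - t₀| ≤ (D : ℤ) → (z ∈ B i ↔ z + g₀ ∈ B i) := by
    intro i hi z hz
    obtain ⟨ρ, hρX, hρM⟩ := hX i hi (z - m₀ • g₃) (by rw [map_sub, ← ht₀]; exact hz)
    have e1 : z = ρ + m₀ • g₃ + (z - m₀ • g₃ - ρ) := by abel
    have e2 : z + g₀ = ρ + m₁ • g₃ + (z - m₀ • g₃ - ρ) := by rw [hm]; abel
    calc z ∈ B i ↔ ρ + m₀ • g₃ + (z - m₀ • g₃ - ρ) ∈ B i := by rw [← e1]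
      _ ↔ ρ + m₀ • g₃ ∈ B i := (hMiff i _ hρM _).symm
      _ ↔ ρ + m₁ • g₃ ∈ B i := hstate i ρ hρX
      _ ↔ ρ + m₁ • g₃ + (z - m₀ • g₃ - ρ) ∈ B i := hMiff i _ hρM _
      _ ↔ z + g₀ ∈ B i := by rw [← e2]
  -- the slab index
  obtain ⟨qf, hqf⟩ : ∃ qf : G → ℤ, ∀ x, 0 ≤ t x - t₀ - qf x * P ∧ t x - t₀ - qf x * P < P := by
    refine ⟨fun x => (t x - t₀) / P, fun x => ?_⟩
    have h1 := Int.emod_nonneg (t x - t₀) (ne_of_gt hPpos)
    have h2 := Int.emod_lt_of_pos (t x - t₀) hPpos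
    have h3 := Int.mul_ediv_add_emod (t x - t₀) P
    constructor <;> nlinarith
  have huniq : ∀ x (q : ℤ), 0 ≤ t x - t₀ - q * P → t x - t₀ - q * P < P → qf x = q := by
    intro x q h1 h2
    obtain ⟨h3, h4⟩ := hqf x
    by_contra hne
    rcases lt_or_gt_of_ne hne with h | h
    · have h5 : qf x + 1 ≤ q := h
      have h6 := mul_le_mul_of_nonneg_right h5 hPpos.le
      nlinarith
    · have h5 : q + 1 ≤ qf x := h
      have h6 := mul_le_mul_of_nonneg_right h5 hPpos.le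
      nlinarith
  have hq_t : ∀ x y, t x = t y → qf x = qf y := by
    intro x y hxy
    obtain ⟨h3, h4⟩ := hqf y
    exact huniq x (qf y) (by rw [hxy]; exact h3) (by rw [hxy]; exact h4)
  have hq_add : ∀ x, qf (x + g₀) = qf x + 1 := by
    intro x
    obtain ⟨h3, h4⟩ := hqf x
    refine huniq _ _ ?_ ?_
    · rw [map_add, ← hP]; nlinarith
    · rw [map_add, ← hP]; nlinarith
  have hL4 : ∀ j ∈ I, ∀ x y, |t y| ≤ (D : ℤ) →
      ((x + y) - qf (x + y) • g₀ ∈ B j ↔ (x + y) - qf x • g₀ ∈ B j) := by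
    intro j hj x y hy
    obtain ⟨h3, h4⟩ := hqf x
    obtain ⟨hy1, hy2⟩ := abs_le.mp hy
    have htu : t ((x + y) - qf x • g₀) - t₀ = (t x - t₀ - qf x * P) + t y := by
      rw [map_sub, map_add, map_zsmul, smul_eq_mul, ← hP]; ring
    by_cases hc1 : t x - t₀ - qf x * P + t y < 0
    · have hq : qf (x + y) = qf x - 1 := by
        refine huniq _ _ ?_ ?_
        · rw [map_add]; nlinarith
        · rw [map_add]; nlinarith
      rw [hq]
      have e : (x + y) - (qf x - 1) • g₀ = ((x + y) - qf x • g₀) + g₀ := by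
        rw [sub_smul, one_smul]; abel
      rw [e]
      exact (hK j hj _ (by rw [htu]; exact abs_le.mpr ⟨by linarith, by linarith⟩)).symm
    · by_cases hc2 : t x - t₀ - qf x * P + t y < P
      · have hq : qf (x + y) = qf x := by
          refine huniq _ _ ?_ ?_
          · rw [map_add]; linarith
          · rw [map_add]; linarith
        rw [hq]
      · have hq : qf (x + y) = qf x + 1 := by
          refine huniq _ _ ?_ ?_
          · rw [map_add]; nlinarith
          · rw [map_add]; nlinarith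
        rw [hq]
        have htu' : t ((x + y) - (qf x + 1) • g₀) - t₀ =
            (t x - t₀ - qf x * P) + t y - P := by
          rw [map_sub, map_add, map_zsmul, smul_eq_mul, ← hP]; ring
        have e : (x + y) - qf x • g₀ = ((x + y) - (qf x + 1) • g₀) + g₀ := by
          rw [add_smul, one_smul]; abel
        rw [e]
        refine hK j hj _ ?_
        rw [htu']; exact abs_le.mpr ⟨by linarith, by linarith⟩
  -- the looped system
  obtain ⟨B', hB'I, hB'J⟩ : ∃ B' : Fin k → Set G,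
      (∀ i ∈ I, ∀ x, x ∈ B' i ↔ x - qf x • g₀ ∈ B i) ∧ (∀ j, j ∉ I → B' j = B j) := by
    refine ⟨fun i => {x | (i ∈ I → x - qf x • g₀ ∈ B i) ∧ (i ∉ I → x ∈ B i)}, ?_, ?_⟩
    · intro i hi x
      exact ⟨fun h => h.1 hi, fun h => ⟨fun _ => h, fun h' => absurd hi h'⟩⟩
    · intro j hj
      ext x
      exact ⟨fun h => h.2 hj, fun h => ⟨fun h' => absurd h' hj, fun _ => h⟩⟩
  have hsplit : ∀ (j : Fin k), j ∉ I → ∀ (i : Fin k), i ∈ I → ∀ q : ℤ,
      ∃ μ ∈ M i, ∃ ν ∈ M j, q • g₀ = μ + ν := by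
    intro j hj i hi q
    obtain ⟨a, ha⟩ := (hQdef j g₀).mp (hQg₀ j) hj
    refine ⟨q • (g₀ - a • hh j), (M i).zsmul_mem (ha i hi) q, (q * a) • hh j,
      (M j).zsmul_mem (hhM j hj).1 _, ?_⟩
    rw [smul_sub, smul_smul]; abel
  refine ⟨B', g₀, ⟨?_, ?_⟩, ?_, hB'J, ?_⟩
  · -- complements
    intro i
    by_cases hi : i ∈ I
    · refine ⟨fun g => ?_, ?_⟩
      · simp only [Set.mem_univ, true_iff]
        obtain ⟨b, hb, hf⟩ := ((hS.compl i).cov (g - qf g • g₀)).mp trivial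
        have htf := hI2 i hi _ hf
        have hq : qf (b + qf g • g₀) = qf g := by
          refine hq_t _ _ ?_
          rw [map_sub, map_sub, map_zsmul] at htf
          rw [map_add, map_zsmul]; linarith
        refine ⟨b + qf g • g₀, (hB'I i hi _).mpr ?_, ?_⟩
        · rw [hq, add_sub_cancel_right]; exact hb
        · have e : g - (b + qf g • g₀) = g - qf g • g₀ - b := by abel
          rw [e]; exact hf
      · intro b₁ hb₁ b₂ hb₂ g hf₁ hf₂
        have hq₁ : qf b₁ = qf g := by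
          refine hq_t _ _ ?_
          have h := hI2 i hi _ hf₁
          rw [map_sub] at h; linarith
        have hq₂ : qf b₂ = qf g := by
          refine hq_t _ _ ?_
          have h := hI2 i hi _ hf₂
          rw [map_sub] at h; linarith
        have h₁ := (hB'I i hi _).mp hb₁
        have h₂ := (hB'I i hi _).mp hb₂
        rw [hq₁] at h₁
        rw [hq₂] at h₂
        have h := (hS.compl i).uniq _ h₁ _ h₂ (g - qf g • g₀)
          (by
            have e : g - qf g • g₀ - (b₁ - qf g • g₀) = g - b₁ := by abel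
            rw [e]; exact hf₁)
          (by
            have e : g - qf g • g₀ - (b₂ - qf g • g₀) = g - b₂ := by abel
            rw [e]; exact hf₂)
        exact sub_left_injective h
    · rw [hB'J i hi]; exact hS.compl i
  · -- saturation
    intro i j hij b hb f hf f' hf' hbf
    by_cases hi : i ∈ I
    · have hb0 := (hB'I i hi b).mp hb
      by_cases hj : j ∈ I
      · have hqf : ∀ x ∈ F i, qf (b + x) = qf b := by
          intro x hx
          refine hq_t _ _ ?_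
          rw [map_add, hI2 i hi x hx, add_zero]
        have hbf' := (hB'I j hj _).mp hbf
        rw [hqf f hf] at hbf'
        have e : ∀ x : G, b + x - qf b • g₀ = (b - qf b • g₀) + x := by
          intro x; abel
        rw [e] at hbf'
        have old := hS.sat i j hij _ hb0 f hf f' hf' hbf'
        refine (hB'I j hj _).mpr ?_
        rw [hqf f' hf', e]; exact old
      · rw [hB'J j hj] at hbf ⊢
        obtain ⟨μ, hμ, ν, hν, hμν⟩ := hsplit j hj i hi (qf b)
        have hb2 : b - qf b • g₀ + μ ∈ B i := hM i μ hμ _ hb0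
        have e1 : ∀ x : G, b - qf b • g₀ + μ + x = b + x + -ν := by
          intro x; rw [hμν]; abel
        have h1 : b - qf b • g₀ + μ + f ∈ B j := by
          rw [e1]; exact hM j (-ν) ((M j).neg_mem hν) _ hbf
        have old := hS.sat i j hij _ hb2 f hf f' hf' h1
        rw [e1] at old
        have h2 := hM j ν hν _ old
        rw [neg_add_cancel_right] at h2
        exact h2
    · rw [hB'J i hi] at hb
      by_cases hj : j ∈ I
      · have hbf' := (hL4 j hj b f (hD i f hf)).mp ((hB'I j hj _).mp hbf)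
        obtain ⟨μ, hμ, ν, hν, hμν⟩ := hsplit i hi j hj (qf b)
        have hb1 : b + -ν ∈ B i := hM i (-ν) ((M i).neg_mem hν) _ hb
        have e1 : ∀ x : G, b + x - qf b • g₀ = b + -ν + x + -μ := by
          intro x; rw [hμν]; abel
        rw [e1] at hbf'
        have h1 : b + -ν + f ∈ B j := (hMiff j (-μ) ((M j).neg_mem hμ) _).mpr hbf'
        have old := hS.sat i j hij _ hb1 f hf f' hf' h1
        have h2 := hM j (-μ) ((M j).neg_mem hμ) _ old
        rw [← e1] at h2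
        exact (hB'I j hj _).mpr ((hL4 j hj b f' (hD i f' hf')).mpr h2)
      · rw [hB'J j hj] at hbf ⊢
        exact hS.sat i j hij b hb f hf f' hf' hbf
  · rw [← hP]; exact ne_of_gt hPpos
  · intro i hi
    refine ⟨fun m hm x hx => ?_, fun x => ?_⟩
    · refine (hB'I i hi _).mpr ?_
      have hq : qf (x + m) = qf x := by
        refine hq_t _ _ ?_
        rw [map_add, hI1 i hi m hm, add_zero]
      rw [hq]
      have e : x + m - qf x • g₀ = (x - qf x • g₀) + m := by abel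
      rw [e]
      exact hM i m hm _ ((hB'I i hi x).mp hx)
    · rw [hB'I i hi, hB'I i hi, hq_add]
      have e : x + g₀ - (qf x + 1) • g₀ = x - qf x • g₀ := by
        rw [add_smul, one_smul]; abel
      rw [e]

/-- full periodicity of a set -/
def Per (B : Set G) : Prop := ∃ n : ℤ, n ≠ 0 ∧ ∀ x ∈ B, ∀ v : G, x + n • v ∈ B

theorem ker_le_of_le (t s : G →+ ℤ) (h : ∀ x, t x = 0 → s x = 0) (g₁ : G) (hg₁ : s g₁ ≠ 0) :
    ∀ x, s x = 0 → t x = 0 := by
  by_cases ht : ∀ x, t x = 0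
  · exact absurd (h g₁ (ht g₁)) hg₁
  · obtain ⟨gs, hgs⟩ := not_forall.mp ht
    have hkey : ∀ z, t gs * s z = t z * s gs := by
      intro z
      have h1 : t (t gs • z - t z • gs) = 0 := by
        rw [map_sub, map_zsmul, map_zsmul, smul_eq_mul, smul_eq_mul]; ring
      have h2 := h _ h1
      rw [map_sub, map_zsmul, map_zsmul, smul_eq_mul, smul_eq_mul] at h2
      linarith
    have hsgs : s gs ≠ 0 := by
      intro h0
      have h3 := hkey g₁
      rw [h0, mul_zero] at h3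
      rcases mul_eq_zero.mp h3 with h' | h'
      · exact hgs h'
      · exact hg₁ h'
    intro x hx
    have h3 := hkey x
    rw [hx, mul_zero] at h3
    rcases mul_eq_zero.mp h3.symm with h' | h'
    · exact h'
    · exact absurd h' hsgs

theorem fin_reps [IsNoetherian ℤ G] (t : G →+ ℤ) (n : ℕ) (hn : 0 < n) :
    ∃ R : Finset G, ∀ x, t x = 0 → ∃ r ∈ R, ∃ y, t y = 0 ∧ x - r = n • y := by
  classical
  obtain ⟨S, hS⟩ : (AddSubgroup.toIntSubmodule t.ker).FG := IsNoetherian.noetherian _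
  have hSker : ∀ s ∈ S, t s = 0 := by
    intro s hs
    have h : s ∈ AddSubgroup.toIntSubmodule t.ker := by
      rw [← hS]; exact Submodule.subset_span hs
    exact AddMonoidHom.mem_ker.mp h
  have hnZ : (0 : ℤ) < (n : ℤ) := by exact_mod_cast hn
  refine ⟨Finset.univ.image (fun c : {s // s ∈ S} → Fin n =>
    ∑ s : {s // s ∈ S}, ((c s : ℕ) : ℤ) • (s : G)), fun x hx => ?_⟩
  have hxs : x ∈ Submodule.span ℤ (S : Set G) := by
    rw [hS]; exact AddMonoidHom.mem_ker.mpr hx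
  obtain ⟨c, -, hc⟩ := Submodule.mem_span_finset.mp hxs
  have hlt : ∀ a : G, (c a % (n : ℤ)).toNat < n := by
    intro a
    have h1 := Int.emod_nonneg (c a) (ne_of_gt hnZ)
    have h2 := Int.emod_lt_of_pos (c a) hnZ
    omega
  refine ⟨∑ a ∈ S, (c a % (n : ℤ)) • a, ?_, ∑ a ∈ S, (c a / (n : ℤ)) • a, ?_, ?_⟩
  · refine Finset.mem_image.mpr ⟨fun s => ⟨(c s % (n : ℤ)).toNat, hlt s⟩, Finset.mem_univ _, ?_⟩
    rw [← Finset.sum_coe_sort S (fun a => (c a % (n : ℤ)) • a)]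
    refine Finset.sum_congr rfl (fun s _ => ?_)
    have h1 := Int.emod_nonneg (c s) (ne_of_gt hnZ)
    show (((c ↑s % (n : ℤ)).toNat : ℕ) : ℤ) • (s : G) = (c ↑s % (n : ℤ)) • (s : G)
    rw [Int.toNat_of_nonneg h1]
  · rw [map_sum]
    refine Finset.sum_eq_zero (fun a ha => ?_)
    rw [map_zsmul, hSker a ha, smul_zero]
  · rw [← hc, ← Finset.sum_sub_distrib, Finset.smul_sum]
    refine Finset.sum_congr rfl (fun a _ => ?_)
    rw [← sub_smul, ← natCast_zsmul, smul_smul]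
    congr 1
    have h3 := Int.mul_ediv_add_emod (c a) (n : ℤ)
    linarith

/-- **Periodic tilings for direct sums of rigid sets each spanning a subgroup of corank at most
one** (normalised form: every summand contains `0`). -/
theorem hyperplane_core [IsNoetherian ℤ G] {k : ℕ} (F : Fin k → Set G)
    (hfin : ∀ i, (F i).Finite) (h0 : ∀ i, (0 : G) ∈ F i) (μ : Fin k → ℕ) (hμ : ∀ i, 0 < μ i)
    (hr : ∀ i, ∀ B : Set G, Compl B (F i) Set.univ → Inv (Psub (μ i) (F i)) B)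
    (t : Fin k → G →+ ℤ) (h1 : ∀ i, ∀ f ∈ F i, t i f = 0)
    (h2 : ∀ i, ∃ N : ℕ, 0 < N ∧ ∀ x, t i x = 0 → N • x ∈ Psub 1 (F i))
    (A : Set G)
    (hA : ∀ g, ∃! q : G × (Fin k → G), q.1 ∈ A ∧ (∀ i, q.2 i ∈ F i) ∧ q.1 + ∑ i, q.2 i = g) :
    ∃ (A' : Set G) (N : ℕ), 0 < N ∧
      (∀ g, ∃! q : G × (Fin k → G), q.1 ∈ A' ∧ (∀ i, q.2 i ∈ F i) ∧ q.1 + ∑ i, q.2 i = g) ∧
      ∀ a ∈ A', ∀ v : G, a + N • v ∈ A' := by
  classical
  choose N hN hN2 using h2
  have hker : ∀ i x, t i x = 0 → (μ i * N i) • x ∈ Psub (μ i) (F i) := by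
    intro i x hx
    have h := smul_mem_Psub (μ i) (F i) (hN2 i x hx)
    rw [← mul_smul] at h
    exact h
  have hMker : ∀ i, ∀ x ∈ Psub (μ i) (F i), t i x = 0 := by
    intro i x hx
    induction hx using AddSubgroup.closure_induction with
    | mem y hy =>
      obtain ⟨f, hf, f', hf', rfl⟩ := hy
      rw [map_nsmul, map_sub, h1 i f hf, h1 i f' hf', sub_zero, smul_zero]
    | zero => exact map_zero _
    | add y z _ _ hy hz => rw [map_add, hy, hz, add_zero]
    | neg y _ hy => rw [map_neg, hy, neg_zero]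
  have hstep : ∀ s : ℕ, s ≤ k → ∃ B : Fin k → Set G, Sys F B ∧
      ∀ i : Fin k, (i : ℕ) < s → Per (B i) := by
    intro s
    induction s with
    | zero =>
      intro _
      exact ⟨_, sys_of_tiling F h0 A hA, fun i hi => absurd hi (Nat.not_lt_zero _)⟩
    | succ s ih =>
      intro hs
      obtain ⟨B, hB, hper⟩ := ih (Nat.le_of_succ_le hs)
      obtain ⟨ŝ, hŝ⟩ : ∃ ŝ : Fin k, (ŝ : ℕ) = s := ⟨⟨s, hs⟩, rfl⟩
      have hlt : ∀ i : Fin k, (i : ℕ) < s + 1 → i ≠ ŝ → (i : ℕ) < s := by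
        intro i hi hne
        have h3 : (i : ℕ) ≠ s := fun h => hne (Fin.ext (by rw [h, hŝ]))
        omega
      have hMinv : ∀ i, Inv (Psub (μ i) (F i)) (B i) := fun i => hr i _ (hB.compl i)
      by_cases ht : ∀ x, t ŝ x = 0
      · refine ⟨B, hB, fun i hi => ?_⟩
        by_cases his : i = ŝ
        · refine ⟨((μ i * N i : ℕ) : ℤ), ?_, fun x hx v => ?_⟩
          · exact_mod_cast (Nat.mul_pos (hμ i) (hN i)).ne'
          · have h := hMinv i _ (hker i v (by rw [his]; exact ht v)) x hx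
            rw [natCast_zsmul]; exact h
        · exact hper i (hlt i hi his)
      · obtain ⟨g₁, hg₁⟩ := not_forall.mp ht
        obtain ⟨I, hI⟩ : ∃ I : Finset (Fin k), ∀ i, i ∈ I ↔
            ∀ x ∈ Psub (μ i) (F i), t ŝ x = 0 :=
          ⟨Finset.univ.filter (fun i => ∀ x ∈ Psub (μ i) (F i), t ŝ x = 0), fun i => by simp⟩
        have hŝI : ŝ ∈ I := (hI ŝ).mpr (hMker ŝ)
        have hle : ∀ i ∈ I, ∀ x, t i x = 0 → t ŝ x = 0 := by
          intro i hi x hx
          have h3 := (hI i).mp hi _ (hker i x hx)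
          rw [map_nsmul, nsmul_eq_mul] at h3
          rcases mul_eq_zero.mp h3 with h4 | h4
          · exact absurd (Int.natCast_eq_zero.mp h4) (Nat.mul_pos (hμ i) (hN i)).ne'
          · exact h4
        have hge : ∀ i ∈ I, ∀ x, t ŝ x = 0 → t i x = 0 :=
          fun i hi => ker_le_of_le (t i) (t ŝ) (hle i hi) g₁ hg₁
        obtain ⟨D, hD⟩ : ∃ D : ℕ, ∀ i, ∀ f ∈ F i, |t ŝ f| ≤ (D : ℤ) := by
          refine ⟨∑ i, ∑ f ∈ (hfin i).toFinset, (t ŝ f).natAbs, fun i f hf => ?_⟩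
          rw [← Int.natCast_natAbs]
          have h3 : (t ŝ f).natAbs ≤ ∑ f ∈ (hfin i).toFinset, (t ŝ f).natAbs :=
            Finset.single_le_sum (f := fun f => (t ŝ f).natAbs) (fun _ _ => Nat.zero_le _)
              ((hfin i).mem_toFinset.mpr hf)
          have h4 : ∑ f ∈ (hfin i).toFinset, (t ŝ f).natAbs ≤
              ∑ i, ∑ f ∈ (hfin i).toFinset, (t ŝ f).natAbs :=
            Finset.single_le_sum (f := fun i => ∑ f ∈ (hfin i).toFinset, (t ŝ f).natAbs)
              (fun _ _ => Nat.zero_le _) (Finset.mem_univ i)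
          exact_mod_cast le_trans h3 h4
        obtain ⟨B', g₀, hS', hg₀, hJ', hI'⟩ := loop_step F B hB (t ŝ) D hD
          (fun i => Psub (μ i) (F i)) hMinv I (fun i hi => (hI i).mp hi)
          (fun i hi f hf => hle i hi f (h1 i f hf))
          (fun i hi => by
            obtain ⟨R, hR⟩ := fin_reps (t i) (μ i * N i) (Nat.mul_pos (hμ i) (hN i))
            refine ⟨R, fun x hx => ?_⟩
            obtain ⟨r, hr, y, hy, hxy⟩ := hR x (hge i hi x hx)
            exact ⟨r, hr, by rw [hxy]; exact hker i y hy⟩)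
          (fun j hj => by
            have h3 : ¬ ∀ x ∈ Psub (μ j) (F j), t ŝ x = 0 := fun h => hj ((hI j).mpr h)
            obtain ⟨x, hx⟩ := not_forall.mp h3
            obtain ⟨hxM, hxt⟩ := Classical.not_imp.mp hx
            exact ⟨x, hxM, hxt⟩)
          g₁ hg₁
        refine ⟨B', hS', fun i hi => ?_⟩
        by_cases hiI : i ∈ I
        · obtain ⟨hinv, hiff⟩ := hI' i hiI
          have hz : ∀ (z : ℤ) (x : G), x ∈ B' i ↔ x + z • g₀ ∈ B' i := by
            intro z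
            induction z using Int.induction_on with
            | zero => intro x; rw [zero_smul, add_zero]
            | succ n ih =>
              intro x
              rw [add_smul, one_smul, ← add_assoc, ← hiff]; exact ih x
            | pred n ih =>
              intro x
              rw [hiff (x + (-(n : ℤ) - 1) • g₀)]
              have e : x + (-(n : ℤ) - 1) • g₀ + g₀ = x + (-(n : ℤ)) • g₀ := by
                rw [sub_smul, one_smul]; abel
              rw [e]; exact ih x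
          refine ⟨((μ i * N i : ℕ) : ℤ) * t ŝ g₀, mul_ne_zero
            (by exact_mod_cast (Nat.mul_pos (hμ i) (hN i)).ne') hg₀, fun x hx v => ?_⟩
          have hw : t ŝ (t ŝ g₀ • v - t ŝ v • g₀) = 0 := by
            rw [map_sub, map_zsmul, map_zsmul, smul_eq_mul, smul_eq_mul]; ring
          have hwM := hker i _ (hge i hiI _ hw)
          have e : x + (((μ i * N i : ℕ) : ℤ) * t ŝ g₀) • v =
              x + (μ i * N i) • (t ŝ g₀ • v - t ŝ v • g₀) +
                (((μ i * N i : ℕ) : ℤ) * t ŝ v) • g₀ := by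
            rw [← natCast_zsmul (t ŝ g₀ • v - t ŝ v • g₀), smul_sub, smul_smul, smul_smul]
            abel
          rw [e]
          exact (hz _ _).mp (hinv _ hwM x hx)
        · rw [hJ' i hiI]
          exact hper i (hlt i hi (fun h => hiI (h ▸ hŝI)))
  obtain ⟨B, hB, hper⟩ := hstep k le_rfl
  have hper' : ∀ i, Per (B i) := fun i => hper i i.isLt
  choose n hn hnper using hper'
  refine ⟨⋂ i, B i, ∏ i, (n i).natAbs, Finset.prod_pos (fun i _ => Int.natAbs_pos.mpr (hn i)),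
    tiling_of_sys F h0 B hB, fun a ha v => ?_⟩
  refine Set.mem_iInter.mpr (fun i => ?_)
  have hdvd : n i ∣ ((∏ i, (n i).natAbs : ℕ) : ℤ) := by
    refine Int.natAbs_dvd_natAbs.mp ?_
    rw [Int.natAbs_natCast]
    exact Finset.dvd_prod_of_mem (fun i => (n i).natAbs) (Finset.mem_univ i)
  obtain ⟨z, hz⟩ := hdvd
  rw [← natCast_zsmul, hz, mul_smul]
  exact hnper i a (Set.mem_iInter.mp ha i) _

theorem shift_tiling {k : ℕ} (F F' : Fin k → Set G) (e : Fin k → G)
    (hF' : ∀ i y, y ∈ F' i ↔ y + e i ∈ F i) (A : Set G)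
    (hA : ∀ g, ∃! q : G × (Fin k → G), q.1 ∈ A ∧ (∀ i, q.2 i ∈ F i) ∧ q.1 + ∑ i, q.2 i = g) :
    ∀ g, ∃! q : G × (Fin k → G), q.1 ∈ {x | x - ∑ i, e i ∈ A} ∧ (∀ i, q.2 i ∈ F' i) ∧
      q.1 + ∑ i, q.2 i = g := by
  intro g
  obtain ⟨q, ⟨hqA, hqF, hs⟩, hu⟩ := hA g
  refine ⟨(q.1 + ∑ i, e i, fun i => q.2 i - e i), ⟨?_, ?_, ?_⟩, ?_⟩
  · show q.1 + ∑ i, e i - ∑ i, e i ∈ A
    rw [add_sub_cancel_right]; exact hqA
  · intro i
    refine (hF' i _).mpr ?_
    show q.2 i - e i + e i ∈ F i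
    rw [sub_add_cancel]; exact hqF i
  · show q.1 + ∑ i, e i + ∑ i, (q.2 i - e i) = g
    rw [Finset.sum_sub_distrib, ← hs]; abel
  · rintro ⟨a', φ'⟩ ⟨ha', hφ', hs'⟩
    have hs'' : a' + ∑ i, φ' i = g := hs'
    have h := hu (a' - ∑ i, e i, fun i => φ' i + e i) ⟨ha', fun i => (hF' i _).mp (hφ' i), by
      show a' - ∑ i, e i + ∑ i, (φ' i + e i) = g
      rw [Finset.sum_add_distrib, ← hs'']; abel⟩
    rw [← h]
    refine Prod.ext ?_ (funext fun i => ?_)
    · show a' = a' - ∑ i, e i + ∑ i, e i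
      abel
    · show φ' i = φ' i + e i - e i
      abel

/-- **Periodic tilings for direct sums of sets of prime cardinality each spanning a subgroup of
corank at most one.** -/
theorem prime_hyperplane_family_periodic [IsNoetherian ℤ G] {k : ℕ} (F : Fin k → Finset G)
    (hF : ∀ i, (F i).card.Prime) (t : Fin k → G →+ ℤ)
    (h1 : ∀ i, ∀ f ∈ F i, ∀ f' ∈ F i, t i f = t i f')
    (h2 : ∀ i, ∃ N : ℕ, 0 < N ∧ ∀ x, t i x = 0 →
      N • x ∈ AddSubgroup.closure {y : G | ∃ f ∈ F i, ∃ f' ∈ F i, y = f - f'})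
    (A : Set G)
    (hA : ∀ g, ∃! q : G × (Fin k → G), q.1 ∈ A ∧ (∀ i, q.2 i ∈ F i) ∧ q.1 + ∑ i, q.2 i = g) :
    ∃ (A' : Set G) (N : ℕ), 0 < N ∧
      (∀ g, ∃! q : G × (Fin k → G), q.1 ∈ A' ∧ (∀ i, q.2 i ∈ F i) ∧ q.1 + ∑ i, q.2 i = g) ∧
      ∀ a ∈ A', ∀ v : G, a + N • v ∈ A' := by
  classical
  have hne : ∀ i, (F i).Nonempty := fun i => Finset.card_pos.mp (hF i).pos
  choose e he using hne
  obtain ⟨F', hF'def⟩ : ∃ F' : Fin k → Finset G, ∀ i, F' i = (F i).image (fun f => f - e i) :=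
    ⟨_, fun _ => rfl⟩
  have hF'mem : ∀ i y, y ∈ (↑(F' i) : Set G) ↔ y + e i ∈ (↑(F i) : Set G) := by
    intro i y
    rw [hF'def]
    simp only [Finset.coe_image, Set.mem_image, Finset.mem_coe]
    constructor
    · rintro ⟨f, hf, rfl⟩; rw [sub_add_cancel]; exact hf
    · intro h; exact ⟨y + e i, h, by abel⟩
  have hcard : ∀ i, (F' i).card = (F i).card := by
    intro i
    rw [hF'def]
    exact Finset.card_image_of_injective _ sub_left_injective
  have hprime : ∀ i, (F' i).card.Prime := fun i => by rw [hcard]; exact hF i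
  have hA₀ := shift_tiling (fun i => (↑(F i) : Set G)) (fun i => (↑(F' i) : Set G)) e hF'mem A hA
  obtain ⟨A₁, N, hN, hA₁, hper⟩ := hyperplane_core (fun i => (↑(F' i) : Set G))
    (fun i => (F' i).finite_toSet)
    (fun i => (hF'mem i 0).mpr (by rw [zero_add]; exact he i))
    (fun i => (F' i).card) (fun i => (hprime i).pos)
    (fun i B hB => szegedy_inv B (F' i) (hprime i) hB) t
    (fun i f hf => by
      have h3 := h1 i (f + e i) ((hF'mem i f).mp hf) (e i) (he i)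
      rw [map_add] at h3
      linarith)
    (fun i => by
      obtain ⟨N, hN, h⟩ := h2 i
      refine ⟨N, hN, fun x hx => ?_⟩
      refine AddSubgroup.closure_mono ?_ (h x hx)
      rintro y ⟨f, hf, f', hf', rfl⟩
      refine ⟨f - e i, (hF'mem i _).mpr (by rw [sub_add_cancel]; exact hf), f' - e i,
        (hF'mem i _).mpr (by rw [sub_add_cancel]; exact hf'), ?_⟩
      rw [one_smul]; abel)
    _ hA₀
  have hback := shift_tiling (fun i => (↑(F' i) : Set G)) (fun i => (↑(F i) : Set G))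
    (fun i => -e i) (fun i y => by
      rw [hF'mem i (y + -e i), neg_add_cancel_right]) A₁ hA₁
  refine ⟨{x | x - ∑ i, -e i ∈ A₁}, N, hN, hback, fun a ha v => ?_⟩
  show a + N • v - ∑ i, -e i ∈ A₁
  have e1 : a + N • v - ∑ i, -e i = (a - ∑ i, -e i) + N • v := by abel
  rw [e1]
  exact hper _ ha v

end Vale.Agent.H12.PrimeSum
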