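import Vale.Agent.H12.LovMain

/-!
Data and certified checks for a 5-partite 5-uniform hypergraph with 25 edges on 30 vertices
(the cyclic shifts of five edges) whose matching number is two and is not lowered by the removal
of any four vertices.
-/

namespace Vale.Agent.H12.Lov

/-- Codes of the edges. -/
def h5_codes : List ℕ :=
  [4290, 6960, 2034, 4429, 2785, 6715, 4453, 715, 1160, 3944, 4808, 7334, 1760, 2415, 3249, 3393, 339, 5523, 7449, 2038, 3814, 2885, 1415, 5129, 5819]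

/-- The disjoint pairs of edges: bit mask and vertex list. -/
def h5_pairs : List (ℕ × List ℕ) :=
  [(153757827, [0, 7, 17, 19, 27, 1, 11, 13, 21, 24]),
   (169482373, [0, 7, 17, 19, 27, 2, 11, 12, 20, 25]),
   (176824521, [0, 7, 17, 19, 27, 3, 6, 13, 23, 25]),
   (675956873, [0, 7, 17, 19, 27, 3, 11, 14, 22, 29]),
   (170541713, [0, 7, 17, 19, 27, 4, 9, 14, 21, 25]),
   (210405521, [0, 7, 17, 19, 27, 4, 11, 15, 23, 26]),
   (563110277, [0, 8, 13, 20, 29, 2, 7, 14, 23, 24]),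
   (607138185, [0, 8, 13, 20, 29, 3, 7, 12, 21, 26]),
   (607199625, [0, 8, 13, 20, 29, 3, 7, 16, 21, 26]),
   (573596433, [0, 8, 13, 20, 29, 4, 9, 14, 21, 25]),
   (613460241, [0, 8, 13, 20, 29, 4, 11, 15, 23, 26]),
   (605577569, [0, 8, 13, 20, 29, 5, 6, 14, 19, 26]),
   (571777441, [0, 8, 13, 20, 29, 5, 7, 15, 18, 25]),
   (170967619, [0, 9, 14, 21, 25, 1, 6, 15, 20, 27]),
   (103170819, [0, 9, 14, 21, 25, 1, 8, 17, 18, 26]),
   (170968579, [0, 9, 14, 21, 25, 1, 10, 15, 20, 27]),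
   (53003017, [0, 9, 14, 21, 25, 3, 8, 15, 19, 24]),
   (304661257, [0, 9, 14, 21, 25, 3, 8, 15, 19, 28]),
   (111200785, [0, 9, 14, 21, 25, 4, 11, 15, 23, 26]),
   (178340641, [0, 9, 14, 21, 25, 5, 8, 16, 23, 27]),
   (160481478, [1, 6, 15, 20, 27, 2, 7, 14, 23, 24]),
   (674399302, [1, 6, 15, 20, 27, 2, 10, 17, 21, 29]),
   (204509386, [1, 6, 15, 20, 27, 3, 7, 12, 21, 26]),
   (204570826, [1, 6, 15, 20, 27, 3, 7, 16, 21, 26]),
   (676382794, [1, 6, 15, 20, 27, 3, 11, 14, 22, 29]),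
   (170967634, [1, 6, 15, 20, 27, 4, 9, 14, 21, 25]),
   (92684678, [1, 8, 17, 18, 26, 2, 7, 14, 23, 24]),
   (205923078, [1, 8, 17, 18, 26, 2, 9, 13, 22, 27]),
   (102111494, [1, 8, 17, 18, 26, 2, 11, 12, 20, 25]),
   (109453642, [1, 8, 17, 18, 26, 3, 6, 13, 23, 25]),
   (608585994, [1, 8, 17, 18, 26, 3, 11, 14, 22, 29]),
   (103170834, [1, 8, 17, 18, 26, 4, 9, 14, 21, 25]),
   (562582150, [1, 9, 12, 19, 29, 2, 7, 14, 23, 24]),
   (579351114, [1, 9, 12, 19, 29, 3, 6, 13, 23, 25]),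
   (606671498, [1, 9, 12, 19, 29, 3, 7, 16, 21, 26]),
   (612932114, [1, 9, 12, 19, 29, 4, 11, 15, 23, 26]),
   (571249314, [1, 9, 12, 19, 29, 5, 7, 15, 18, 25]),
   (680071970, [1, 9, 12, 19, 29, 5, 8, 16, 23, 27]),
   (160482438, [1, 10, 15, 20, 27, 2, 7, 14, 23, 24]),
   (177251402, [1, 10, 15, 20, 27, 3, 6, 13, 23, 25]),
   (204510346, [1, 10, 15, 20, 27, 3, 7, 12, 21, 26]),
   (204571786, [1, 10, 15, 20, 27, 3, 7, 16, 21, 26]),
   (676383754, [1, 10, 15, 20, 27, 3, 11, 14, 22, 29]),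
   (170968594, [1, 10, 15, 20, 27, 4, 9, 14, 21, 25]),
   (202949730, [1, 10, 15, 20, 27, 5, 6, 14, 19, 26]),
   (287877386, [1, 11, 13, 21, 24, 3, 8, 15, 19, 28]),
   (86534242, [1, 11, 13, 21, 24, 5, 6, 14, 19, 26]),
   (52734114, [1, 11, 13, 21, 24, 5, 7, 15, 18, 25]),
   (161556770, [1, 11, 13, 21, 24, 5, 8, 16, 23, 27]),
   (288500258, [1, 11, 13, 21, 24, 5, 9, 17, 20, 28]),
   (294175116, [2, 7, 14, 23, 24, 3, 8, 15, 19, 28]),
   (294797988, [2, 7, 14, 23, 24, 5, 9, 17, 20, 28]),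
   (203698828, [2, 9, 13, 18, 27, 3, 7, 12, 21, 26]),
   (203760268, [2, 9, 13, 18, 27, 3, 7, 16, 21, 26]),
   (151823116, [2, 9, 13, 18, 27, 3, 8, 15, 19, 24]),
   (403481356, [2, 9, 13, 18, 27, 3, 8, 15, 19, 28]),
   (675572236, [2, 9, 13, 18, 27, 3, 11, 14, 22, 29]),
   (210020884, [2, 9, 13, 18, 27, 4, 11, 15, 23, 26]),
   (202138212, [2, 9, 13, 18, 27, 5, 6, 14, 19, 26]),
   (207630988, [2, 9, 13, 22, 27, 3, 7, 12, 21, 26]),
   (207692428, [2, 9, 13, 22, 27, 3, 7, 16, 21, 26]),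
   (155755276, [2, 9, 13, 22, 27, 3, 8, 15, 19, 24]),
   (407413516, [2, 9, 13, 22, 27, 3, 8, 15, 19, 28]),
   (213953044, [2, 9, 13, 22, 27, 4, 11, 15, 23, 26]),
   (206070372, [2, 9, 13, 22, 27, 5, 6, 14, 19, 26]),
   (172270244, [2, 9, 13, 22, 27, 5, 7, 15, 18, 25]),
   (581051468, [2, 10, 17, 21, 29, 3, 6, 13, 23, 25]),
   (556434700, [2, 10, 17, 21, 29, 3, 8, 15, 19, 24]),
   (808092940, [2, 10, 17, 21, 29, 3, 8, 15, 19, 28]),
   (614632468, [2, 10, 17, 21, 29, 4, 11, 15, 23, 26]),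
   (606749796, [2, 10, 17, 21, 29, 5, 6, 14, 19, 26]),
   (572949668, [2, 10, 17, 21, 29, 5, 7, 15, 18, 25]),
   (681772324, [2, 10, 17, 21, 29, 5, 8, 16, 23, 27]),
   (103880844, [2, 11, 12, 20, 25, 3, 7, 16, 21, 26]),
   (51943692, [2, 11, 12, 20, 25, 3, 8, 15, 19, 24]),
   (303601932, [2, 11, 12, 20, 25, 3, 8, 15, 19, 28]),
   (102258788, [2, 11, 12, 20, 25, 5, 6, 14, 19, 26]),
   (177281316, [2, 11, 12, 20, 25, 5, 8, 16, 23, 27]),
   (311566952, [3, 6, 13, 23, 25, 5, 9, 17, 20, 28]),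
   (211882408, [3, 7, 12, 21, 26, 5, 8, 16, 23, 27]),
   (338825896, [3, 7, 12, 21, 26, 5, 9, 17, 20, 28]),
   (338887336, [3, 7, 16, 21, 26, 5, 9, 17, 20, 28]),
   (53003032, [3, 8, 15, 19, 24, 4, 9, 14, 21, 25]),
   (286950184, [3, 8, 15, 19, 24, 5, 9, 17, 20, 28]),
   (304661272, [3, 8, 15, 19, 28, 4, 9, 14, 21, 25]),
   (574933160, [3, 11, 14, 22, 29, 5, 7, 15, 18, 25]),
   (683755816, [3, 11, 14, 22, 29, 5, 8, 16, 23, 27]),
   (810699304, [3, 11, 14, 22, 29, 5, 9, 17, 20, 28]),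
   (178340656, [4, 9, 14, 21, 25, 5, 8, 16, 23, 27]),
   (345147952, [4, 11, 15, 23, 26, 5, 9, 17, 20, 28])]

theorem h5_three : ∀ m ∈ h5_codes, ∀ n ∈ h5_codes, ∀ k ∈ h5_codes,
    ¬ (disjB 5 5 m n = true ∧ disjB 5 5 m k = true ∧ disjB 5 5 n k = true) := by
  decide +kernel

theorem h5_mask : ∀ p ∈ h5_pairs, p.1 = maskOf p.2 := by
  decide +kernel

theorem h5_link : ∀ p ∈ h5_pairs, ∃ m ∈ h5_codes, ∃ n ∈ h5_codes,
    disjB 5 5 m n = true ∧ inB 5 5 m p.2 = true ∧ inB 5 5 n p.2 = true := by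
  decide +kernel

/-- One step of the search, stated so that the branches can be checked one by one. -/
theorem noHit_step (pairs : List (ℕ × List ℕ)) (d : ℕ) (chosen : List ℕ) (p : ℕ × List ℕ)
    (hfind : pairs.find? (fun p => chosen.all (fun v => !(p.1.testBit v))) = some p)
    (h : ∀ v ∈ p.2, noHit pairs d (v :: chosen) = true) :
    noHit pairs (d + 1) chosen = true := by
  unfold noHit
  rw [hfind]
  exact List.all_eq_true.2 h

/-!
The search of depth four is cut into one hundred searches of depth two (its first two levels are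
unfolded by hand), so that the kernel checks many small computations instead of a single large one.
-/

theorem h5_hit_0 : noHit h5_pairs 3 [0] = true := by
  refine noHit_step h5_pairs 2 [0] (160481478, [1, 6, 15, 20, 27, 2, 7, 14, 23, 24])
    (by decide +kernel) ?_
  intro w hw
  simp only [List.mem_cons, List.not_mem_nil, or_false] at hw
  rcases hw with rfl | rfl | rfl | rfl | rfl | rfl | rfl | rfl | rfl | rfl <;> decide +kernel

theorem h5_hit_7 : noHit h5_pairs 3 [7] = true := by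
  refine noHit_step h5_pairs 2 [7] (573596433, [0, 8, 13, 20, 29, 4, 9, 14, 21, 25])
    (by decide +kernel) ?_
  intro w hw
  simp only [List.mem_cons, List.not_mem_nil, or_false] at hw
  rcases hw with rfl | rfl | rfl | rfl | rfl | rfl | rfl | rfl | rfl | rfl <;> decide +kernel

theorem h5_hit_17 : noHit h5_pairs 3 [17] = true := by
  refine noHit_step h5_pairs 2 [17] (563110277, [0, 8, 13, 20, 29, 2, 7, 14, 23, 24])
    (by decide +kernel) ?_
  intro w hw
  simp only [List.mem_cons, List.not_mem_nil, or_false] at hw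
  rcases hw with rfl | rfl | rfl | rfl | rfl | rfl | rfl | rfl | rfl | rfl <;> decide +kernel

theorem h5_hit_19 : noHit h5_pairs 3 [19] = true := by
  refine noHit_step h5_pairs 2 [19] (563110277, [0, 8, 13, 20, 29, 2, 7, 14, 23, 24])
    (by decide +kernel) ?_
  intro w hw
  simp only [List.mem_cons, List.not_mem_nil, or_false] at hw
  rcases hw with rfl | rfl | rfl | rfl | rfl | rfl | rfl | rfl | rfl | rfl <;> decide +kernel

theorem h5_hit_27 : noHit h5_pairs 3 [27] = true := by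
  refine noHit_step h5_pairs 2 [27] (563110277, [0, 8, 13, 20, 29, 2, 7, 14, 23, 24])
    (by decide +kernel) ?_
  intro w hw
  simp only [List.mem_cons, List.not_mem_nil, or_false] at hw
  rcases hw with rfl | rfl | rfl | rfl | rfl | rfl | rfl | rfl | rfl | rfl <;> decide +kernel

theorem h5_hit_1 : noHit h5_pairs 3 [1] = true := by
  refine noHit_step h5_pairs 2 [1] (169482373, [0, 7, 17, 19, 27, 2, 11, 12, 20, 25])
    (by decide +kernel) ?_
  intro w hw
  simp only [List.mem_cons, List.not_mem_nil, or_false] at hw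
  rcases hw with rfl | rfl | rfl | rfl | rfl | rfl | rfl | rfl | rfl | rfl <;> decide +kernel

theorem h5_hit_11 : noHit h5_pairs 3 [11] = true := by
  refine noHit_step h5_pairs 2 [11] (176824521, [0, 7, 17, 19, 27, 3, 6, 13, 23, 25])
    (by decide +kernel) ?_
  intro w hw
  simp only [List.mem_cons, List.not_mem_nil, or_false] at hw
  rcases hw with rfl | rfl | rfl | rfl | rfl | rfl | rfl | rfl | rfl | rfl <;> decide +kernel

theorem h5_hit_13 : noHit h5_pairs 3 [13] = true := by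
  refine noHit_step h5_pairs 2 [13] (169482373, [0, 7, 17, 19, 27, 2, 11, 12, 20, 25])
    (by decide +kernel) ?_
  intro w hw
  simp only [List.mem_cons, List.not_mem_nil, or_false] at hw
  rcases hw with rfl | rfl | rfl | rfl | rfl | rfl | rfl | rfl | rfl | rfl <;> decide +kernel

theorem h5_hit_21 : noHit h5_pairs 3 [21] = true := by
  refine noHit_step h5_pairs 2 [21] (169482373, [0, 7, 17, 19, 27, 2, 11, 12, 20, 25])
    (by decide +kernel) ?_
  intro w hw
  simp only [List.mem_cons, List.not_mem_nil, or_false] at hw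
  rcases hw with rfl | rfl | rfl | rfl | rfl | rfl | rfl | rfl | rfl | rfl <;> decide +kernel

theorem h5_hit_24 : noHit h5_pairs 3 [24] = true := by
  refine noHit_step h5_pairs 2 [24] (169482373, [0, 7, 17, 19, 27, 2, 11, 12, 20, 25])
    (by decide +kernel) ?_
  intro w hw
  simp only [List.mem_cons, List.not_mem_nil, or_false] at hw
  rcases hw with rfl | rfl | rfl | rfl | rfl | rfl | rfl | rfl | rfl | rfl <;> decide +kernel

theorem h5_hit : noHit h5_pairs 4 [] = true := by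
  refine noHit_step h5_pairs 3 [] (153757827, [0, 7, 17, 19, 27, 1, 11, 13, 21, 24])
    (by decide +kernel) ?_
  intro v hv
  simp only [List.mem_cons, List.not_mem_nil, or_false] at hv
  rcases hv with rfl | rfl | rfl | rfl | rfl | rfl | rfl | rfl | rfl | rfl
  · exact h5_hit_0
  · exact h5_hit_7
  · exact h5_hit_17
  · exact h5_hit_19
  · exact h5_hit_27
  · exact h5_hit_1
  · exact h5_hit_11
  · exact h5_hit_13
  · exact h5_hit_21
  · exact h5_hit_24

theorem h5_main :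
    ∃ E : Finset (Fin 5 → Fin 6),
      (∀ M : Finset (Fin 5 → Fin 6), M ⊆ E →
        (∀ e ∈ M, ∀ f ∈ M, e ≠ f → ∀ i, e i ≠ f i) → M.card ≤ 2) ∧
      (∀ S : Finset (Fin 5 × Fin 6), S.card ≤ 4 →
        ∃ M : Finset (Fin 5 → Fin 6), M ⊆ E ∧
          (∀ e ∈ M, ∀ f ∈ M, e ≠ f → ∀ i, e i ≠ f i) ∧
          (∀ e ∈ M, ∀ i, (i, e i) ∉ S) ∧ M.card = 2) :=
  main 5 5 h5_codes h5_pairs 4 h5_three h5_mask h5_link h5_hit

end Vale.Agent.H12.Lov
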