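import Mathlib

/-!
Certified search for hitting sets, used to check that a finite multipartite hypergraph keeps its
matching number after the removal of any few vertices.
-/

namespace Vale.Agent.H12.Lov

/-- `noHit pairs d chosen`: search showing that no set containing `chosen` and at most `d` further
vertices meets every member of `pairs`. A member of `pairs` is a bit mask with its vertex list. -/
def noHit (pairs : List (ℕ × List ℕ)) : ℕ → List ℕ → Bool
  | 0, chosen => (pairs.find? (fun p => chosen.all (fun v => !(p.1.testBit v)))).isSome
  | d + 1, chosen =>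
      match pairs.find? (fun p => chosen.all (fun v => !(p.1.testBit v))) with
      | none => false
      | some p => p.2.all (fun v => noHit pairs d (v :: chosen))

/-- The bit mask of a list of vertices. -/
def maskOf (l : List ℕ) : ℕ := l.foldr (fun v m => m ||| 2 ^ v) 0

theorem testBit_maskOf (l : List ℕ) (v : ℕ) : (maskOf l).testBit v = decide (v ∈ l) := by
  induction l with
  | nil => simp [maskOf]
  | cons a l ih =>
    have h : maskOf (a :: l) = maskOf l ||| 2 ^ a := rfl
    rw [h, Nat.testBit_or, ih, Nat.testBit_two_pow]
    by_cases hv : v = a
    · subst hv; simp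
    · have : ¬ a = v := fun h => hv h.symm
      simp [hv, this]

theorem noHit_sound (pairs : List (ℕ × List ℕ)) (hmask : ∀ p ∈ pairs, p.1 = maskOf p.2) :
    ∀ (d : ℕ) (chosen : List ℕ), noHit pairs d chosen = true → chosen.Nodup →
      ∀ S : Finset ℕ, (∀ v ∈ chosen, v ∈ S) → S.card ≤ chosen.length + d →
        ∃ p ∈ pairs, ∀ v ∈ p.2, v ∉ S := by
  intro d
  induction d with
  | zero =>
    intro chosen h hnd S hsub hcard
    have h' : (pairs.find? (fun p => chosen.all (fun v => !(p.1.testBit v)))).isSome = true := h
    obtain ⟨p, hp⟩ := Option.isSome_iff_exists.1 h'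
    have hpm : p ∈ pairs := List.mem_of_find?_eq_some hp
    have hpred := List.find?_some hp
    have hSeq : S = chosen.toFinset := by
      symm
      apply Finset.eq_of_subset_of_card_le
      · intro v hv; exact hsub v (List.mem_toFinset.1 hv)
      · rw [List.toFinset_card_of_nodup hnd]; simpa using hcard
    refine ⟨p, hpm, ?_⟩
    intro v hv hvS
    rw [hSeq, List.mem_toFinset] at hvS
    have h1 : (!(p.1.testBit v)) = true := (List.all_eq_true.1 hpred) v hvS
    rw [hmask p hpm, testBit_maskOf] at h1
    simp [hv] at h1
  | succ d ih =>
    intro chosen h hnd S hsub hcard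
    unfold noHit at h
    split at h
    · exact absurd h (by simp)
    · rename_i p hp
      have hpm : p ∈ pairs := List.mem_of_find?_eq_some hp
      have hpred := List.find?_some hp
      by_cases hall : ∀ v ∈ p.2, v ∉ S
      · exact ⟨p, hpm, hall⟩
      · obtain ⟨v, hv, hvS⟩ : ∃ v ∈ p.2, v ∈ S := by
          by_contra hcon
          exact hall (fun v hv hvS => hcon ⟨v, hv, hvS⟩)
        have hvc : v ∉ chosen := by
          intro hvc
          have h1 : (!(p.1.testBit v)) = true := (List.all_eq_true.1 hpred) v hvc
          rw [hmask p hpm, testBit_maskOf] at h1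
          simp [hv] at h1
        have hrec : noHit pairs d (v :: chosen) = true := (List.all_eq_true.1 h) v hv
        apply ih (v :: chosen) hrec (List.nodup_cons.2 ⟨hvc, hnd⟩) S
        · intro w hw
          rcases List.mem_cons.1 hw with rfl | hw
          · exact hvS
          · exact hsub w hw
        · simp only [List.length_cons]; omega

end Vale.Agent.H12.Lov
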