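import Vale.Agent.H12.LovHit

/-!
From a certified search to the statement about `r`-partite `r`-uniform hypergraphs whose matching
number equals two and is not lowered by the removal of any `t` vertices.
Edges are coded by natural numbers: the edge with code `n` takes in part `i` the digit number `i`
of `n` in base `s + 1`.
-/

namespace Vale.Agent.H12.Lov

variable (r s : ℕ)

/-- The edge coded by `n`. -/
def ef (n : ℕ) : Fin r → Fin (s + 1) :=
  fun i => ⟨(n / (s + 1) ^ i.val) % (s + 1), Nat.mod_lt _ (Nat.succ_pos _)⟩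

/-- Disjointness test on codes. -/
def disjB (m n : ℕ) : Bool :=
  (List.range r).all (fun i => (m / (s + 1) ^ i) % (s + 1) != (n / (s + 1) ^ i) % (s + 1))

/-- All vertices of the edge coded by `n` have their codes in `l`. -/
def inB (n : ℕ) (l : List ℕ) : Bool :=
  (List.range r).all (fun i => decide ((s + 1) * i + (n / (s + 1) ^ i) % (s + 1) ∈ l))

/-- The code of a vertex. -/
def vcode (v : Fin r × Fin (s + 1)) : ℕ := (s + 1) * v.1.val + v.2.val

theorem vcode_injective : Function.Injective (vcode r s) := by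
  intro v w h
  unfold vcode at h
  have h1 := v.2.isLt
  have h2 := w.2.isLt
  have hdiv : v.1.val = w.1.val := by
    have h3 : ((s + 1) * v.1.val + v.2.val) / (s + 1) = ((s + 1) * w.1.val + w.2.val) / (s + 1) := by
      rw [h]
    rw [Nat.mul_add_div (Nat.succ_pos s), Nat.mul_add_div (Nat.succ_pos s),
      Nat.div_eq_of_lt h1, Nat.div_eq_of_lt h2] at h3
    simpa using h3
  have hmod : v.2.val = w.2.val := by
    rw [hdiv] at h
    exact Nat.add_left_cancel h
  exact Prod.ext (Fin.ext hdiv) (Fin.ext hmod)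

theorem disjB_iff (m n : ℕ) :
    disjB r s m n = true ↔ ∀ i : Fin r, ef r s m i ≠ ef r s n i := by
  unfold disjB ef
  rw [List.all_eq_true]
  constructor
  · intro h i hi
    have := h i.val (List.mem_range.2 i.isLt)
    have hi' : (m / (s + 1) ^ i.val) % (s + 1) = (n / (s + 1) ^ i.val) % (s + 1) :=
      congrArg Fin.val hi
    simp [hi'] at this
  · intro h i hi
    have := h ⟨i, List.mem_range.1 hi⟩
    simp only [ne_eq, Fin.mk.injEq] at this
    simpa using this

theorem inB_spec (n : ℕ) (l : List ℕ) (h : inB r s n l = true) (i : Fin r) :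
    vcode r s (i, ef r s n i) ∈ l := by
  unfold inB at h
  rw [List.all_eq_true] at h
  have := h i.val (List.mem_range.2 i.isLt)
  simpa [vcode, ef] using this

/-- Main bridge. -/
theorem main (codes : List ℕ) (pairs : List (ℕ × List ℕ)) (t : ℕ)
    (h3 : ∀ m ∈ codes, ∀ n ∈ codes, ∀ k ∈ codes,
      ¬ (disjB r s m n = true ∧ disjB r s m k = true ∧ disjB r s n k = true))
    (hmask : ∀ p ∈ pairs, p.1 = maskOf p.2)
    (hlink : ∀ p ∈ pairs, ∃ m ∈ codes, ∃ n ∈ codes,
      disjB r s m n = true ∧ inB r s m p.2 = true ∧ inB r s n p.2 = true)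
    (hhit : noHit pairs t [] = true) :
    ∃ E : Finset (Fin r → Fin (s + 1)),
      (∀ M : Finset (Fin r → Fin (s + 1)), M ⊆ E →
        (∀ e ∈ M, ∀ f ∈ M, e ≠ f → ∀ i, e i ≠ f i) → M.card ≤ 2) ∧
      (∀ S : Finset (Fin r × Fin (s + 1)), S.card ≤ t →
        ∃ M : Finset (Fin r → Fin (s + 1)), M ⊆ E ∧
          (∀ e ∈ M, ∀ f ∈ M, e ≠ f → ∀ i, e i ≠ f i) ∧
          (∀ e ∈ M, ∀ i, (i, e i) ∉ S) ∧ M.card = 2) := by
  classical
  refine ⟨(codes.map (ef r s)).toFinset, ?_, ?_⟩
  · intro M hM hdis
    by_contra hcard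
    have h2 : 2 < M.card := by omega
    obtain ⟨a, b, c, ha, hb, hc, hab, hac, hbc⟩ := Finset.two_lt_card_iff.1 h2
    have key : ∀ x ∈ M, ∃ m ∈ codes, ef r s m = x := by
      intro x hx
      have := hM hx
      rw [List.mem_toFinset, List.mem_map] at this
      exact this
    obtain ⟨m, hm, rfl⟩ := key a ha
    obtain ⟨n, hn, rfl⟩ := key b hb
    obtain ⟨k, hk, rfl⟩ := key c hc
    exact h3 m hm n hn k hk
      ⟨(disjB_iff r s m n).2 (hdis _ ha _ hb hab), (disjB_iff r s m k).2 (hdis _ ha _ hc hac),
        (disjB_iff r s n k).2 (hdis _ hb _ hc hbc)⟩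
  · intro S hS
    have hcard : (S.image (vcode r s)).card ≤ ([] : List ℕ).length + t := by
      rw [Finset.card_image_of_injective _ (vcode_injective r s)]
      simpa using hS
    obtain ⟨p, hp, hav⟩ := noHit_sound pairs hmask t [] hhit List.nodup_nil (S.image (vcode r s))
      (by intro v hv; exact absurd hv (by simp)) hcard
    obtain ⟨m, hm, n, hn, hd, him, hin⟩ := hlink p hp
    have hdis := (disjB_iff r s m n).1 hd
    have hne : ef r s m ≠ ef r s n := by
      intro h
      by_cases hr : 0 < r
      · exact hdis ⟨0, hr⟩ (by rw [h])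
      · have hr0 : r = 0 := by omega
        subst hr0
        have hd0 : disjB 0 s m m = true := by simp [disjB]
        exact h3 m hm m hm m hm ⟨hd0, hd0, hd0⟩
    refine ⟨{ef r s m, ef r s n}, ?_, ?_, ?_, ?_⟩
    · intro x hx
      rw [Finset.mem_insert, Finset.mem_singleton] at hx
      rw [List.mem_toFinset, List.mem_map]
      rcases hx with rfl | rfl
      · exact ⟨m, hm, rfl⟩
      · exact ⟨n, hn, rfl⟩
    · intro e he f hf hef i
      rw [Finset.mem_insert, Finset.mem_singleton] at he hf
      rcases he with rfl | rfl <;> rcases hf with rfl | rfl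
      · exact absurd rfl hef
      · exact hdis i
      · exact fun h => hdis i h.symm
      · exact absurd rfl hef
    · intro e he i hmem
      rw [Finset.mem_insert, Finset.mem_singleton] at he
      have hc : vcode r s (i, e i) ∈ S.image (vcode r s) := Finset.mem_image_of_mem _ hmem
      rcases he with rfl | rfl
      · exact hav _ (inB_spec r s m p.2 him i) hc
      · exact hav _ (inB_spec r s n p.2 hin i) hc
    · exact Finset.card_pair hne

end Vale.Agent.H12.Lov
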