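import Mathlib

/-!
Abstract L2 mixing bound for a lazy symmetric Markov kernel on a finite set,
from a Poincare inequality, avoiding the spectral theorem.
-/

namespace Vale.Agent.H12.MixCore

open Finset

variable {X : Type*} [Fintype X] [DecidableEq X]

/-- the lazy version of a kernel -/
noncomputable def lazy (K : Matrix X X ℝ) : Matrix X X ℝ := (1 / 2 : ℝ) • (1 + K)

theorem lazy_mulVec (K : Matrix X X ℝ) (f : X → ℝ) (x : X) :
    (lazy K).mulVec f x = (1 / 2) * (f x + K.mulVec f x) := by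
  unfold lazy
  rw [Matrix.smul_mulVec, Matrix.add_mulVec, Matrix.one_mulVec]
  simp

theorem sq_mulVec_le (K : Matrix X X ℝ) (hnn : ∀ x y, 0 ≤ K x y) (hrow : ∀ x, ∑ y, K x y = 1)
    (f : X → ℝ) (x : X) : (K.mulVec f x) ^ 2 ≤ ∑ y, K x y * f y ^ 2 := by
  set m := K.mulVec f x with hm
  have h0 : 0 ≤ ∑ y, K x y * (f y - m) ^ 2 :=
    Finset.sum_nonneg (fun y _ => mul_nonneg (hnn x y) (sq_nonneg _))
  have h1 : ∑ y, K x y * (f y - m) ^ 2
      = ∑ y, K x y * f y ^ 2 - 2 * m * ∑ y, K x y * f y + m ^ 2 * ∑ y, K x y := by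
    rw [Finset.mul_sum, Finset.mul_sum, ← Finset.sum_sub_distrib, ← Finset.sum_add_distrib]
    refine Finset.sum_congr rfl (fun y _ => ?_)
    ring
  have h2 : ∑ y, K x y * f y = m := by
    rw [hm]; rfl
  rw [h1, h2, hrow x] at h0
  nlinarith

theorem sum_sq_mulVec_le (K : Matrix X X ℝ) (hsymm : ∀ x y, K x y = K y x)
    (hnn : ∀ x y, 0 ≤ K x y) (hrow : ∀ x, ∑ y, K x y = 1) (f : X → ℝ) :
    ∑ x, (K.mulVec f x) ^ 2 ≤ ∑ x, f x ^ 2 := by
  calc ∑ x, (K.mulVec f x) ^ 2 ≤ ∑ x, ∑ y, K x y * f y ^ 2 :=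
        Finset.sum_le_sum (fun x _ => sq_mulVec_le K hnn hrow f x)
    _ = ∑ y, ∑ x, K x y * f y ^ 2 := Finset.sum_comm
    _ = ∑ y, f y ^ 2 := by
        refine Finset.sum_congr rfl (fun y _ => ?_)
        rw [← Finset.sum_mul]
        have : ∑ x, K x y = 1 := by
          rw [← hrow y]
          exact Finset.sum_congr rfl (fun x _ => hsymm x y)
        rw [this, one_mul]

/-- Dirichlet form identity -/
theorem dirichlet_eq (K : Matrix X X ℝ) (hsymm : ∀ x y, K x y = K y x)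
    (hrow : ∀ x, ∑ y, K x y = 1) (f : X → ℝ) :
    (1 / 2 : ℝ) * ∑ x, ∑ y, K x y * (f x - f y) ^ 2
      = ∑ x, f x ^ 2 - ∑ x, f x * K.mulVec f x := by
  have h1 : ∑ x, ∑ y, K x y * (f x - f y) ^ 2
      = ∑ x, ∑ y, K x y * f x ^ 2 + ∑ x, ∑ y, K x y * f y ^ 2
        - 2 * ∑ x, ∑ y, K x y * (f x * f y) := by
    rw [Finset.mul_sum, ← Finset.sum_add_distrib, ← Finset.sum_sub_distrib]
    refine Finset.sum_congr rfl (fun x _ => ?_)
    rw [Finset.mul_sum, ← Finset.sum_add_distrib, ← Finset.sum_sub_distrib]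
    refine Finset.sum_congr rfl (fun y _ => ?_)
    ring
  have h2 : ∑ x, ∑ y, K x y * f x ^ 2 = ∑ x, f x ^ 2 := by
    refine Finset.sum_congr rfl (fun x _ => ?_)
    rw [← Finset.sum_mul, hrow x, one_mul]
  have h3 : ∑ x, ∑ y, K x y * f y ^ 2 = ∑ x, f x ^ 2 := by
    rw [Finset.sum_comm]
    refine Finset.sum_congr rfl (fun y _ => ?_)
    rw [← Finset.sum_mul]
    have : ∑ x, K x y = 1 := by
      rw [← hrow y]
      exact Finset.sum_congr rfl (fun x _ => hsymm x y)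
    rw [this, one_mul]
  have h4 : ∑ x, ∑ y, K x y * (f x * f y) = ∑ x, f x * K.mulVec f x := by
    refine Finset.sum_congr rfl (fun x _ => ?_)
    unfold Matrix.mulVec
    simp only [dotProduct]
    rw [Finset.mul_sum]
    refine Finset.sum_congr rfl (fun y _ => ?_)
    ring
  rw [h1, h2, h3, h4]
  ring

theorem sum_lazy_mulVec (K : Matrix X X ℝ) (hsymm : ∀ x y, K x y = K y x)
    (hrow : ∀ x, ∑ y, K x y = 1) (f : X → ℝ) :
    ∑ x, (lazy K).mulVec f x = ∑ x, f x := by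
  have h : ∑ x, K.mulVec f x = ∑ x, f x := by
    unfold Matrix.mulVec
    simp only [dotProduct]
    rw [Finset.sum_comm]
    refine Finset.sum_congr rfl (fun y _ => ?_)
    rw [← Finset.sum_mul]
    have : ∑ x, K x y = 1 := by
      rw [← hrow y]
      exact Finset.sum_congr rfl (fun x _ => hsymm x y)
    rw [this, one_mul]
  simp only [lazy_mulVec]
  rw [← Finset.mul_sum, Finset.sum_add_distrib, h]
  ring

/-- one step contracts the L2 norm of mean-zero functions -/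
theorem step_contract (K : Matrix X X ℝ) (hsymm : ∀ x y, K x y = K y x)
    (hnn : ∀ x y, 0 ≤ K x y) (hrow : ∀ x, ∑ y, K x y = 1) (γ : ℝ)
    (hP : ∀ f : X → ℝ, ∑ x, f x = 0 →
      γ * ∑ x, f x ^ 2 ≤ (1 / 2 : ℝ) * ∑ x, ∑ y, K x y * (f x - f y) ^ 2)
    (f : X → ℝ) (hf : ∑ x, f x = 0) :
    ∑ x, ((lazy K).mulVec f x) ^ 2 ≤ (1 - γ / 2) * ∑ x, f x ^ 2 := by
  have hD := dirichlet_eq K hsymm hrow f
  have hPf := hP f hf
  have hK := sum_sq_mulVec_le K hsymm hnn hrow f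
  have e : ∑ x, ((lazy K).mulVec f x) ^ 2
      = (1 / 4 : ℝ) * (∑ x, f x ^ 2 + 2 * ∑ x, f x * K.mulVec f x + ∑ x, (K.mulVec f x) ^ 2) := by
    simp only [lazy_mulVec]
    rw [Finset.mul_sum, ← Finset.sum_add_distrib, ← Finset.sum_add_distrib, Finset.mul_sum]
    refine Finset.sum_congr rfl (fun x _ => ?_)
    ring
  rw [e]
  nlinarith

theorem pow_contract (K : Matrix X X ℝ) (hsymm : ∀ x y, K x y = K y x)
    (hnn : ∀ x y, 0 ≤ K x y) (hrow : ∀ x, ∑ y, K x y = 1) (γ : ℝ) (hγ : γ ≤ 2)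
    (hP : ∀ f : X → ℝ, ∑ x, f x = 0 →
      γ * ∑ x, f x ^ 2 ≤ (1 / 2 : ℝ) * ∑ x, ∑ y, K x y * (f x - f y) ^ 2)
    (f : X → ℝ) (hf : ∑ x, f x = 0) (t : ℕ) :
    ∑ x, ((lazy K ^ t).mulVec f x) = 0 ∧
    ∑ x, ((lazy K ^ t).mulVec f x) ^ 2 ≤ (1 - γ / 2) ^ t * ∑ x, f x ^ 2 := by
  induction t with
  | zero => simp [hf]
  | succ t ih =>
    obtain ⟨ih0, ih1⟩ := ih
    have e : (lazy K ^ (t + 1)).mulVec f = (lazy K).mulVec ((lazy K ^ t).mulVec f) := by
      rw [pow_succ', Matrix.mulVec_mulVec]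
    rw [e]
    refine ⟨?_, ?_⟩
    · rw [sum_lazy_mulVec K hsymm hrow]; exact ih0
    · have h1 := step_contract K hsymm hnn hrow γ hP _ ih0
      have h2 : 0 ≤ 1 - γ / 2 := by linarith
      calc ∑ x, ((lazy K).mulVec ((lazy K ^ t).mulVec f) x) ^ 2
          ≤ (1 - γ / 2) * ∑ x, ((lazy K ^ t).mulVec f x) ^ 2 := h1
        _ ≤ (1 - γ / 2) * ((1 - γ / 2) ^ t * ∑ x, f x ^ 2) :=
            mul_le_mul_of_nonneg_left ih1 h2
        _ = (1 - γ / 2) ^ (t + 1) * ∑ x, f x ^ 2 := by ring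

theorem lazy_pow_symm (K : Matrix X X ℝ) (hsymm : ∀ x y, K x y = K y x) (t : ℕ) (x y : X) :
    (lazy K ^ t) x y = (lazy K ^ t) y x := by
  have h : (lazy K).IsSymm := by
    unfold lazy
    ext a b
    simp only [Matrix.transpose_apply, Matrix.smul_apply, Matrix.add_apply, Matrix.one_apply]
    rw [hsymm b a]
    by_cases hab : a = b
    · subst hab; simp
    · have hba : ¬ b = a := fun h => hab h.symm
      simp [hab, hba]
  have h2 : (lazy K ^ t).IsSymm := h.pow t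
  have := congrFun (congrFun h2.eq x) y
  simpa [Matrix.transpose_apply] using this.symm

theorem lazy_pow_row (K : Matrix X X ℝ) (hrow : ∀ x, ∑ y, K x y = 1) (t : ℕ) (x : X) :
    ∑ y, (lazy K ^ t) x y = 1 := by
  have h1 : ∀ t : ℕ, (lazy K ^ t).mulVec (fun _ => (1 : ℝ)) = fun _ => (1 : ℝ) := by
    intro t
    induction t with
    | zero => simp
    | succ t ih =>
      rw [pow_succ, ← Matrix.mulVec_mulVec]
      have : (lazy K).mulVec (fun _ => (1 : ℝ)) = fun _ => (1 : ℝ) := by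
        funext z
        rw [lazy_mulVec]
        have : K.mulVec (fun _ => (1 : ℝ)) z = 1 := by
          unfold Matrix.mulVec
          simp only [dotProduct, mul_one]
          exact hrow z
        rw [this]; norm_num
      rw [this, ih]
  have := congrFun (h1 t) x
  unfold Matrix.mulVec at this
  simpa [dotProduct] using this

/-- the L1 distance to uniform after `t` steps of the lazy chain -/
theorem l1_bound (K : Matrix X X ℝ) (hsymm : ∀ x y, K x y = K y x)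
    (hnn : ∀ x y, 0 ≤ K x y) (hrow : ∀ x, ∑ y, K x y = 1) (γ : ℝ) (hγ : γ ≤ 2)
    (hP : ∀ f : X → ℝ, ∑ x, f x = 0 →
      γ * ∑ x, f x ^ 2 ≤ (1 / 2 : ℝ) * ∑ x, ∑ y, K x y * (f x - f y) ^ 2)
    (t : ℕ) (x : X) :
    (∑ y, |(lazy K ^ t) x y - 1 / (Fintype.card X : ℝ)|) ^ 2
      ≤ (Fintype.card X : ℝ) * (1 - γ / 2) ^ t := by
  have hN : (0 : ℝ) < Fintype.card X := by
    have : 0 < Fintype.card X := Fintype.card_pos_iff.mpr ⟨x⟩
    exact_mod_cast this
  set N : ℝ := (Fintype.card X : ℝ) with hNdef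
  set u : X → ℝ := fun z => (if z = x then 1 else 0) - 1 / N with hu
  have hu0 : ∑ z, u z = 0 := by
    simp only [hu, Finset.sum_sub_distrib, Finset.sum_ite_eq', Finset.mem_univ, if_true,
      Finset.sum_const, Finset.card_univ, nsmul_eq_mul]
    rw [← hNdef]
    field_simp
    ring
  have hu2 : ∑ z, u z ^ 2 ≤ 1 := by
    have e : ∑ z, u z ^ 2 = ∑ z, ((if z = x then (1 : ℝ) else 0) - 2 / N * (if z = x then 1 else 0)
        + 1 / N ^ 2) := by
      refine Finset.sum_congr rfl (fun z _ => ?_)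
      simp only [hu]
      by_cases hz : z = x
      · simp [hz]; ring
      · simp [hz]
    rw [e, Finset.sum_add_distrib, Finset.sum_sub_distrib, ← Finset.mul_sum]
    simp only [Finset.sum_ite_eq', Finset.mem_univ, if_true, Finset.sum_const, Finset.card_univ,
      nsmul_eq_mul]
    rw [← hNdef]
    have : N * (1 / N ^ 2) = 1 / N := by field_simp
    rw [this]
    have : 0 < 1 / N := by positivity
    have h2 : 2 / N * 1 = 2 * (1 / N) := by ring
    rw [h2]
    linarith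
  obtain ⟨-, hc⟩ := pow_contract K hsymm hnn hrow γ hγ hP u hu0 t
  have key : ∀ y, (lazy K ^ t).mulVec u y = (lazy K ^ t) x y - 1 / N := by
    intro y
    unfold Matrix.mulVec
    simp only [dotProduct, hu, mul_sub, Finset.sum_sub_distrib, mul_ite, mul_one, mul_zero,
      Finset.sum_ite_eq', Finset.mem_univ, if_true]
    rw [← Finset.sum_mul, lazy_pow_row K hrow t y, one_mul, lazy_pow_symm K hsymm t y x]
  have h1 : (∑ y, |(lazy K ^ t) x y - 1 / N|) ^ 2
      ≤ (Finset.univ : Finset X).card * ∑ y, |(lazy K ^ t) x y - 1 / N| ^ 2 :=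
    sq_sum_le_card_mul_sum_sq
  have h2 : ∑ y, |(lazy K ^ t) x y - 1 / N| ^ 2 = ∑ y, ((lazy K ^ t).mulVec u y) ^ 2 := by
    refine Finset.sum_congr rfl (fun y _ => ?_)
    rw [key y, sq_abs]
  rw [h2, Finset.card_univ] at h1
  have h3 : 0 ≤ (1 - γ / 2) ^ t := by
    have : 0 ≤ 1 - γ / 2 := by linarith
    positivity
  calc (∑ y, |(lazy K ^ t) x y - 1 / N|) ^ 2
      ≤ N * ∑ y, ((lazy K ^ t).mulVec u y) ^ 2 := h1
    _ ≤ N * ((1 - γ / 2) ^ t * ∑ z, u z ^ 2) := mul_le_mul_of_nonneg_left hc hN.le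
    _ ≤ N * ((1 - γ / 2) ^ t * 1) := by
        apply mul_le_mul_of_nonneg_left _ hN.le
        exact mul_le_mul_of_nonneg_left hu2 h3
    _ = N * (1 - γ / 2) ^ t := by ring

end Vale.Agent.H12.MixCore
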