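import Vale.Agent.H12.SwitchConn

/-!
Pair fibres of simple graphs and switches: every switch changes only pairs that meet a
fixed pair of vertices, and a function that is invariant under switches is constant on
the graphs with a given degree function.
-/

namespace Vale.Agent.H12.Switch

open Finset SimpleGraph
open scoped Classical

variable {V : Type*}

/-- pair-fibre relation: equal degrees, and equal adjacency on all pairs avoiding `u`, `v` -/
def RelV [Fintype V] (u v : V) (G H : SimpleGraph V) : Prop :=
  (∀ x, G.degree x = H.degree x) ∧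
    ∀ a b, a ≠ u → a ≠ v → b ≠ u → b ≠ v → (G.Adj a b ↔ H.Adj a b)

/-- a switch `(a, b, c, e)` only changes pairs meeting `{a, e}` -/
theorem swap_agree_off (G : SimpleGraph V) (a b c e x y : V)
    (hxa : x ≠ a) (hxe : x ≠ e) (hya : y ≠ a) (hye : y ≠ e) :
    (swap G a b c e).Adj x y ↔ G.Adj x y := by
  apply swap_adj_other
  refine ⟨?_, ?_, ?_, ?_⟩
  · intro h
    rcases Sym2.eq_iff.1 h with ⟨h1, _⟩ | ⟨_, h2⟩
    · exact hxa h1
    · exact hya h2
  · intro h
    rcases Sym2.eq_iff.1 h with ⟨_, h2⟩ | ⟨h1, _⟩
    · exact hye h2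
    · exact hxe h1
  · intro h
    rcases Sym2.eq_iff.1 h with ⟨h1, _⟩ | ⟨_, h2⟩
    · exact hxa h1
    · exact hya h2
  · intro h
    rcases Sym2.eq_iff.1 h with ⟨_, h2⟩ | ⟨h1, _⟩
    · exact hye h2
    · exact hxe h1

/-- every switch stays inside a pair fibre: there are two distinct vertices `u`, `v` such
that the two graphs agree on all pairs avoiding `u` and `v` -/
theorem switch_agree_off {G G' : SimpleGraph V} (h : IsSwitch G G') :
    ∃ u v : V, u ≠ v ∧ ∀ x y, x ≠ u → x ≠ v → y ≠ u → y ≠ v → (G.Adj x y ↔ G'.Adj x y) := by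
  obtain ⟨a, b, c, e, hac', hbe', hab, hce, hac, hbe, rfl⟩ := h
  have hae : a ≠ e := by
    rintro rfl; exact hac hce.symm
  exact ⟨a, e, hae, fun x y hxa hxe hya hye =>
    (swap_agree_off G a b c e x y hxa hxe hya hye).symm⟩

theorem relV_of_switch [Fintype V] {G G' : SimpleGraph V} (h : IsSwitch G G') :
    ∃ u v : V, u ≠ v ∧ RelV u v G G' := by
  obtain ⟨u, v, huv, hag⟩ := switch_agree_off h
  exact ⟨u, v, huv, fun x => (IsSwitch.degree h x).symm, hag⟩

/-- a function invariant under switches is constant on each degree class -/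
theorem const_of_switch_inv [Fintype V] {α : Type*} (F : SimpleGraph V → α)
    (hF : ∀ G G', IsSwitch G G' → F G = F G') (G H : SimpleGraph V)
    (h : ∀ x, G.degree x = H.degree x) : F G = F H := by
  have hr := switch_connected G H h
  clear h
  induction hr with
  | refl => rfl
  | tail _ hbc ih => rw [ih]; exact hF _ _ hbc

/-- a function that is constant on all pair fibres is constant on each degree class -/
theorem const_of_relV_inv [Fintype V] {α : Type*} (F : SimpleGraph V → α)
    (hF : ∀ u v : V, u ≠ v → ∀ G H, RelV u v G H → F G = F H) (G H : SimpleGraph V)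
    (h : ∀ x, G.degree x = H.degree x) : F G = F H := by
  apply const_of_switch_inv F _ G H h
  intro G G' hs
  obtain ⟨u, v, huv, hr⟩ := relV_of_switch hs
  exact hF u v huv G G' hr

end Vale.Agent.H12.Switch
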