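import Mathlib

namespace Vale.Agent.H12.PrimeSum

open Finset Pointwise

/-- shift operators on functions, as a monoid hom into the endomorphism ring -/
noncomputable def shiftHom (R : Type*) [CommRing R] (G : Type*) [AddCommGroup G] :
    Multiplicative G →* Module.End R (G → R) where
  toFun g := LinearMap.funLeft R R (fun x => x - Multiplicative.toAdd g)
  map_one' := by
    apply LinearMap.ext; intro u; funext x
    simp [LinearMap.funLeft_apply]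
  map_mul' g h := by
    apply LinearMap.ext; intro u; funext x
    simp [LinearMap.funLeft_apply, sub_sub]

/-- the action of the group algebra on functions -/
noncomputable def actHom (R : Type*) [CommRing R] (G : Type*) [AddCommGroup G] :
    AddMonoidAlgebra R G →ₐ[R] Module.End R (G → R) :=
  AddMonoidAlgebra.lift R (Module.End R (G → R)) G (shiftHom R G)

theorem actHom_single {R : Type*} [CommRing R] {G : Type*} [AddCommGroup G] (g : G) (u : G → R)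
    (x : G) : actHom R G (AddMonoidAlgebra.single g 1) u x = u (x - g) := by
  simp [actHom, shiftHom, LinearMap.funLeft_apply]

theorem actHom_sum_single {R : Type*} [CommRing R] {G : Type*} [AddCommGroup G] (F : Finset G)
    (φ : G → G) (u : G → R) (x : G) :
    actHom R G (∑ f ∈ F, AddMonoidAlgebra.single (φ f) 1) u x = ∑ f ∈ F, u (x - φ f) := by
  rw [map_sum, LinearMap.sum_apply, Finset.sum_apply]
  exact Finset.sum_congr rfl (fun f _ => actHom_single _ _ _)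

/-- Szegedy-type lemma: a complement of a set of prime cardinality `p` is invariant under
`p • (f - f')`. -/
theorem szegedy {G : Type*} [AddCommGroup G] (B : Set G) (F : Finset G)
    (hp : F.card.Prime) (hB : ∀ g, ∃! b, b ∈ B ∧ g - b ∈ F) :
    ∀ b ∈ B, ∀ f ∈ F, ∀ f' ∈ F, b + F.card • (f - f') ∈ B := by
  classical
  obtain ⟨p, hpdef⟩ : ∃ p, p = F.card := ⟨_, rfl⟩
  rw [← hpdef] at hp ⊢
  have : Fact p.Prime := ⟨hp⟩
  have hchar : CharP (AddMonoidAlgebra (ZMod p) G) p := charP_of_injective_algebraMap' (ZMod p) p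
  let u : G → ZMod p := fun x => if x ∈ B then 1 else 0
  let s : AddMonoidAlgebra (ZMod p) G := ∑ f ∈ F, AddMonoidAlgebra.single f 1
  have h1 : actHom (ZMod p) G s u = fun _ => 1 := by
    funext x
    rw [actHom_sum_single F (fun f => f)]
    obtain ⟨b, ⟨hbB, hbF⟩, huniq⟩ := hB x
    rw [Finset.sum_eq_single (x - b)]
    · simp [u, hbB]
    · intro f hf hne
      have hnot : x - f ∉ B := fun h => hne (by
        have := huniq (x - f) ⟨h, by simpa using hf⟩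
        rw [← this]; abel)
      simp [u, hnot]
    · intro h; exact absurd hbF h
  have h2 : actHom (ZMod p) G s (fun _ => 1) = 0 := by
    funext x
    rw [actHom_sum_single F (fun f => f)]
    simp [← hpdef]
  have h3' : ∀ k : ℕ, actHom (ZMod p) G (s ^ (k + 2)) u = 0 := by
    intro k
    rw [pow_add, map_mul, Module.End.mul_apply, pow_two, map_mul, Module.End.mul_apply, h1, h2,
      map_zero]
  have h3 : actHom (ZMod p) G (s ^ p) u = 0 := by
    have h := h3' (p - 2)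
    have h2le := hp.two_le
    rwa [show p - 2 + 2 = p from by omega] at h
  have h4 : s ^ p = ∑ f ∈ F, AddMonoidAlgebra.single (p • f) 1 := by
    rw [sum_pow_char]
    simp [AddMonoidAlgebra.single_pow]
  have h5 : ∀ x, (∑ f ∈ F, u (x - p • f)) = 0 := by
    intro x
    have h := congrFun h3 x
    rw [h4, actHom_sum_single F (fun f => p • f)] at h
    exact h
  have h6 : ∀ x, p ∣ (F.filter (fun f => x - p • f ∈ B)).card := by
    intro x
    have h := h5 x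
    rw [← ZMod.natCast_eq_zero_iff, ← h]
    simp [u]
  intro b hb f hf f' hf'
  have h7 := h6 (b + p • f)
  have hpos : 0 < (F.filter (fun g => b + p • f - p • g ∈ B)).card :=
    Finset.card_pos.mpr ⟨f, by simp [hf, hb]⟩
  have hle : (F.filter (fun g => b + p • f - p • g ∈ B)).card ≤ p := by
    rw [hpdef]; exact Finset.card_filter_le _ _
  have heq : (F.filter (fun g => b + p • f - p • g ∈ B)).card = F.card := by
    rw [← hpdef]; exact le_antisymm hle (Nat.le_of_dvd hpos h7)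
  have hall := (Finset.card_filter_eq_iff.mp heq) f' hf'
  have he : b + p • (f - f') = b + p • f - p • f' := by rw [smul_sub]; abel
  rw [he]; exact hall


variable {G : Type*} [AddCommGroup G]

/-- `A ⊕ F = B` -/
structure Compl (A F B : Set G) : Prop where
  cov : ∀ g, g ∈ B ↔ ∃ a ∈ A, g - a ∈ F
  uniq : ∀ a ∈ A, ∀ a' ∈ A, ∀ g, g - a ∈ F → g - a' ∈ F → a = a'

/-- `A ⊕ F₁ ⊕ F₂ = G` -/
structure Tile2 (A F₁ F₂ : Set G) : Prop where
  ex : ∀ g, ∃ a ∈ A, ∃ f₁ ∈ F₁, ∃ f₂ ∈ F₂, g = a + f₁ + f₂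
  uniq : ∀ a ∈ A, ∀ f₁ ∈ F₁, ∀ f₂ ∈ F₂, ∀ a' ∈ A, ∀ f₁' ∈ F₁, ∀ f₂' ∈ F₂,
    a + f₁ + f₂ = a' + f₁' + f₂' → a = a' ∧ f₁ = f₁' ∧ f₂ = f₂'

/-- invariance of a set under a subgroup -/
def Inv (K : AddSubgroup G) (A : Set G) : Prop := ∀ k ∈ K, ∀ a ∈ A, a + k ∈ A

theorem Inv.mono {K K' : AddSubgroup G} {A : Set G} (h : Inv K A) (hle : K' ≤ K) : Inv K' A :=
  fun k hk a ha => h k (hle hk) a ha

theorem Inv.sup {K K' : AddSubgroup G} {A : Set G} (h : Inv K A) (h' : Inv K' A) :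
    Inv (K ⊔ K') A := by
  intro k hk a ha
  obtain ⟨x, hx, y, hy, rfl⟩ := AddSubgroup.mem_sup.mp hk
  rw [← add_assoc]
  exact h' y hy _ (h x hx a ha)

theorem Inv.add_right {K : AddSubgroup G} {A : Set G} (h : Inv K A) (F : Set G) :
    Inv K (A + F) := by
  intro k hk b hb
  obtain ⟨a, ha, f, hf, rfl⟩ := Set.mem_add.mp hb
  exact Set.mem_add.mpr ⟨a + k, h k hk a ha, f, hf, by abel⟩

theorem Tile2.swap {A F₁ F₂ : Set G} (h : Tile2 A F₁ F₂) : Tile2 A F₂ F₁ where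
  ex g := by
    obtain ⟨a, ha, f₁, hf₁, f₂, hf₂, rfl⟩ := h.ex g
    exact ⟨a, ha, f₂, hf₂, f₁, hf₁, by abel⟩
  uniq a ha f₂ hf₂ f₁ hf₁ a' ha' f₂' hf₂' f₁' hf₁' heq := by
    have := h.uniq a ha f₁ hf₁ f₂ hf₂ a' ha' f₁' hf₁' f₂' hf₂'
      (by rw [add_right_comm, heq, add_right_comm])
    exact ⟨this.1, this.2.2, this.2.1⟩

theorem Tile2.compl_left {A F₁ F₂ : Set G} (h : Tile2 A F₁ F₂) (hne : F₁.Nonempty) :
    Compl A F₂ (A + F₂) where
  cov g := by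
    constructor
    · intro hg
      obtain ⟨a, ha, f, hf, rfl⟩ := Set.mem_add.mp hg
      exact ⟨a, ha, by simpa using hf⟩
    · rintro ⟨a, ha, hf⟩
      exact Set.mem_add.mpr ⟨a, ha, g - a, hf, by abel⟩
  uniq a ha a' ha' g hf hf' := by
    obtain ⟨e, he⟩ := hne
    exact (h.uniq a ha e he (g - a) hf a' ha' e he (g - a') hf' (by abel)).1

theorem Tile2.compl_right {A F₁ F₂ : Set G} (h : Tile2 A F₁ F₂) :
    Compl (A + F₂) F₁ Set.univ where
  cov g := by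
    simp only [Set.mem_univ, true_iff]
    obtain ⟨a, ha, f₁, hf₁, f₂, hf₂, rfl⟩ := h.ex g
    refine ⟨a + f₂, Set.mem_add.mpr ⟨a, ha, f₂, hf₂, rfl⟩, ?_⟩
    have : a + f₁ + f₂ - (a + f₂) = f₁ := by abel
    rw [this]; exact hf₁
  uniq b hb b' hb' g hf hf' := by
    obtain ⟨a, ha, f₂, hf₂, rfl⟩ := Set.mem_add.mp hb
    obtain ⟨a', ha', f₂', hf₂', rfl⟩ := Set.mem_add.mp hb'
    have := h.uniq a ha _ hf f₂ hf₂ a' ha' _ hf' f₂' hf₂' (by abel)
    rw [this.1, this.2.2]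

theorem Tile2.compl_total {A F₁ F₂ : Set G} (h : Tile2 A F₁ F₂) :
    Compl A (F₁ + F₂) Set.univ where
  cov g := by
    simp only [Set.mem_univ, true_iff]
    obtain ⟨a, ha, f₁, hf₁, f₂, hf₂, rfl⟩ := h.ex g
    exact ⟨a, ha, Set.mem_add.mpr ⟨f₁, hf₁, f₂, hf₂, by abel⟩⟩
  uniq a ha a' ha' g hf hf' := by
    obtain ⟨f₁, hf₁, f₂, hf₂, h1⟩ := Set.mem_add.mp hf
    obtain ⟨f₁', hf₁', f₂', hf₂', h2⟩ := Set.mem_add.mp hf'
    refine (h.uniq a ha f₁ hf₁ f₂ hf₂ a' ha' f₁' hf₁' f₂' hf₂' ?_).1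
    have e1 : a + f₁ + f₂ = g := by rw [add_assoc, h1]; abel
    have e2 : a' + f₁' + f₂' = g := by rw [add_assoc, h2]; abel
    rw [e1, e2]

theorem Tile2.of_compl {A B F₁ F₂ : Set G} (h₂ : Compl A F₂ B) (h₁ : Compl B F₁ Set.univ) :
    Tile2 A F₁ F₂ where
  ex g := by
    obtain ⟨b, hb, hf₁⟩ := (h₁.cov g).mp trivial
    obtain ⟨a, ha, hf₂⟩ := (h₂.cov b).mp hb
    exact ⟨a, ha, g - b, hf₁, b - a, hf₂, by abel⟩
  uniq a ha f₁ hf₁ f₂ hf₂ a' ha' f₁' hf₁' f₂' hf₂' heq := by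
    have hb : a + f₂ ∈ B := (h₂.cov _).mpr ⟨a, ha, by simpa using hf₂⟩
    have hb' : a' + f₂' ∈ B := (h₂.cov _).mpr ⟨a', ha', by simpa using hf₂'⟩
    have hbb : a + f₂ = a' + f₂' := by
      refine h₁.uniq _ hb _ hb' (a + f₁ + f₂) ?_ ?_
      · have : a + f₁ + f₂ - (a + f₂) = f₁ := by abel
        rw [this]; exact hf₁
      · have : a + f₁ + f₂ - (a' + f₂') = f₁' := by rw [heq]; abel
        rw [this]; exact hf₁'
    have haa : a = a' := by
      refine h₂.uniq a ha a' ha' (a + f₂) (by simpa using hf₂) ?_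
      rw [hbb]; simpa using hf₂'
    subst haa
    have hf : f₂ = f₂' := add_left_cancel hbb
    subst hf
    exact ⟨rfl, by simpa using heq, rfl⟩

/-- Equivariant re-gluing: if `A ⊕ F = B`, `F - F ⊆ H`, `B` is `K`-invariant and `A` is
`K ⊓ H`-invariant, then there is a `K`-invariant `A'` with `A' ⊕ F = B`. -/
theorem reglue (H K : AddSubgroup G) {F A B : Set G} (hc : Compl A F B)
    (hFH : ∀ f ∈ F, ∀ f' ∈ F, f - f' ∈ H) (hBK : Inv K B) (hAK : Inv (K ⊓ H) A) :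
    ∃ A' : Set G, Compl A' F B ∧ Inv K A' := by
  classical
  let σ : G → G := fun x => (QuotientAddGroup.mk x : G ⧸ (H ⊔ K)).out
  have hσ1 : ∀ x, x - σ x ∈ H ⊔ K := by
    intro x
    have h : (QuotientAddGroup.mk (σ x) : G ⧸ (H ⊔ K)) = QuotientAddGroup.mk x :=
      Quotient.out_eq _
    rw [QuotientAddGroup.eq] at h
    have e : x - σ x = -σ x + x := by abel
    rw [e]; exact h
  have hσ2 : ∀ x y, x - y ∈ H ⊔ K → σ x = σ y := by
    intro x y hxy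
    have h : (QuotientAddGroup.mk x : G ⧸ (H ⊔ K)) = QuotientAddGroup.mk y := by
      rw [QuotientAddGroup.eq]
      have h' := neg_mem hxy
      have e : -x + y = -(x - y) := by abel
      rw [e]; exact h'
    simp only [σ, h]
  refine ⟨{x | ∃ k ∈ K, x - k ∈ A ∧ x - k - σ x ∈ H}, ⟨?_, ?_⟩, ?_⟩
  · intro g
    constructor
    · intro hg
      obtain ⟨a₀, ha₀, hf₀⟩ := (hc.cov g).mp hg
      obtain ⟨h, hh, k, hk, hhk⟩ := AddSubgroup.mem_sup.mp (hσ1 a₀)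
      have hgk : g + -k ∈ B := hBK (-k) (neg_mem hk) g hg
      obtain ⟨a, ha, hf⟩ := (hc.cov _).mp hgk
      have haH : a - σ a₀ ∈ H := by
        have e : a - σ a₀ = h + ((g - a₀) - (g + -k - a)) := by
          have e' : σ a₀ = a₀ - (h + k) := by rw [hhk]; abel
          rw [e']; abel
        rw [e]; exact add_mem hh (hFH _ hf₀ _ hf)
      have hσ : σ (a + k) = σ a₀ := by
        apply hσ2
        have e : a + k - a₀ = (g - a₀) - (g + -k - a) := by abel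
        rw [e]; exact AddSubgroup.mem_sup_left (hFH _ hf₀ _ hf)
      refine ⟨a + k, ⟨k, hk, by simpa using ha, ?_⟩, ?_⟩
      · rw [hσ]; simpa using haH
      · have e : g - (a + k) = g + -k - a := by abel
        rw [e]; exact hf
    · rintro ⟨x, ⟨k, hk, hxA, -⟩, hf⟩
      have h1 : x - k + (g - x) ∈ B := (hc.cov _).mpr ⟨x - k, hxA, by simpa using hf⟩
      have h2 := hBK k hk _ h1
      have e : x - k + (g - x) + k = g := by abel
      rw [e] at h2; exact h2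
  · rintro x ⟨k, hk, hxA, hxH⟩ x' ⟨k', hk', hxA', hxH'⟩ g hf hf'
    have hxx : x - x' ∈ H := by
      have e : x - x' = (g - x') - (g - x) := by abel
      rw [e]; exact hFH _ hf' _ hf
    have hσ : σ x = σ x' := hσ2 _ _ (AddSubgroup.mem_sup_left hxx)
    have hkk : k - k' ∈ H := by
      have e : k - k' = (x - x') - ((x - k - σ x) - (x' - k' - σ x')) := by rw [hσ]; abel
      rw [e]; exact sub_mem hxx (sub_mem hxH hxH')
    have ha'' : (x - k) + (k - k') ∈ A := hAK _ (AddSubgroup.mem_inf.mpr ⟨K.sub_mem hk hk', hkk⟩) _ hxA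
    have h3 := hc.uniq _ ha'' _ hxA' (g - k')
      (by have e : g - k' - (x - k + (k - k')) = g - x := by abel
          rw [e]; exact hf)
      (by have e : g - k' - (x' - k') = g - x' := by abel
          rw [e]; exact hf')
    have h4 : x - k' = x' - k' := by rw [← h3]; abel
    exact sub_left_injective h4
  · rintro k' hk' x ⟨k, hk, hxA, hxH⟩
    refine ⟨k + k', add_mem hk hk', ?_, ?_⟩
    · have e : x + k' - (k + k') = x - k := by abel
      rw [e]; exact hxA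
    · have hσ : σ (x + k') = σ x := hσ2 _ _ (by simpa using AddSubgroup.mem_sup_right hk')
      have e : x + k' - (k + k') - σ (x + k') = x - k - σ x := by rw [hσ]; abel
      rw [e]; exact hxH


/-- the subgroup generated by all `m • (f - f')`, `f, f' ∈ F` -/
def Psub (m : ℕ) (F : Set G) : AddSubgroup G :=
  AddSubgroup.closure {x | ∃ f ∈ F, ∃ f' ∈ F, x = m • (f - f')}

theorem smul_mem_Psub (m : ℕ) (F : Set G) {x : G} (hx : x ∈ Psub 1 F) : m • x ∈ Psub m F := by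
  induction hx using AddSubgroup.closure_induction with
  | mem y hy =>
    obtain ⟨f, hf, f', hf', rfl⟩ := hy
    exact AddSubgroup.subset_closure ⟨f, hf, f', hf', by simp⟩
  | zero => rw [smul_zero]; exact zero_mem _
  | add y z _ _ hy hz => rw [smul_add]; exact add_mem hy hz
  | neg y _ hy => rw [smul_neg]; exact neg_mem hy

theorem mul_smul_mem_Psub (c m : ℕ) (F : Set G) {x : G} (hx : x ∈ Psub 1 F) :
    (c * m) • x ∈ Psub m F := by
  rw [mul_smul]; exact AddSubgroup.nsmul_mem _ (smul_mem_Psub m F hx) c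

theorem sub_mem_Psub_one {F : Set G} {f f' : G} (hf : f ∈ F) (hf' : f' ∈ F) :
    f - f' ∈ Psub 1 F :=
  AddSubgroup.subset_closure ⟨f, hf, f', hf', by simp⟩

theorem szegedy_inv (B : Set G) (F : Finset G) (hp : F.card.Prime)
    (hB : Compl B (↑F) Set.univ) : Inv (Psub F.card (↑F : Set G)) B := by
  have hB' : ∀ g, ∃! b, b ∈ B ∧ g - b ∈ F := by
    intro g
    obtain ⟨b, hb, hf⟩ := (hB.cov g).mp trivial
    exact ⟨b, ⟨hb, hf⟩, fun b' hb' => hB.uniq b' hb'.1 b hb g hb'.2 hf⟩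
  have key := szegedy B F hp hB'
  have hiff : ∀ k ∈ Psub F.card (↑F : Set G), ∀ a, a ∈ B ↔ a + k ∈ B := by
    intro k hk
    induction hk using AddSubgroup.closure_induction with
    | mem y hy =>
      obtain ⟨f, hf, f', hf', rfl⟩ := hy
      intro a
      refine ⟨fun ha => key a ha f hf f' hf', fun ha => ?_⟩
      have h := key _ ha f' hf' f hf
      have e : a + F.card • (f - f') + F.card • (f' - f) = a := by
        rw [add_assoc, ← smul_add]; simp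
      rw [e] at h; exact h
    | zero => intro a; simp
    | add y z _ _ hy hz => intro a; rw [hy a, hz (a + y), add_assoc]
    | neg y _ hy => intro a; rw [hy (a + -y)]; simp
  exact fun k hk a ha => (hiff k hk a).mp ha

theorem inv_inter {A F₁ F₂ : Set G} (hT : Tile2 A F₁ F₂) (hne₁ : F₁.Nonempty)
    (hne₂ : F₂.Nonempty) {K₁ K₂ : AddSubgroup G} (h₁ : Inv K₁ (A + F₂))
    (h₂ : Inv K₂ (A + F₁)) : Inv (K₁ ⊓ K₂) A := by
  intro k hk a ha
  obtain ⟨hk₁, hk₂⟩ := AddSubgroup.mem_inf.mp hk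
  obtain ⟨e₁, he₁⟩ := hne₁
  obtain ⟨e₂, he₂⟩ := hne₂
  obtain ⟨a₁, ha₁, φ₂, hφ₂, h1⟩ :=
    Set.mem_add.mp (h₁ k hk₁ (a + e₂) (Set.mem_add.mpr ⟨a, ha, e₂, he₂, rfl⟩))
  obtain ⟨a₂, ha₂, φ₁, hφ₁, h2⟩ :=
    Set.mem_add.mp (h₂ k hk₂ (a + e₁) (Set.mem_add.mpr ⟨a, ha, e₁, he₁, rfl⟩))
  have h3 := hT.uniq a₁ ha₁ e₁ he₁ φ₂ hφ₂ a₂ ha₂ φ₁ hφ₁ e₂ he₂ (by
    calc a₁ + e₁ + φ₂ = (a₁ + φ₂) + e₁ := by abel
      _ = (a₂ + φ₁) + e₂ := by rw [h1, h2]; abel)
  have h4 : a + k = a₁ := by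
    rw [h3.2.2] at h1
    have e : a₁ + e₂ = (a + k) + e₂ := by rw [h1]; abel
    exact (add_right_cancel e).symm
  rw [h4]; exact ha₁

/-- the saturation of a subgroup -/
def sat (L : AddSubgroup G) : AddSubgroup G where
  carrier := {g | ∃ n : ℕ, 0 < n ∧ n • g ∈ L}
  add_mem' := by
    rintro a b ⟨n, hn, hna⟩ ⟨m, hm, hmb⟩
    refine ⟨n * m, Nat.mul_pos hn hm, ?_⟩
    have e : (n * m) • (a + b) = m • (n • a) + n • (m • b) := by
      rw [smul_add, mul_smul, mul_smul, smul_comm n m a]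
    rw [e]
    exact add_mem (L.nsmul_mem hna m) (L.nsmul_mem hmb n)
  zero_mem' := ⟨1, one_pos, by simp⟩
  neg_mem' := by
    rintro a ⟨n, hn, hna⟩
    exact ⟨n, hn, by rw [smul_neg]; exact neg_mem hna⟩

theorem mem_sat {L : AddSubgroup G} {g : G} : g ∈ sat L ↔ ∃ n : ℕ, 0 < n ∧ n • g ∈ L := Iff.rfl

theorem le_sat (L : AddSubgroup G) : L ≤ sat L := fun g hg => ⟨1, one_pos, by simpa using hg⟩

/-- the subgroup `N • G` -/
def mulSub (N : ℕ) : AddSubgroup G := (nsmulAddMonoidHom (α := G) N).range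

theorem mem_mulSub {N : ℕ} {x : G} : x ∈ mulSub (G := G) N ↔ ∃ w, N • w = x := by
  simp [mulSub, AddMonoidHom.mem_range]

theorem exists_exponent [IsNoetherian ℤ G] (L : AddSubgroup G) :
    ∃ N : ℕ, 0 < N ∧ ∀ h ∈ sat L, N • h ∈ L := by
  classical
  obtain ⟨T, hT⟩ := (IsNoetherian.noetherian (AddSubgroup.toIntSubmodule (sat L)) :
    (AddSubgroup.toIntSubmodule (sat L)).FG)
  have hTS : ∀ t ∈ T, ∃ n : ℕ, 0 < n ∧ n • t ∈ L := by
    intro t ht
    have h : t ∈ Submodule.span ℤ (T : Set G) := Submodule.subset_span ht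
    rw [hT] at h
    exact h
  choose! ν hν using hTS
  refine ⟨∏ t ∈ T, ν t, Finset.prod_pos (fun t ht => (hν t ht).1), ?_⟩
  intro h hh
  have hS : h ∈ Submodule.span ℤ (T : Set G) := by rw [hT]; exact hh
  clear hh
  induction hS using Submodule.span_induction with
  | mem x hx =>
    rw [← Finset.mul_prod_erase T ν hx, mul_comm, mul_smul]
    exact L.nsmul_mem (hν x hx).2 _
  | zero => rw [smul_zero]; exact zero_mem _
  | add x y _ _ hx hy => rw [smul_add]; exact add_mem hx hy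
  | smul c x _ hx => rw [smul_comm]; exact L.zsmul_mem hx c

theorem mulSub_inf_sat {L : AddSubgroup G} {n : ℕ} (hn : ∀ h ∈ sat L, n • h ∈ L) {N : ℕ}
    (hN : 0 < N * n) {x : G} (hx : x ∈ mulSub (N * n)) (hxs : x ∈ sat L) :
    ∃ l ∈ L, x = N • l := by
  obtain ⟨w, rfl⟩ := mem_mulSub.mp hx
  obtain ⟨m, hm, hmx⟩ := hxs
  have hw : w ∈ sat L := ⟨m * (N * n), Nat.mul_pos hm hN, by rw [mul_smul]; exact hmx⟩
  exact ⟨n • w, hn w hw, by rw [mul_smul]⟩

/-- Main abstract theorem: if both `F₁` and `F₂` are rigid (every complement of `F_i` is invariant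
under `m_i • ⟨F_i - F_i⟩`) and `A ⊕ F₁ ⊕ F₂ = G`, then `F₁ ⊕ F₂` has a tiling invariant under
`N • G`. -/
theorem rigid_pair_periodic [IsNoetherian ℤ G] {F₁ F₂ : Set G} (hne₁ : F₁.Nonempty)
    (hne₂ : F₂.Nonempty) {m₁ m₂ : ℕ} (hm₁ : 0 < m₁) (hm₂ : 0 < m₂)
    (hr₁ : ∀ B : Set G, Compl B F₁ Set.univ → Inv (Psub m₁ F₁) B)
    (hr₂ : ∀ B : Set G, Compl B F₂ Set.univ → Inv (Psub m₂ F₂) B)
    {A : Set G} (hT : Tile2 A F₁ F₂) :
    ∃ (A' : Set G) (N : ℕ), 0 < N ∧ Compl A' (F₁ + F₂) Set.univ ∧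
      ∀ a ∈ A', ∀ v : G, a + N • v ∈ A' := by
  obtain ⟨n₁, hn₁, hs₁⟩ := exists_exponent (Psub 1 F₁)
  obtain ⟨n₂, hn₂, hs₂⟩ := exists_exponent (Psub 1 F₂)
  obtain ⟨n₃, hn₃, hs₃⟩ := exists_exponent (Psub 1 F₁ ⊔ Psub 1 F₂)
  have hB₁ : Inv (Psub m₁ F₁) (A + F₂) := hr₁ _ hT.compl_right
  have hB₂ : Inv (Psub m₂ F₂) (A + F₁) := hr₂ _ hT.swap.compl_right
  have hA : Inv (Psub m₁ F₁ ⊓ Psub m₂ F₂) A := inv_inter hT hne₁ hne₂ hB₁ hB₂
  -- step 1
  obtain ⟨K, hKdef⟩ : ∃ K : AddSubgroup G, K = Psub m₁ F₁ ⊓ mulSub (m₂ * n₂) := ⟨_, rfl⟩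
  have hKH : K ⊓ sat (Psub 1 F₂) ≤ Psub m₁ F₁ ⊓ Psub m₂ F₂ := by
    intro x hx
    rw [hKdef] at hx
    obtain ⟨hx12, hx3⟩ := AddSubgroup.mem_inf.mp hx
    obtain ⟨hx1, hx2⟩ := AddSubgroup.mem_inf.mp hx12
    obtain ⟨l, hl, rfl⟩ := mulSub_inf_sat hs₂ (Nat.mul_pos hm₂ hn₂) hx2 hx3
    exact AddSubgroup.mem_inf.mpr ⟨hx1, smul_mem_Psub m₂ F₂ hl⟩
  obtain ⟨A₁, hc₁, hinv₁⟩ := reglue (sat (Psub 1 F₂)) K (hT.compl_left hne₁)
    (fun f hf f' hf' => le_sat _ (sub_mem_Psub_one hf hf'))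
    (hB₁.mono (by rw [hKdef]; exact inf_le_left)) (hA.mono hKH)
  have hT₁ : Tile2 A₁ F₁ F₂ := Tile2.of_compl hc₁ hT.compl_right
  -- step 2
  have hB₂' : Inv (K ⊔ Psub m₂ F₂) (A₁ + F₁) :=
    (hinv₁.add_right F₁).sup (hr₂ _ hT₁.swap.compl_right)
  obtain ⟨K', hK'def⟩ : ∃ K' : AddSubgroup G,
    K' = (K ⊔ Psub m₂ F₂) ⊓ mulSub (m₂ * n₂ * m₁ * n₁) := ⟨_, rfl⟩
  have hK'H : K' ⊓ sat (Psub 1 F₁) ≤ K := by
    intro x hx
    rw [hK'def] at hx
    obtain ⟨hx12, hx3⟩ := AddSubgroup.mem_inf.mp hx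
    obtain ⟨-, hx2⟩ := AddSubgroup.mem_inf.mp hx12
    obtain ⟨l, hl, rfl⟩ := mulSub_inf_sat hs₁
      (Nat.mul_pos (Nat.mul_pos (Nat.mul_pos hm₂ hn₂) hm₁) hn₁) hx2 hx3
    rw [hKdef]
    refine AddSubgroup.mem_inf.mpr ⟨mul_smul_mem_Psub _ m₁ F₁ hl, ?_⟩
    exact mem_mulSub.mpr ⟨m₁ • l, (mul_smul (m₂ * n₂) m₁ l).symm⟩
  obtain ⟨A₂, hc₂, hinv₂⟩ := reglue (sat (Psub 1 F₁)) K' (hT₁.swap.compl_left hne₂)
    (fun f hf f' hf' => le_sat _ (sub_mem_Psub_one hf hf'))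
    (hB₂'.mono (by rw [hK'def]; exact inf_le_left)) (hinv₁.mono hK'H)
  have hT₂ : Tile2 A₂ F₂ F₁ := Tile2.of_compl hc₂ hT₁.swap.compl_right
  -- step 3
  obtain ⟨M, hMdef⟩ : ∃ M : ℕ, M = (m₂ * n₂ * m₁ * n₁) * (m₂ * n₂) * m₁ * m₂ := ⟨_, rfl⟩
  have hMpos : 0 < M := by
    rw [hMdef]; positivity
  have h3 : mulSub (M * n₃) ⊓ sat (Psub 1 F₁ ⊔ Psub 1 F₂) ≤ K' := by
    intro x hx
    obtain ⟨hx2, hx3⟩ := AddSubgroup.mem_inf.mp hx
    obtain ⟨l, hl, rfl⟩ := mulSub_inf_sat hs₃ (Nat.mul_pos hMpos hn₃) hx2 hx3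
    obtain ⟨l₁, hl₁, l₂, hl₂, rfl⟩ := AddSubgroup.mem_sup.mp hl
    rw [hK'def]
    refine AddSubgroup.mem_inf.mpr ⟨?_, ?_⟩
    · rw [smul_add]
      refine AddSubgroup.mem_sup.mpr ⟨M • l₁, ?_, M • l₂, ?_, rfl⟩
      · rw [hKdef]
        refine AddSubgroup.mem_inf.mpr ⟨?_, ?_⟩
        · have e : M = ((m₂ * n₂ * m₁ * n₁) * (m₂ * n₂) * m₂) * m₁ := by rw [hMdef]; ring
          rw [e]; exact mul_smul_mem_Psub _ m₁ F₁ hl₁
        · have e : M = (m₂ * n₂) * ((m₂ * n₂ * m₁ * n₁) * m₁ * m₂) := by rw [hMdef]; ring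
          rw [e, mul_smul]; exact mem_mulSub.mpr ⟨_, rfl⟩
      · rw [hMdef]; exact mul_smul_mem_Psub _ m₂ F₂ hl₂
    · have e : M = (m₂ * n₂ * m₁ * n₁) * ((m₂ * n₂) * m₁ * m₂) := by rw [hMdef]; ring
      rw [e, mul_smul]; exact mem_mulSub.mpr ⟨_, rfl⟩
  obtain ⟨A₃, hc₃, hinv₃⟩ := reglue (sat (Psub 1 F₁ ⊔ Psub 1 F₂)) (mulSub (M * n₃))
    hT₂.swap.compl_total
    (fun f hf f' hf' => by
      obtain ⟨a, ha, b, hb, rfl⟩ := Set.mem_add.mp hf
      obtain ⟨a', ha', b', hb', rfl⟩ := Set.mem_add.mp hf'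
      apply le_sat
      have e : a + b - (a' + b') = (a - a') + (b - b') := by abel
      rw [e]
      exact AddSubgroup.mem_sup.mpr ⟨_, sub_mem_Psub_one ha ha', _, sub_mem_Psub_one hb hb', rfl⟩)
    (fun _ _ _ _ => trivial) (hinv₂.mono h3)
  exact ⟨A₃, M * n₃, Nat.mul_pos hMpos hn₃, hc₃, fun a ha v =>
    hinv₃ _ (mem_mulSub.mpr ⟨v, rfl⟩) a ha⟩

/-- **Periodic tilings for direct sums of two sets of prime cardinality.** -/
theorem prime_pair_periodic [IsNoetherian ℤ G] [DecidableEq G] (F₁ F₂ : Finset G) (h₁ : F₁.card.Prime)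
    (h₂ : F₂.card.Prime) (hdir : (F₁ + F₂).card = F₁.card * F₂.card) (A : Set G)
    (hA : ∀ g, ∃! a, a ∈ A ∧ g - a ∈ F₁ + F₂) :
    ∃ (A' : Set G) (N : ℕ), 0 < N ∧ (∀ g, ∃! a, a ∈ A' ∧ g - a ∈ F₁ + F₂) ∧
      ∀ a ∈ A', ∀ v : G, a + N • v ∈ A' := by
  have hinj := Finset.card_add_iff.mp hdir
  have hT : Tile2 A (↑F₁ : Set G) (↑F₂ : Set G) := by
    refine ⟨?_, ?_⟩
    · intro g
      obtain ⟨a, ⟨ha, hf⟩, -⟩ := hA g
      obtain ⟨f₁, hf₁, f₂, hf₂, h⟩ := Finset.mem_add.mp hf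
      exact ⟨a, ha, f₁, hf₁, f₂, hf₂, by rw [add_assoc, h]; abel⟩
    · intro a ha f₁ hf₁ f₂ hf₂ a' ha' f₁' hf₁' f₂' hf₂' heq
      have h1 : a + f₁ + f₂ - a ∈ F₁ + F₂ :=
        Finset.mem_add.mpr ⟨f₁, hf₁, f₂, hf₂, by abel⟩
      have h2 : a + f₁ + f₂ - a' ∈ F₁ + F₂ :=
        Finset.mem_add.mpr ⟨f₁', hf₁', f₂', hf₂', by rw [heq]; abel⟩
      have haa : a = a' := (hA (a + f₁ + f₂)).unique ⟨ha, h1⟩ ⟨ha', h2⟩
      subst haa
      have hff : f₁ + f₂ = f₁' + f₂' := by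
        have e : a + f₁ + f₂ = a + (f₁ + f₂) := by abel
        have e' : a + f₁' + f₂' = a + (f₁' + f₂') := by abel
        rw [e, e'] at heq
        exact add_left_cancel heq
      have m1 : ((f₁, f₂) : G × G) ∈ (↑F₁ : Set G) ×ˢ (↑F₂ : Set G) :=
        Set.mem_prod.mpr ⟨Finset.mem_coe.mpr hf₁, Finset.mem_coe.mpr hf₂⟩
      have m2 : ((f₁', f₂') : G × G) ∈ (↑F₁ : Set G) ×ˢ (↑F₂ : Set G) :=
        Set.mem_prod.mpr ⟨Finset.mem_coe.mpr hf₁', Finset.mem_coe.mpr hf₂'⟩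
      have h3 := hinj m1 m2 hff
      exact ⟨rfl, congrArg Prod.fst h3, congrArg Prod.snd h3⟩
  obtain ⟨A', N, hN, hc, hinv⟩ := rigid_pair_periodic (F₁ := (↑F₁ : Set G)) (F₂ := (↑F₂ : Set G))
    (Finset.card_pos.mp h₁.pos) (Finset.card_pos.mp h₂.pos) h₁.pos h₂.pos
    (fun B hB => szegedy_inv B F₁ h₁ hB) (fun B hB => szegedy_inv B F₂ h₂ hB) hT
  refine ⟨A', N, hN, ?_, hinv⟩
  intro g
  have hmem : ∀ x : G, x ∈ (↑F₁ : Set G) + (↑F₂ : Set G) ↔ x ∈ F₁ + F₂ := by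
    intro x
    rw [← Finset.coe_add, Finset.mem_coe]
  obtain ⟨a, ha, hf⟩ := (hc.cov g).mp trivial
  refine ⟨a, ⟨ha, (hmem _).mp hf⟩, ?_⟩
  rintro a' ⟨ha', hf'⟩
  exact hc.uniq a' ha' a ha g ((hmem _).mpr hf') hf

/-- **Invariance for direct sums of sets of prime cardinality** (any number of factors): if
`A ⊕ F 0 ⊕ ⋯ ⊕ F (k-1) = G` and every `F i` has prime cardinality `p i`, then `A` is invariant
under the intersection of the subgroups generated by `p i • (F i - F i)`. -/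
theorem prime_family_inv : ∀ (k : ℕ) (F : Fin k → Finset G) (A : Set G),
    (∀ i, (F i).card.Prime) →
    (∀ g, ∃! q : G × (Fin k → G), q.1 ∈ A ∧ (∀ i, q.2 i ∈ F i) ∧ q.1 + ∑ i, q.2 i = g) →
    Inv (⨅ i, Psub (F i).card (↑(F i) : Set G)) A
  | 0, F, A, _, hA => by
    intro v _ a _
    obtain ⟨q, ⟨hq, -, hsum⟩, -⟩ := hA (a + v)
    simp only [Finset.univ_eq_empty, Finset.sum_empty, add_zero] at hsum
    rw [← hsum]; exact hq
  | k + 1, F, A, hp, hA => by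
    have hT : Tile2 A (↑(F 0) : Set G)
        {s | ∃ φ : Fin k → G, (∀ i, φ i ∈ F i.succ) ∧ s = ∑ i, φ i} := by
      refine ⟨?_, ?_⟩
      · intro g
        obtain ⟨q, ⟨hqA, hqF, hsum⟩, -⟩ := hA g
        refine ⟨q.1, hqA, q.2 0, hqF 0, ∑ i : Fin k, q.2 i.succ,
          ⟨fun i => q.2 i.succ, fun i => hqF i.succ, rfl⟩, ?_⟩
        rw [← hsum, Fin.sum_univ_succ]; abel
      · rintro a ha f₁ hf₁ s ⟨φ, hφ, rfl⟩ a' ha' f₁' hf₁' s' ⟨φ', hφ', rfl⟩ heq
        have h1 : ((a, Fin.cons f₁ φ) : G × (Fin (k + 1) → G)).1 ∈ A ∧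
            (∀ i, ((a, Fin.cons f₁ φ) : G × (Fin (k + 1) → G)).2 i ∈ F i) ∧
            ((a, Fin.cons f₁ φ) : G × (Fin (k + 1) → G)).1 +
              ∑ i, ((a, Fin.cons f₁ φ) : G × (Fin (k + 1) → G)).2 i = a + f₁ + ∑ i, φ i := by
          refine ⟨ha, ?_, ?_⟩
          · intro i
            refine Fin.cases ?_ (fun j => ?_) i
            · simpa using hf₁
            · simpa using hφ j
          · simp [Fin.sum_univ_succ, add_assoc]
        have h2 : ((a', Fin.cons f₁' φ') : G × (Fin (k + 1) → G)).1 ∈ A ∧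
            (∀ i, ((a', Fin.cons f₁' φ') : G × (Fin (k + 1) → G)).2 i ∈ F i) ∧
            ((a', Fin.cons f₁' φ') : G × (Fin (k + 1) → G)).1 +
              ∑ i, ((a', Fin.cons f₁' φ') : G × (Fin (k + 1) → G)).2 i = a + f₁ + ∑ i, φ i := by
          refine ⟨ha', ?_, ?_⟩
          · intro i
            refine Fin.cases ?_ (fun j => ?_) i
            · simpa using hf₁'
            · simpa using hφ' j
          · rw [heq]; simp [Fin.sum_univ_succ, add_assoc]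
        have h3 := (hA (a + f₁ + ∑ i, φ i)).unique h1 h2
        have h4 : a = a' := congrArg Prod.fst h3
        have h5 : (Fin.cons f₁ φ : Fin (k + 1) → G) = Fin.cons f₁' φ' := congrArg Prod.snd h3
        have h6 : f₁ = f₁' := by simpa using congrFun h5 0
        have h7 : φ = φ' := by
          funext j
          simpa using congrFun h5 j.succ
        exact ⟨h4, h6, by rw [h7]⟩
    have hB : ∀ g, ∃! q : G × (Fin k → G), q.1 ∈ A + (↑(F 0) : Set G) ∧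
        (∀ i, q.2 i ∈ F i.succ) ∧ q.1 + ∑ i, q.2 i = g := by
      intro g
      obtain ⟨q, ⟨hqA, hqF, hsum⟩, huniq⟩ := hA g
      refine ⟨(q.1 + q.2 0, fun i => q.2 i.succ),
        ⟨Set.mem_add.mpr ⟨q.1, hqA, q.2 0, hqF 0, rfl⟩, fun i => hqF i.succ, ?_⟩, ?_⟩
      · rw [← hsum, Fin.sum_univ_succ]; exact add_assoc _ _ _
      · rintro ⟨b, ψ⟩ ⟨hb, hψ, hs⟩
        obtain ⟨a, ha, f, hf, rfl⟩ := Set.mem_add.mp hb
        have h1 := huniq (a, Fin.cons f ψ) ⟨ha, by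
          intro i
          refine Fin.cases ?_ (fun j => ?_) i
          · simpa using hf
          · simpa using hψ j, by
          rw [← hs]; simp [Fin.sum_univ_succ, add_assoc]⟩
        have h4 : a = q.1 := congrArg Prod.fst h1
        have h5 : (Fin.cons f ψ : Fin (k + 1) → G) = q.2 := congrArg Prod.snd h1
        have h6 : f = q.2 0 := by simpa using congrFun h5 0
        have h7 : ψ = fun i => q.2 i.succ := by
          funext j
          simpa using congrFun h5 j.succ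
        rw [h4, h6, h7]
    have ih := prime_family_inv k (fun i => F i.succ) (A + (↑(F 0) : Set G))
      (fun i => hp i.succ) hB
    have h₁ := szegedy_inv _ (F 0) (hp 0) hT.compl_right
    have hne₂ : {s : G | ∃ φ : Fin k → G, (∀ i, φ i ∈ F i.succ) ∧ s = ∑ i, φ i}.Nonempty := by
      obtain ⟨a, -, f₁, -, s, hs, -⟩ := hT.ex 0
      exact ⟨s, hs⟩
    have hinv := inv_inter hT (Finset.card_pos.mp (hp 0).pos) hne₂ h₁ ih
    exact hinv.mono (le_inf (iInf_le _ 0) (le_iInf fun i => iInf_le _ i.succ))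

/-- corollary: full-rank factors force every tiling to be periodic -/
theorem prime_family_periodic (k : ℕ) (F : Fin k → Finset G) (A : Set G)
    (hp : ∀ i, (F i).card.Prime)
    (hA : ∀ g, ∃! q : G × (Fin k → G), q.1 ∈ A ∧ (∀ i, q.2 i ∈ F i) ∧ q.1 + ∑ i, q.2 i = g)
    (hgen : ∀ i, ∃ n : ℕ, 0 < n ∧ ∀ v : G, n • v ∈
      AddSubgroup.closure {x | ∃ f ∈ F i, ∃ f' ∈ F i, x = f - f'}) :
    ∃ N : ℕ, 0 < N ∧ ∀ a ∈ A, ∀ v : G, a + N • v ∈ A := by
  classical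
  choose ν hνpos hν using hgen
  refine ⟨∏ i, (ν i * (F i).card), Finset.prod_pos (fun i _ =>
    Nat.mul_pos (hνpos i) (hp i).pos), ?_⟩
  intro a ha v
  refine prime_family_inv k F A hp hA _ ?_ a ha
  refine AddSubgroup.mem_iInf.mpr (fun i => ?_)
  rw [← Finset.mul_prod_erase Finset.univ (fun i => ν i * (F i).card) (Finset.mem_univ i),
    mul_comm, mul_smul]
  refine AddSubgroup.nsmul_mem _ ?_ _
  rw [mul_comm, mul_smul]
  refine smul_mem_Psub _ _ ?_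
  have h := hν i v
  have e : {x : G | ∃ f ∈ F i, ∃ f' ∈ F i, x = f - f'} =
      {x : G | ∃ f ∈ (↑(F i) : Set G), ∃ f' ∈ (↑(F i) : Set G), x = 1 • (f - f')} := by
    ext x; simp
  rw [e] at h
  exact h

end Vale.Agent.H12.PrimeSum
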