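import Mathlib

namespace Vale.Agent.H12

open Finset

/-- Caro-Wei bound in relational form: for a reflexive symmetric relation `R` on a finite
set `S` there is an `R`-independent subset `M` of `S` with
`∑_{a ∈ S} 1 / |{b ∈ S : R a b}| ≤ |M|`. -/
theorem caro_wei {β : Type*} [DecidableEq β] (R : β → β → Prop) [DecidableRel R]
    (hrefl : ∀ a, R a a) (hsymm : ∀ a b, R a b → R b a) (S : Finset β) :
    ∃ M : Finset β, M ⊆ S ∧ (∀ a ∈ M, ∀ b ∈ M, a ≠ b → ¬ R a b) ∧
      ∑ a ∈ S, (1 : ℚ) / ((S.filter (R a)).card : ℚ) ≤ (M.card : ℚ) := by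
  induction S using Finset.strongInduction with
  | H S ih =>
    rcases S.eq_empty_or_nonempty with rfl | hne
    · exact ⟨∅, by simp⟩
    · obtain ⟨e0, he0, hmin⟩ :=
        Finset.exists_min_image S (fun a => (S.filter (R a)).card) hne
      have he0K : e0 ∈ S.filter (R e0) := by simp [he0, hrefl]
      have hKS : S.filter (R e0) ⊆ S := Finset.filter_subset _ _
      have hlt : S \ S.filter (R e0) ⊂ S := Finset.sdiff_ssubset hKS ⟨e0, he0K⟩
      obtain ⟨M', hM'S, hM'ind, hM'sum⟩ := ih (S \ S.filter (R e0)) hlt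
      have hnot : ∀ b ∈ M', ¬ R e0 b := by
        intro b hb
        have := hM'S hb
        simp only [Finset.mem_sdiff, Finset.mem_filter, not_and] at this
        exact this.2 this.1
      have he0M' : e0 ∉ M' := fun h => hnot e0 h (hrefl e0)
      refine ⟨insert e0 M', ?_, ?_, ?_⟩
      · intro x hx
        rcases Finset.mem_insert.1 hx with rfl | hx
        · exact he0
        · exact (Finset.sdiff_subset (hM'S hx))
      · intro a ha b hb hab
        rcases Finset.mem_insert.1 ha with ha' | ha'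
        · rcases Finset.mem_insert.1 hb with hb' | hb'
          · exact absurd (ha'.trans hb'.symm) hab
          · rw [ha']; exact hnot b hb'
        · rcases Finset.mem_insert.1 hb with hb' | hb'
          · rw [hb']; exact fun h => hnot a ha' (hsymm _ _ h)
          · exact hM'ind a ha' b hb' hab
      · rw [Finset.card_insert_of_notMem he0M']
        push_cast
        have hsplit : ∑ a ∈ S, (1 : ℚ) / ((S.filter (R a)).card : ℚ)
            = ∑ a ∈ S \ S.filter (R e0), (1 : ℚ) / ((S.filter (R a)).card : ℚ)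
              + ∑ a ∈ S.filter (R e0), (1 : ℚ) / ((S.filter (R a)).card : ℚ) :=
          (Finset.sum_sdiff hKS).symm
        have hKpos : 0 < ((S.filter (R e0)).card : ℚ) := by
          exact_mod_cast Finset.card_pos.2 ⟨e0, he0K⟩
        have h1 : ∑ a ∈ S.filter (R e0), (1 : ℚ) / ((S.filter (R a)).card : ℚ) ≤ 1 := by
          calc ∑ a ∈ S.filter (R e0), (1 : ℚ) / ((S.filter (R a)).card : ℚ)
              ≤ ∑ _a ∈ S.filter (R e0), (1 : ℚ) / ((S.filter (R e0)).card : ℚ) := by
                apply Finset.sum_le_sum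
                intro a ha
                have hle : ((S.filter (R e0)).card : ℚ) ≤ ((S.filter (R a)).card : ℚ) := by
                  exact_mod_cast hmin a (hKS ha)
                exact one_div_le_one_div_of_le hKpos hle
            _ = 1 := by
                rw [Finset.sum_const, nsmul_eq_mul]
                field_simp
        have h2 : ∑ a ∈ S \ S.filter (R e0), (1 : ℚ) / ((S.filter (R a)).card : ℚ)
            ≤ ∑ a ∈ S \ S.filter (R e0),
                (1 : ℚ) / (((S \ S.filter (R e0)).filter (R a)).card : ℚ) := by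
          apply Finset.sum_le_sum
          intro a ha
          have hpos : 0 < ((((S \ S.filter (R e0)).filter (R a)).card : ℕ) : ℚ) := by
            have : a ∈ (S \ S.filter (R e0)).filter (R a) := by
              simp only [Finset.mem_filter]; exact ⟨ha, hrefl a⟩
            exact_mod_cast Finset.card_pos.2 ⟨a, this⟩
          have hle : ((((S \ S.filter (R e0)).filter (R a)).card : ℕ) : ℚ)
              ≤ ((S.filter (R a)).card : ℚ) := by
            exact_mod_cast Finset.card_le_card
              (Finset.filter_subset_filter _ Finset.sdiff_subset)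
          exact one_div_le_one_div_of_le hpos hle
        linarith

/-- The size of an image is the sum over the domain of the reciprocal fibre sizes. -/
theorem card_image_eq_sum_inv {γ δ : Type*} [DecidableEq γ] [DecidableEq δ]
    (E : Finset γ) (f : γ → δ) :
    ((E.image f).card : ℚ)
      = ∑ e ∈ E, (1 : ℚ) / ((E.filter (fun e' => f e' = f e)).card : ℚ) := by
  rw [Finset.card_eq_sum_ones, Nat.cast_sum]
  simp only [Nat.cast_one]
  apply Finset.sum_image'
  intro c hc
  have hpos : 0 < ((E.filter (fun e' => f e' = f c)).card : ℚ) := by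
    have : c ∈ E.filter (fun e' => f e' = f c) := by simp [hc]
    exact_mod_cast Finset.card_pos.2 ⟨c, this⟩
  have : ∀ x ∈ E.filter (fun x => f x = f c),
      (1 : ℚ) / ((E.filter (fun e' => f e' = f x)).card : ℚ)
        = (1 : ℚ) / ((E.filter (fun e' => f e' = f c)).card : ℚ) := by
    intro x hx
    rw [(Finset.mem_filter.1 hx).2]
  rw [Finset.sum_congr rfl this, Finset.sum_const, nsmul_eq_mul]
  field_simp

/-- Local degree criterion for Ryser's inequality. The hypergraph has vertex set `Fin r × α`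
(part `i` is `{i} × α`) and edge set `{ {(i, e i) : i} : e ∈ E }`. -/
theorem ryser_local {r : ℕ} (hr : 1 ≤ r) {α : Type*} [DecidableEq α]
    (E : Finset (Fin r → α))
    (hloc : ∀ e ∈ E,
      (∑ i : Fin r, (1 : ℚ) / ((E.filter (fun f => f i = e i)).card : ℚ))
        * (1 + ∑ i : Fin r, (((E.filter (fun f => f i = e i)).card : ℚ) - 1))
        ≤ (r : ℚ) * ((r : ℚ) - 1)) :
    ∃ (M : Finset (Fin r → α)) (C : Finset (Fin r × α)),
      M ⊆ E ∧ (∀ e ∈ M, ∀ f ∈ M, e ≠ f → ∀ i, e i ≠ f i) ∧
      (∀ e ∈ E, ∃ i, (i, e i) ∈ C) ∧ C.card ≤ (r - 1) * M.card := by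
  classical
  obtain ⟨M, hMS, hMind, hMsum⟩ :=
    caro_wei (fun e f : Fin r → α => ∃ i, e i = f i) (fun e => ⟨⟨0, hr⟩, rfl⟩)
      (fun e f ⟨i, hi⟩ => ⟨i, hi.symm⟩) E
  -- degree positivity
  have hdpos : ∀ e ∈ E, ∀ i : Fin r,
      0 < ((E.filter (fun f => f i = e i)).card : ℚ) := by
    intro e he i
    have : e ∈ E.filter (fun f => f i = e i) := by simp [he]
    exact_mod_cast Finset.card_pos.2 ⟨e, this⟩
  -- neighbourhood bound
  have hN : ∀ e ∈ E, ((E.filter (fun f => ∃ i, e i = f i)).card : ℚ)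
      ≤ 1 + ∑ i : Fin r, (((E.filter (fun f => f i = e i)).card : ℚ) - 1) := by
    intro e he
    have hsub : E.filter (fun f => ∃ i, e i = f i)
        ⊆ insert e (Finset.univ.biUnion
            (fun i : Fin r => (E.filter (fun f => f i = e i)).erase e)) := by
      intro f hf
      rcases Finset.mem_filter.1 hf with ⟨hfE, i, hi⟩
      by_cases hfe : f = e
      · exact Finset.mem_insert.2 (Or.inl hfe)
      · refine Finset.mem_insert.2 (Or.inr ?_)
        refine Finset.mem_biUnion.2 ⟨i, Finset.mem_univ _, ?_⟩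
        exact Finset.mem_erase.2 ⟨hfe, Finset.mem_filter.2 ⟨hfE, hi.symm⟩⟩
    have hcard : (E.filter (fun f => ∃ i, e i = f i)).card
        ≤ 1 + ∑ i : Fin r, ((E.filter (fun f => f i = e i)).card - 1) := by
      calc (E.filter (fun f => ∃ i, e i = f i)).card
          ≤ (insert e (Finset.univ.biUnion
            (fun i : Fin r => (E.filter (fun f => f i = e i)).erase e))).card :=
            Finset.card_le_card hsub
        _ ≤ (Finset.univ.biUnion
            (fun i : Fin r => (E.filter (fun f => f i = e i)).erase e)).card + 1 :=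
            Finset.card_insert_le _ _
        _ ≤ (∑ i : Fin r, ((E.filter (fun f => f i = e i)).erase e).card) + 1 :=
            Nat.add_le_add_right Finset.card_biUnion_le 1
        _ = 1 + ∑ i : Fin r, ((E.filter (fun f => f i = e i)).card - 1) := by
            rw [add_comm]
            congr 1
            apply Finset.sum_congr rfl
            intro i _
            exact Finset.card_erase_of_mem (by simp [he])
    have hcast : ((1 + ∑ i : Fin r, ((E.filter (fun f => f i = e i)).card - 1) : ℕ) : ℚ)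
        = 1 + ∑ i : Fin r, (((E.filter (fun f => f i = e i)).card : ℚ) - 1) := by
      push_cast
      congr 1
      apply Finset.sum_congr rfl
      intro i _
      have h1 : 1 ≤ (E.filter (fun f => f i = e i)).card := by
        have := hdpos e he i
        exact_mod_cast this
      rw [Nat.cast_sub h1]
      simp
    rw [← hcast]
    exact_mod_cast hcard
  -- covers by single parts
  have hCcard : ∀ i : Fin r, ((E.image (fun e => (i, e i))).card : ℚ)
      = ∑ e ∈ E, (1 : ℚ) / ((E.filter (fun f => f i = e i)).card : ℚ) := by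
    intro i
    rw [card_image_eq_sum_inv]
    apply Finset.sum_congr rfl
    intro e _
    congr 3
    apply Finset.filter_congr
    intro f _
    simp
  -- per-edge estimate
  have hedge : ∀ e ∈ E,
      ∑ i : Fin r, (1 : ℚ) / ((E.filter (fun f => f i = e i)).card : ℚ)
        ≤ (r : ℚ) * ((r : ℚ) - 1)
            * ((1 : ℚ) / ((E.filter (fun f => ∃ i, e i = f i)).card : ℚ)) := by
    intro e he
    have hNpos : 0 < ((E.filter (fun f => ∃ i, e i = f i)).card : ℚ) := by
      have : e ∈ E.filter (fun f => ∃ i, e i = f i) :=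
        Finset.mem_filter.2 ⟨he, ⟨0, hr⟩, rfl⟩
      exact_mod_cast Finset.card_pos.2 ⟨e, this⟩
    have hS : 0 ≤ ∑ i : Fin r, (1 : ℚ) / ((E.filter (fun f => f i = e i)).card : ℚ) :=
      Finset.sum_nonneg (fun i _ => by positivity)
    have h1 := hloc e he
    have h2 := hN e he
    rw [mul_one_div, le_div_iff₀ hNpos]
    calc (∑ i : Fin r, (1 : ℚ) / ((E.filter (fun f => f i = e i)).card : ℚ))
          * ((E.filter (fun f => ∃ i, e i = f i)).card : ℚ)
        ≤ (∑ i : Fin r, (1 : ℚ) / ((E.filter (fun f => f i = e i)).card : ℚ))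
          * (1 + ∑ i : Fin r, (((E.filter (fun f => f i = e i)).card : ℚ) - 1)) :=
          mul_le_mul_of_nonneg_left h2 hS
      _ ≤ (r : ℚ) * ((r : ℚ) - 1) := h1
  -- total count
  have htotal : ∑ i : Fin r, ((E.image (fun e => (i, e i))).card : ℚ)
      ≤ (r : ℚ) * ((r : ℚ) - 1) * (M.card : ℚ) := by
    calc ∑ i : Fin r, ((E.image (fun e => (i, e i))).card : ℚ)
        = ∑ i : Fin r, ∑ e ∈ E, (1 : ℚ) / ((E.filter (fun f => f i = e i)).card : ℚ) :=
          Finset.sum_congr rfl (fun i _ => hCcard i)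
      _ = ∑ e ∈ E, ∑ i : Fin r, (1 : ℚ) / ((E.filter (fun f => f i = e i)).card : ℚ) :=
          Finset.sum_comm
      _ ≤ ∑ e ∈ E, (r : ℚ) * ((r : ℚ) - 1)
            * ((1 : ℚ) / ((E.filter (fun f => ∃ i, e i = f i)).card : ℚ)) :=
          Finset.sum_le_sum hedge
      _ = (r : ℚ) * ((r : ℚ) - 1)
            * ∑ e ∈ E, (1 : ℚ) / ((E.filter (fun f => ∃ i, e i = f i)).card : ℚ) := by
          rw [Finset.mul_sum]
      _ ≤ (r : ℚ) * ((r : ℚ) - 1) * (M.card : ℚ) := by
          apply mul_le_mul_of_nonneg_left hMsum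
          have : (1 : ℚ) ≤ (r : ℚ) := by exact_mod_cast hr
          nlinarith
  -- best part
  obtain ⟨i0, -, hi0⟩ := Finset.exists_min_image (Finset.univ : Finset (Fin r))
    (fun i => (E.image (fun e => (i, e i))).card) ⟨⟨0, hr⟩, Finset.mem_univ _⟩
  have hmin : (r : ℚ) * ((E.image (fun e => (i0, e i0))).card : ℚ)
      ≤ ∑ i : Fin r, ((E.image (fun e => (i, e i))).card : ℚ) := by
    calc (r : ℚ) * ((E.image (fun e => (i0, e i0))).card : ℚ)
        = ∑ _i : Fin r, ((E.image (fun e => (i0, e i0))).card : ℚ) := by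
          rw [Finset.sum_const, Finset.card_univ, Fintype.card_fin, nsmul_eq_mul]
      _ ≤ ∑ i : Fin r, ((E.image (fun e => (i, e i))).card : ℚ) := by
          apply Finset.sum_le_sum
          intro i hi
          exact_mod_cast hi0 i hi
  refine ⟨M, E.image (fun e => (i0, e i0)), hMS, ?_, ?_, ?_⟩
  · intro e he f hf hef i hi
    exact hMind e he f hf hef ⟨i, hi⟩
  · intro e he
    exact ⟨i0, Finset.mem_image.2 ⟨e, he, rfl⟩⟩
  · have hrpos : (0 : ℚ) < (r : ℚ) := by exact_mod_cast hr
    have hfin : ((E.image (fun e => (i0, e i0))).card : ℚ)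
        ≤ ((r : ℚ) - 1) * (M.card : ℚ) := by
      have := le_trans hmin htotal
      rw [mul_assoc] at this
      exact le_of_mul_le_mul_left this hrpos
    have hcast : (((r - 1) * M.card : ℕ) : ℚ) = ((r : ℚ) - 1) * (M.card : ℚ) := by
      rw [Nat.cast_mul, Nat.cast_sub hr]
      simp
    rw [← hcast] at hfin
    exact_mod_cast hfin

/-- Ryser's inequality for hypergraphs of bounded degree, given the numerical profile
inequality for degree vectors with entries in `[2, D]`. Edges having a vertex of degree one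
are removed together with their neighbourhood; what remains has minimum degree two and
satisfies the local criterion. -/
theorem ryser_of_profile {r : ℕ} (hr : 2 ≤ r) (D : ℕ)
    (hprof : ∀ d : Fin r → ℕ, (∀ i, 2 ≤ d i) → (∀ i, d i ≤ D) →
      (∑ i : Fin r, (1 : ℚ) / (d i : ℚ)) * (1 + ∑ i : Fin r, ((d i : ℚ) - 1))
        ≤ (r : ℚ) * ((r : ℚ) - 1))
    {α : Type*} [DecidableEq α] (E : Finset (Fin r → α))
    (hdeg : ∀ (i : Fin r) (x : α), (E.filter (fun f => f i = x)).card ≤ D) :
    ∃ (M : Finset (Fin r → α)) (C : Finset (Fin r × α)),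
      M ⊆ E ∧ (∀ e ∈ M, ∀ f ∈ M, e ≠ f → ∀ i, e i ≠ f i) ∧
      (∀ e ∈ E, ∃ i, (i, e i) ∈ C) ∧ C.card ≤ (r - 1) * M.card := by
  classical
  induction E using Finset.strongInduction with
  | H E ih =>
    by_cases hpriv : ∃ e ∈ E, ∃ i : Fin r, (E.filter (fun f => f i = e i)).card = 1
    · obtain ⟨e, he, i, hi⟩ := hpriv
      have heK : e ∈ E.filter (fun f => ∃ j, e j = f j) :=
        Finset.mem_filter.2 ⟨he, i, rfl⟩
      have hKE : E.filter (fun f => ∃ j, e j = f j) ⊆ E := Finset.filter_subset _ _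
      have hlt : E \ E.filter (fun f => ∃ j, e j = f j) ⊂ E :=
        Finset.sdiff_ssubset hKE ⟨e, heK⟩
      have hdeg' : ∀ (j : Fin r) (x : α),
          ((E \ E.filter (fun f => ∃ j, e j = f j)).filter (fun f => f j = x)).card ≤ D := by
        intro j x
        exact le_trans (Finset.card_le_card
          (Finset.filter_subset_filter _ Finset.sdiff_subset)) (hdeg j x)
      obtain ⟨M', C', hM', hmatch', hcover', hcard'⟩ := ih _ hlt hdeg'
      have hnot : ∀ f ∈ M', ¬ ∃ j, e j = f j := by
        intro f hf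
        have := hM' hf
        simp only [Finset.mem_sdiff, Finset.mem_filter, not_and] at this
        exact this.2 this.1
      have heM' : e ∉ M' := fun h => hnot e h ⟨i, rfl⟩
      -- the only edge through the vertex `(i, e i)` is `e`
      have honly : ∀ f ∈ E, f i = e i → f = e := by
        intro f hf hfi
        obtain ⟨a, ha⟩ := Finset.card_eq_one.1 hi
        have h1 : f ∈ E.filter (fun f => f i = e i) := Finset.mem_filter.2 ⟨hf, hfi⟩
        have h2 : e ∈ E.filter (fun f => f i = e i) := Finset.mem_filter.2 ⟨he, rfl⟩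
        rw [ha, Finset.mem_singleton] at h1 h2
        rw [h1, h2]
      refine ⟨insert e M',
        C' ∪ ((Finset.univ : Finset (Fin r)).erase i).image (fun j => (j, e j)), ?_, ?_, ?_, ?_⟩
      · intro x hx
        rcases Finset.mem_insert.1 hx with hx' | hx'
        · rw [hx']; exact he
        · exact Finset.sdiff_subset (hM' hx')
      · intro a ha b hb hab j hj
        rcases Finset.mem_insert.1 ha with ha' | ha'
        · rcases Finset.mem_insert.1 hb with hb' | hb'
          · exact hab (ha'.trans hb'.symm)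
          · exact hnot b hb' ⟨j, by rw [← ha']; exact hj⟩
        · rcases Finset.mem_insert.1 hb with hb' | hb'
          · exact hnot a ha' ⟨j, by rw [← hb']; exact hj.symm⟩
          · exact hmatch' a ha' b hb' hab j hj
      · intro f hf
        by_cases hfK : ∃ j, e j = f j
        · by_cases hfe : f = e
          · -- cover `e` itself by a vertex other than `(i, e i)`
            have hex : ∃ j : Fin r, j ≠ i := by
              by_cases h0 : i = ⟨0, by omega⟩
              · exact ⟨⟨1, by omega⟩, by rw [h0]; simp [Fin.ext_iff]⟩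
              · exact ⟨⟨0, by omega⟩, fun h => h0 h.symm⟩
            obtain ⟨j, hj⟩ := hex
            refine ⟨j, Finset.mem_union.2 (Or.inr (Finset.mem_image.2 ⟨j, ?_, ?_⟩))⟩
            · exact Finset.mem_erase.2 ⟨hj, Finset.mem_univ _⟩
            · rw [hfe]
          · obtain ⟨j, hj⟩ := hfK
            have hji : j ≠ i := by
              intro h
              apply hfe
              apply honly f hf
              rw [← h, hj]
            refine ⟨j, Finset.mem_union.2 (Or.inr (Finset.mem_image.2 ⟨j, ?_, ?_⟩))⟩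
            · exact Finset.mem_erase.2 ⟨hji, Finset.mem_univ _⟩
            · rw [hj]
        · have hfE' : f ∈ E \ E.filter (fun f => ∃ j, e j = f j) := by
            simp only [Finset.mem_sdiff, Finset.mem_filter, not_and]
            exact ⟨hf, fun _ => hfK⟩
          obtain ⟨j, hj⟩ := hcover' f hfE'
          exact ⟨j, Finset.mem_union.2 (Or.inl hj)⟩
      · have h1 : (((Finset.univ : Finset (Fin r)).erase i).image (fun j => (j, e j))).card
            ≤ r - 1 := by
          refine le_trans Finset.card_image_le ?_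
          rw [Finset.card_erase_of_mem (Finset.mem_univ _), Finset.card_univ, Fintype.card_fin]
        calc (C' ∪ ((Finset.univ : Finset (Fin r)).erase i).image (fun j => (j, e j))).card
            ≤ C'.card + (((Finset.univ : Finset (Fin r)).erase i).image
                (fun j => (j, e j))).card := Finset.card_union_le _ _
          _ ≤ (r - 1) * M'.card + (r - 1) := Nat.add_le_add hcard' h1
          _ = (r - 1) * (insert e M').card := by
              rw [Finset.card_insert_of_notMem heM']
              ring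
    · have hpriv' : ∀ e ∈ E, ∀ i : Fin r, (E.filter (fun f => f i = e i)).card ≠ 1 :=
        fun e he i h => hpriv ⟨e, he, i, h⟩
      have h1r : 1 ≤ r := by omega
      have hloc : ∀ e ∈ E,
          (∑ i : Fin r, (1 : ℚ) / ((E.filter (fun f => f i = e i)).card : ℚ))
            * (1 + ∑ i : Fin r, (((E.filter (fun f => f i = e i)).card : ℚ) - 1))
            ≤ (r : ℚ) * ((r : ℚ) - 1) := by
        intro e he
        have hpos : ∀ i : Fin r, 2 ≤ (E.filter (fun f => f i = e i)).card := by
          intro i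
          have h1 : 1 ≤ (E.filter (fun f => f i = e i)).card :=
            Finset.card_pos.2 ⟨e, Finset.mem_filter.2 ⟨he, rfl⟩⟩
          have h2 := hpriv' e he i
          omega
        have hle : ∀ i : Fin r, (E.filter (fun f => f i = e i)).card ≤ D :=
          fun i => hdeg i (e i)
        have := hprof (fun i => (E.filter (fun f => f i = e i)).card) hpos hle
        exact this
      exact ryser_local h1r E hloc

/-- Profile inequality for degrees in `[2, D]` when `((D+1) r + 1)^2 ≤ 8 D r (r - 1)`. -/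
theorem profile_general {r : ℕ} (D : ℕ)
    (hcond : (((D : ℚ) + 1) * (r : ℚ) + 1) ^ 2 ≤ 8 * (D : ℚ) * ((r : ℚ) * ((r : ℚ) - 1)))
    (d : Fin r → ℕ) (h2 : ∀ i, 2 ≤ d i) (hD : ∀ i, d i ≤ D) :
    (∑ i : Fin r, (1 : ℚ) / (d i : ℚ)) * (1 + ∑ i : Fin r, ((d i : ℚ) - 1))
      ≤ (r : ℚ) * ((r : ℚ) - 1) := by
  have hA : 0 ≤ ∑ i : Fin r, (1 : ℚ) / (d i : ℚ) :=
    Finset.sum_nonneg (fun i _ => by positivity)
  have hB : 0 ≤ ∑ i : Fin r, ((d i : ℚ) - 1) := by
    apply Finset.sum_nonneg
    intro i _
    have : (2 : ℚ) ≤ (d i : ℚ) := by exact_mod_cast h2 i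
    linarith
  have hterm : ∀ i : Fin r,
      2 * (D : ℚ) * ((1 : ℚ) / (d i : ℚ)) + ((d i : ℚ) - 1) ≤ (D : ℚ) + 1 := by
    intro i
    have hd2 : (2 : ℚ) ≤ (d i : ℚ) := by exact_mod_cast h2 i
    have hdD : (d i : ℚ) ≤ (D : ℚ) := by exact_mod_cast hD i
    have hpos : (0 : ℚ) < (d i : ℚ) := by linarith
    have h := mul_nonneg (sub_nonneg.2 hd2) (sub_nonneg.2 hdD)
    have hkey : 2 * (D : ℚ) * ((1 : ℚ) / (d i : ℚ))
        = ((D : ℚ) + 1 - ((d i : ℚ) - 1)) - ((d i : ℚ) - 2) * ((D : ℚ) - (d i : ℚ)) / (d i : ℚ) := by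
      field_simp
      ring
    have hq : 0 ≤ ((d i : ℚ) - 2) * ((D : ℚ) - (d i : ℚ)) / (d i : ℚ) :=
      div_nonneg h hpos.le
    linarith
  have hsum : 2 * (D : ℚ) * (∑ i : Fin r, (1 : ℚ) / (d i : ℚ))
      + (1 + ∑ i : Fin r, ((d i : ℚ) - 1)) ≤ ((D : ℚ) + 1) * (r : ℚ) + 1 := by
    have h1 : ∑ i : Fin r, (2 * (D : ℚ) * ((1 : ℚ) / (d i : ℚ)) + ((d i : ℚ) - 1))
        ≤ ∑ _i : Fin r, ((D : ℚ) + 1) := Finset.sum_le_sum (fun i _ => hterm i)
    rw [Finset.sum_add_distrib, ← Finset.mul_sum, Finset.sum_const, Finset.card_univ,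
      Fintype.card_fin, nsmul_eq_mul] at h1
    linarith
  rcases Nat.eq_zero_or_pos r with hr0 | hrpos
  · subst hr0
    simp
  · have hDpos : (0 : ℚ) < (D : ℚ) := by
      have h1 := h2 ⟨0, hrpos⟩
      have h3 := hD ⟨0, hrpos⟩
      have : 0 < D := by omega
      exact_mod_cast this
    have hT : (2 * (D : ℚ) * (∑ i : Fin r, (1 : ℚ) / (d i : ℚ))
        + (1 + ∑ i : Fin r, ((d i : ℚ) - 1))) ^ 2 ≤ (((D : ℚ) + 1) * (r : ℚ) + 1) ^ 2 :=
      pow_le_pow_left₀ (by positivity) hsum 2
    have h8 : 8 * (D : ℚ) * ((∑ i : Fin r, (1 : ℚ) / (d i : ℚ))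
        * (1 + ∑ i : Fin r, ((d i : ℚ) - 1)))
        ≤ (2 * (D : ℚ) * (∑ i : Fin r, (1 : ℚ) / (d i : ℚ))
        + (1 + ∑ i : Fin r, ((d i : ℚ) - 1))) ^ 2 := by
      nlinarith [sq_nonneg (2 * (D : ℚ) * (∑ i : Fin r, (1 : ℚ) / (d i : ℚ))
        - (1 + ∑ i : Fin r, ((d i : ℚ) - 1)))]
    have hfin := le_trans h8 (le_trans hT hcond)
    exact le_of_mul_le_mul_left hfin (by positivity)

/-- Profile inequality for degrees in `{2, 3}` and `r ≥ 4`. -/
theorem profile_three {r : ℕ} (hr : 4 ≤ r) (d : Fin r → ℕ) (h2 : ∀ i, 2 ≤ d i)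
    (h3 : ∀ i, d i ≤ 3) :
    (∑ i : Fin r, (1 : ℚ) / (d i : ℚ)) * (1 + ∑ i : Fin r, ((d i : ℚ) - 1))
      ≤ (r : ℚ) * ((r : ℚ) - 1) := by
  classical
  have key : ∀ F : ℕ → ℚ, ∑ i : Fin r, F (d i)
      = ((Finset.univ.filter (fun i => d i = 2)).card : ℚ) * F 2
        + ((Finset.univ.filter (fun i => ¬ d i = 2)).card : ℚ) * F 3 := by
    intro F
    have h : ∀ i : Fin r, F (d i) = if d i = 2 then F 2 else F 3 := by
      intro i
      by_cases hi : d i = 2
      · simp [hi]
      · have : d i = 3 := by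
          have := h2 i
          have := h3 i
          omega
        simp [this]
    rw [Finset.sum_congr rfl (fun i _ => h i), Finset.sum_ite, Finset.sum_const,
      Finset.sum_const, nsmul_eq_mul, nsmul_eq_mul]
  have hS := key (fun n => (1 : ℚ) / (n : ℚ))
  have hT := key (fun n => (n : ℚ) - 1)
  have hcard : (Finset.univ.filter (fun i : Fin r => d i = 2)).card
      + (Finset.univ.filter (fun i : Fin r => ¬ d i = 2)).card = r := by
    have := Finset.card_filter_add_card_filter_not (s := (Finset.univ : Finset (Fin r)))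
      (fun i : Fin r => d i = 2)
    rw [this, Finset.card_univ, Fintype.card_fin]
  have hr' : (r : ℚ) = ((Finset.univ.filter (fun i : Fin r => d i = 2)).card : ℚ)
      + ((Finset.univ.filter (fun i : Fin r => ¬ d i = 2)).card : ℚ) := by
    exact_mod_cast hcard.symm
  have hb : 0 ≤ ((Finset.univ.filter (fun i : Fin r => d i = 2)).card : ℚ)
      * (((Finset.univ.filter (fun i : Fin r => d i = 2)).card : ℚ) - 1) := by
    rcases Nat.eq_zero_or_pos (Finset.univ.filter (fun i : Fin r => d i = 2)).card with h | h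
    · rw [h]; simp
    · have : (1 : ℚ) ≤ ((Finset.univ.filter (fun i : Fin r => d i = 2)).card : ℚ) := by
        exact_mod_cast h
      apply mul_nonneg <;> linarith
  have hr4 : (4 : ℚ) ≤ (r : ℚ) := by exact_mod_cast hr
  rw [hS, hT]
  norm_num
  have hrr := mul_nonneg (by linarith : (0 : ℚ) ≤ (r : ℚ)) (sub_nonneg.2 hr4)
  rw [hr'] at hrr ⊢
  nlinarith

/-- Ryser's inequality for `r`-partite `r`-uniform hypergraphs of maximum degree at most
`D`, for `D ≤ 3` and `r ≥ 4`, for `D = 4` and `r ≥ 7`, and for `D = 5` and `r ≥ 14`. -/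
theorem ryser_deg_le_five {r D : ℕ}
    (hD : (D ≤ 3 ∧ 4 ≤ r) ∨ (D = 4 ∧ 7 ≤ r) ∨ (D = 5 ∧ 14 ≤ r))
    {α : Type*} [DecidableEq α] (E : Finset (Fin r → α))
    (hdeg : ∀ (i : Fin r) (x : α), (E.filter (fun f => f i = x)).card ≤ D) :
    ∃ (M : Finset (Fin r → α)) (C : Finset (Fin r × α)),
      M ⊆ E ∧ (∀ e ∈ M, ∀ f ∈ M, e ≠ f → ∀ i, e i ≠ f i) ∧
      (∀ e ∈ E, ∃ i, (i, e i) ∈ C) ∧ C.card ≤ (r - 1) * M.card := by
  rcases hD with ⟨h3, hr⟩ | ⟨h4, hr⟩ | ⟨h5, hr⟩
  · exact ryser_of_profile (by omega) 3 (fun d h2 hd => profile_three hr d h2 hd) E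
      (fun i x => le_trans (hdeg i x) h3)
  · subst h4
    have hr7 : (7 : ℚ) ≤ (r : ℚ) := by exact_mod_cast hr
    have hcond : ((((4 : ℕ) : ℚ) + 1) * (r : ℚ) + 1) ^ 2
        ≤ 8 * ((4 : ℕ) : ℚ) * ((r : ℚ) * ((r : ℚ) - 1)) := by
      push_cast
      nlinarith
    exact ryser_of_profile (by omega) 4 (fun d h2 hd => profile_general 4 hcond d h2 hd) E hdeg
  · subst h5
    have hr14 : (14 : ℚ) ≤ (r : ℚ) := by exact_mod_cast hr
    have hcond : ((((5 : ℕ) : ℚ) + 1) * (r : ℚ) + 1) ^ 2
        ≤ 8 * ((5 : ℕ) : ℚ) * ((r : ℚ) * ((r : ℚ) - 1)) := by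
      push_cast
      nlinarith
    exact ryser_of_profile (by omega) 5 (fun d h2 hd => profile_general 5 hcond d h2 hd) E hdeg

end Vale.Agent.H12
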