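import Vale.Agent.H12.SwitchChain
import Vale.Agent.H12.BipModel

/-!
Split degree functions: if one realization of `d` is a split graph with clique `A`
and independent set `Aᶜ`, then every realization is, and the realizations correspond
to a bipartite class, switches to switches.
-/

namespace Vale.Agent.H12.Switch

open Finset SimpleGraph
open scoped Classical

variable {V : Type} [Fintype V]

theorem degree_split (G : SimpleGraph V) (A : Finset V) (v : V) :
    G.degree v = nb G A v + nb G Aᶜ v := by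
  rw [degree_eq_nb]
  unfold nb
  rw [← Finset.card_union_of_disjoint]
  · congr 1
    ext u
    simp only [mem_filter, mem_univ, true_and, mem_union, mem_compl]
    tauto
  · rw [Finset.disjoint_left]
    intro u hu hu'
    simp only [mem_filter, mem_compl] at hu hu'
    exact hu'.1 hu.1

theorem cross_count (G : SimpleGraph V) (A : Finset V) :
    ∑ v ∈ A, nb G Aᶜ v = ∑ u ∈ Aᶜ, nb G A u := by
  unfold nb
  have h := Finset.sum_card_bipartiteAbove_eq_sum_card_bipartiteBelow (s := A) (t := Aᶜ)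
    (fun a b => G.Adj a b)
  unfold Finset.bipartiteAbove Finset.bipartiteBelow at h
  rw [h]
  refine Finset.sum_congr rfl (fun u _ => ?_)
  congr 1
  ext a
  simp only [mem_filter]
  rw [G.adj_comm]

theorem nb_le (G : SimpleGraph V) (A : Finset V) (v : V) (hv : v ∈ A) :
    nb G A v ≤ A.card - 1 := by
  unfold nb
  rw [← Finset.card_erase_of_mem hv]
  apply Finset.card_le_card
  intro u hu
  simp only [mem_filter] at hu
  exact Finset.mem_erase.mpr ⟨fun h => hu.2.ne h.symm, hu.1⟩

/-- **Rigidity of split degree functions.** -/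
theorem isSplit_of_degree_eq (G₀ G : SimpleGraph V) (A : Finset V) (h₀ : IsSplit G₀ A)
    (hd : ∀ v, G.degree v = G₀.degree v) : IsSplit G A := by
  -- the counts for G₀
  have hX0 : ∀ v ∈ A, nb G₀ A v = A.card - 1 := by
    intro v hv
    unfold nb
    rw [← Finset.card_erase_of_mem hv]
    congr 1
    ext u
    simp only [mem_filter, mem_erase]
    constructor
    · rintro ⟨hu, huv⟩; exact ⟨fun h => huv.ne h.symm, hu⟩
    · rintro ⟨hne, hu⟩; exact ⟨hu, h₀.1 v hv u hu (fun h => hne h.symm)⟩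
  have hY0 : ∀ v ∈ Aᶜ, nb G₀ Aᶜ v = 0 := by
    intro v hv
    unfold nb
    rw [Finset.card_eq_zero, Finset.filter_eq_empty_iff]
    intro u hu
    exact h₀.2 v (Finset.mem_compl.mp hv) u (Finset.mem_compl.mp hu)
  -- degree sums
  have e1 : ∀ K : SimpleGraph V, ∑ v ∈ A, K.degree v = ∑ v ∈ A, nb K A v + ∑ v ∈ A, nb K Aᶜ v := by
    intro K
    rw [← Finset.sum_add_distrib]
    exact Finset.sum_congr rfl (fun v _ => degree_split K A v)
  have e2 : ∀ K : SimpleGraph V,
      ∑ v ∈ Aᶜ, K.degree v = ∑ v ∈ Aᶜ, nb K A v + ∑ v ∈ Aᶜ, nb K Aᶜ v := by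
    intro K
    rw [← Finset.sum_add_distrib]
    exact Finset.sum_congr rfl (fun v _ => degree_split K A v)
  have hdA : ∑ v ∈ A, G.degree v = ∑ v ∈ A, G₀.degree v :=
    Finset.sum_congr rfl (fun v _ => hd v)
  have hdB : ∑ v ∈ Aᶜ, G.degree v = ∑ v ∈ Aᶜ, G₀.degree v :=
    Finset.sum_congr rfl (fun v _ => hd v)
  have hX0s : ∑ v ∈ A, nb G₀ A v = ∑ _v ∈ A, (A.card - 1) := Finset.sum_congr rfl hX0
  have hY0s : ∑ v ∈ Aᶜ, nb G₀ Aᶜ v = 0 := Finset.sum_eq_zero hY0
  have hXle : ∑ v ∈ A, nb G A v ≤ ∑ _v ∈ A, (A.card - 1) :=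
    Finset.sum_le_sum (fun v hv => nb_le G A v hv)
  have c0 := cross_count G₀ A
  have c1 := cross_count G A
  have a1 := e1 G
  have a2 := e2 G
  have a3 := e1 G₀
  have a4 := e2 G₀
  have hXeq : ∑ v ∈ A, nb G A v = ∑ _v ∈ A, (A.card - 1) := by omega
  have hYeq : ∑ v ∈ Aᶜ, nb G Aᶜ v = 0 := by omega
  constructor
  · intro u hu v hv huv
    have h1 := (Finset.sum_eq_sum_iff_of_le (fun v hv => nb_le G A v hv)).mp hXeq u hu
    unfold nb at h1
    have hsub : A.filter (fun w => G.Adj u w) ⊆ A.erase u := by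
      intro w hw
      simp only [mem_filter] at hw
      exact Finset.mem_erase.mpr ⟨fun h => hw.2.ne h.symm, hw.1⟩
    have heq := Finset.eq_of_subset_of_card_le hsub (by
      rw [Finset.card_erase_of_mem hu, h1])
    have : v ∈ A.filter (fun w => G.Adj u w) := by
      rw [heq]; exact Finset.mem_erase.mpr ⟨fun h => huv h.symm, hv⟩
    exact (Finset.mem_filter.mp this).2
  · intro u hu v hv huv
    have h1 := (Finset.sum_eq_zero_iff.mp hYeq) u (Finset.mem_compl.mpr hu)
    unfold nb at h1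
    rw [Finset.card_eq_zero, Finset.filter_eq_empty_iff] at h1
    exact h1 (Finset.mem_compl.mpr hv) huv

section bridge

open Vale.Agent.H12.Bip

variable (d : V → ℕ) (A : Finset V)

/-- cross adjacency matrix between `A` (rows) and its complement (columns) -/
noncomputable def toMat (G : SimpleGraph V) : {v // v ∈ A} → {v // v ∉ A} → Bool :=
  fun i x => decide (G.Adj i.1 x.1)

theorem row_sum (G : SimpleGraph V) (hs : IsSplit G A) (i : {v // v ∈ A}) :
    (univ.filter (fun x : {v // v ∉ A} => toMat A G i x = true)).card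
      = G.degree i.1 - (A.card - 1) := by
  have h1 : (univ.filter (fun x : {v // v ∉ A} => toMat A G i x = true)).card = nb G Aᶜ i.1 := by
    unfold nb
    apply Finset.card_bij (fun x _ => x.1)
    · intro x hx
      simp only [toMat, mem_filter, mem_univ, true_and, decide_eq_true_eq] at hx
      simp only [mem_filter, mem_compl]
      exact ⟨x.2, hx⟩
    · intro x _ y _ h; exact Subtype.ext h
    · intro v hv
      simp only [mem_filter, mem_compl] at hv
      refine ⟨⟨v, hv.1⟩, ?_, rfl⟩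
      simp only [toMat, mem_filter, mem_univ, true_and, decide_eq_true_eq]
      exact hv.2
  have h2 : nb G A i.1 = A.card - 1 := by
    unfold nb
    rw [← Finset.card_erase_of_mem i.2]
    congr 1
    ext u
    simp only [mem_filter, mem_erase]
    constructor
    · rintro ⟨hu, huv⟩; exact ⟨fun h => huv.ne h.symm, hu⟩
    · rintro ⟨hne, hu⟩; exact ⟨hu, hs.1 i.1 i.2 u hu (fun h => hne h.symm)⟩
  rw [h1, degree_split G A i.1, h2]
  omega

theorem col_sum (G : SimpleGraph V) (hs : IsSplit G A) (x : {v // v ∉ A}) :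
    (univ.filter (fun i : {v // v ∈ A} => toMat A G i x = true)).card = G.degree x.1 := by
  have h1 : (univ.filter (fun i : {v // v ∈ A} => toMat A G i x = true)).card = nb G A x.1 := by
    unfold nb
    apply Finset.card_bij (fun i _ => i.1)
    · intro i hi
      simp only [toMat, mem_filter, mem_univ, true_and, decide_eq_true_eq] at hi
      simp only [mem_filter]
      exact ⟨i.2, hi.symm⟩
    · intro i _ j _ h; exact Subtype.ext h
    · intro v hv
      simp only [mem_filter] at hv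
      refine ⟨⟨v, hv.1⟩, ?_, rfl⟩
      simp only [toMat, mem_filter, mem_univ, true_and, decide_eq_true_eq]
      exact hv.2.symm
  have h2 : nb G Aᶜ x.1 = 0 := by
    unfold nb
    rw [Finset.card_eq_zero, Finset.filter_eq_empty_iff]
    intro u hu
    exact hs.2 x.1 x.2 u (Finset.mem_compl.mp hu)
  rw [h1, degree_split G A x.1, h2, add_zero]

end bridge

section bridge2

open Vale.Agent.H12.Bip

variable {d : V → ℕ} {A : Finset V}

theorem nb_clique (G : SimpleGraph V) (hs : IsSplit G A) (v : V) (hv : v ∈ A) :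
    nb G A v = A.card - 1 := by
  unfold nb
  rw [← Finset.card_erase_of_mem hv]
  congr 1
  ext u
  simp only [mem_filter, mem_erase]
  constructor
  · rintro ⟨hu, huv⟩; exact ⟨fun h => huv.ne h.symm, hu⟩
  · rintro ⟨hne, hu⟩; exact ⟨hu, hs.1 v hv u hu (fun h => hne h.symm)⟩

/-- row sums of the bipartite class attached to a split degree function -/
def rowSum (d : V → ℕ) (A : Finset V) (i : {v // v ∈ A}) : ℕ := d i.1 - (A.card - 1)

/-- column sums of the bipartite class attached to a split degree function -/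
def colSum (d : V → ℕ) (A : Finset V) (x : {v // v ∉ A}) : ℕ := d x.1

/-- the bipartite matrix of a realization -/
noncomputable def toB (hall : ∀ G : Omega d, IsSplit G.1 A) (G : Omega d) :
    BOmega (rowSum d A) (colSum d A) :=
  ⟨toMat A G.1, fun i => by rw [row_sum A G.1 (hall G) i, G.2 i.1]; rfl,
    fun x => by rw [col_sum A G.1 (hall G) x, G.2 x.1]; rfl⟩

theorem toB_injective (hall : ∀ G : Omega d, IsSplit G.1 A) : Function.Injective (toB hall) := by
  intro G G' h
  apply Subtype.ext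
  ext u v
  have hm : toMat A G.1 = toMat A G'.1 := congrArg Subtype.val h
  by_cases hu : u ∈ A <;> by_cases hv : v ∈ A
  · constructor
    · intro hadj; exact (hall G').1 u hu v hv hadj.ne
    · intro hadj; exact (hall G).1 u hu v hv hadj.ne
  · have := congrFun (congrFun hm ⟨u, hu⟩) ⟨v, hv⟩
    simp only [toMat, decide_eq_decide] at this
    exact this
  · have := congrFun (congrFun hm ⟨v, hv⟩) ⟨u, hu⟩
    simp only [toMat, decide_eq_decide] at this
    rw [G.1.adj_comm, G'.1.adj_comm]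
    exact this
  · constructor
    · intro hadj; exact absurd hadj ((hall G).2 u hu v hv)
    · intro hadj; exact absurd hadj ((hall G').2 u hu v hv)

/-- the split graph with clique `A` and cross adjacency `M` -/
def ofMat (A : Finset V) (M : {v // v ∈ A} → {v // v ∉ A} → Bool) : SimpleGraph V where
  Adj u v := (u ∈ A ∧ v ∈ A ∧ u ≠ v) ∨ (∃ hu : u ∈ A, ∃ hv : v ∉ A, M ⟨u, hu⟩ ⟨v, hv⟩ = true) ∨
    (∃ hu : u ∉ A, ∃ hv : v ∈ A, M ⟨v, hv⟩ ⟨u, hu⟩ = true)
  symm := ⟨by
    intro u v h
    rcases h with ⟨hu, hv, hne⟩ | ⟨hu, hv, hM⟩ | ⟨hu, hv, hM⟩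
    · exact Or.inl ⟨hv, hu, hne.symm⟩
    · exact Or.inr (Or.inr ⟨hv, hu, hM⟩)
    · exact Or.inr (Or.inl ⟨hv, hu, hM⟩)⟩
  loopless := ⟨by
    intro u h
    rcases h with ⟨_, _, hne⟩ | ⟨hu, hv, _⟩ | ⟨hu, hv, _⟩
    · exact hne rfl
    · exact hv hu
    · exact hu hv⟩

theorem ofMat_isSplit (M : {v // v ∈ A} → {v // v ∉ A} → Bool) : IsSplit (ofMat A M) A := by
  constructor
  · intro u hu v hv hne
    exact Or.inl ⟨hu, hv, hne⟩
  · intro u hu v hv h
    rcases h with ⟨hu', _, _⟩ | ⟨hu', _, _⟩ | ⟨_, hv', _⟩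
    · exact hu hu'
    · exact hu hu'
    · exact hv hv'

theorem toMat_ofMat (M : {v // v ∈ A} → {v // v ∉ A} → Bool) : toMat A (ofMat A M) = M := by
  funext i x
  unfold toMat
  have : (ofMat A M).Adj i.1 x.1 ↔ M i x = true := by
    constructor
    · intro h
      rcases h with ⟨_, hx, _⟩ | ⟨_, _, hM⟩ | ⟨hi, _, _⟩
      · exact absurd hx x.2
      · exact hM
      · exact absurd i.2 hi
    · intro h
      exact Or.inr (Or.inl ⟨i.2, x.2, h⟩)
  by_cases hM : M i x = true
  · rw [hM]; simp only [decide_eq_true_eq]; exact this.mpr hM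
  · have hM' : M i x = false := by simpa using hM
    rw [hM']; simp only [decide_eq_false_iff_not]
    intro h; exact hM (this.mp h)

theorem toB_surjective (hall : ∀ G : Omega d, IsSplit G.1 A) (hge : ∀ u ∈ A, A.card - 1 ≤ d u) :
    Function.Surjective (toB hall) := by
  intro M
  have hs := ofMat_isSplit (A := A) M.1
  have hdeg : ∀ v, (ofMat A M.1).degree v = d v := by
    intro v
    by_cases hv : v ∈ A
    · have h1 := row_sum A (ofMat A M.1) hs ⟨v, hv⟩
      rw [toMat_ofMat] at h1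
      have h2 := M.2.1 ⟨v, hv⟩
      have h3 := degree_split (ofMat A M.1) A v
      have h4 := nb_clique (ofMat A M.1) hs v hv
      have h5 := hge v hv
      unfold rowSum at h2
      have h6 : (ofMat A M.1).degree v - (A.card - 1) = d v - (A.card - 1) := by
        rw [← h1, ← h2]
      omega
    · have h1 := col_sum A (ofMat A M.1) hs ⟨v, hv⟩
      rw [toMat_ofMat] at h1
      have h2 := M.2.2 ⟨v, hv⟩
      unfold colSum at h2
      rw [← h1, ← h2]
  refine ⟨⟨ofMat A M.1, hdeg⟩, ?_⟩
  apply Subtype.ext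
  exact toMat_ofMat M.1

theorem swap_cross (G : SimpleGraph V) (i j a : {v // v ∈ A}) (x y b : {v // v ∉ A}) :
    (swap G i.1 x.1 y.1 j.1).Adj a.1 b.1 ↔
      (G.Adj a.1 b.1 ∧ ¬ (a = i ∧ b = x) ∧ ¬ (a = j ∧ b = y)) ∨ (a = i ∧ b = y) ∨ (a = j ∧ b = x) := by
  rw [swap_adj]
  simp only [Sym2.eq_iff, Subtype.ext_iff]
  have e1 : a.1 = x.1 → False := fun h => x.2 (h ▸ a.2)
  have e2 : a.1 = y.1 → False := fun h => y.2 (h ▸ a.2)
  have e3 : b.1 = i.1 → False := fun h => b.2 (h ▸ i.2)
  have e4 : b.1 = j.1 → False := fun h => b.2 (h ▸ j.2)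
  have e5 : a.1 ≠ b.1 := fun h => b.2 (h ▸ a.2)
  tauto

theorem toMat_swap (G : SimpleGraph V) (i j : {v // v ∈ A}) (x y : {v // v ∉ A}) (hij : i ≠ j)
    (hxy : x ≠ y) (h1 : G.Adj i.1 x.1) (h2 : G.Adj j.1 y.1) (h3 : ¬ G.Adj i.1 y.1)
    (h4 : ¬ G.Adj j.1 x.1) :
    toMat A (swap G i.1 x.1 y.1 j.1) = Bip.flip (toMat A G) i j x y := by
  funext a b
  unfold toMat Bip.flip
  have key := swap_cross G i j a x y b
  by_cases hc : (a = i ∨ a = j) ∧ (b = x ∨ b = y)
  · rw [if_pos hc]
    have : (swap G i.1 x.1 y.1 j.1).Adj a.1 b.1 ↔ ¬ G.Adj a.1 b.1 := by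
      rw [key]
      rcases hc with ⟨rfl | rfl, rfl | rfl⟩
      · constructor
        · rintro (⟨_, h, _⟩ | ⟨_, h⟩ | ⟨h, _⟩)
          · exact absurd ⟨rfl, rfl⟩ h
          · exact absurd h hxy
          · exact absurd h hij
        · intro h; exact absurd h1 h
      · constructor
        · intro _; exact h3
        · intro _; exact Or.inr (Or.inl ⟨rfl, rfl⟩)
      · constructor
        · intro _; exact h4
        · intro _; exact Or.inr (Or.inr ⟨rfl, rfl⟩)
      · constructor
        · rintro (⟨_, _, h⟩ | ⟨h, _⟩ | ⟨_, h⟩)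
          · exact absurd ⟨rfl, rfl⟩ h
          · exact absurd h.symm hij
          · exact absurd h.symm hxy
        · intro h; exact absurd h2 h
    by_cases hQ : G.Adj a.1 b.1
    · have : ¬ (swap G i.1 x.1 y.1 j.1).Adj a.1 b.1 := fun h => (this.mp h) hQ
      simp [hQ, this]
    · have : (swap G i.1 x.1 y.1 j.1).Adj a.1 b.1 := this.mpr hQ
      simp [hQ, this]
  · rw [if_neg hc]
    have : (swap G i.1 x.1 y.1 j.1).Adj a.1 b.1 ↔ G.Adj a.1 b.1 := by
      rw [key]
      tauto
    simp only [this]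

theorem toB_switch_iff (hall : ∀ G : Omega d, IsSplit G.1 A) (G G' : Omega d) :
    IsSwitch G.1 G'.1 ↔ BSwitch (toB hall G).1 (toB hall G').1 := by
  constructor
  · rintro ⟨a, b, c, e, hac', hbe', hab, hce, hac, hbe, hG'⟩
    have S := hall G
    have S' := hall G'
    have hae' : a ≠ e := by
      rintro rfl; exact hac hce.symm
    have hbc' : b ≠ c := by
      rintro rfl; exact hac hab
    have hrev := swap_rev_applicable G.1 a b c e hab hce hac hbe hac' hbe'
    rw [← hG'] at hrev
    have m1 : a ∈ A ∨ b ∈ A := by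
      by_contra h
      rw [not_or] at h
      exact S.2 a h.1 b h.2 hab
    have m2 : c ∈ A ∨ e ∈ A := by
      by_contra h
      rw [not_or] at h
      exact S.2 c h.1 e h.2 hce
    have m3 : ¬ (a ∈ A ∧ c ∈ A) := fun h => hac (S.1 a h.1 c h.2 hac')
    have m4 : ¬ (b ∈ A ∧ e ∈ A) := fun h => hbe (S.1 b h.1 e h.2 hbe')
    have m5 : a ∈ A ∨ c ∈ A := by
      by_contra h
      rw [not_or] at h
      exact S'.2 a h.1 c h.2 hrev.1
    have m6 : b ∈ A ∨ e ∈ A := by
      by_contra h
      rw [not_or] at h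
      exact S'.2 b h.1 e h.2 hrev.2.1
    by_cases ha : a ∈ A
    · have hc : c ∉ A := fun h => m3 ⟨ha, h⟩
      have he : e ∈ A := by tauto
      have hb : b ∉ A := fun h => m4 ⟨h, he⟩
      refine ⟨⟨a, ha⟩, ⟨e, he⟩, ⟨b, hb⟩, ⟨c, hc⟩, ?_, ?_, ?_, ?_, ?_, ?_, ?_⟩
      · intro h; exact hae' (congrArg Subtype.val h)
      · intro h; exact hbc' (congrArg Subtype.val h)
      · simp only [toB, toMat, decide_eq_true_eq]; exact hab
      · simp only [toB, toMat, decide_eq_true_eq]; exact hce.symm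
      · simp only [toB, toMat, decide_eq_false_iff_not]; exact hac
      · simp only [toB, toMat, decide_eq_false_iff_not]; exact fun h => hbe h.symm
      · show toMat A G'.1 = Bip.flip (toMat A G.1) ⟨a, ha⟩ ⟨e, he⟩ ⟨b, hb⟩ ⟨c, hc⟩
        rw [hG']
        exact toMat_swap G.1 ⟨a, ha⟩ ⟨e, he⟩ ⟨b, hb⟩ ⟨c, hc⟩
          (fun h => hae' (congrArg Subtype.val h)) (fun h => hbc' (congrArg Subtype.val h))
          hab hce.symm hac (fun h => hbe h.symm)
    · have hb : b ∈ A := by tauto
      have hc : c ∈ A := by tauto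
      have he : e ∉ A := fun h => m4 ⟨hb, h⟩
      refine ⟨⟨b, hb⟩, ⟨c, hc⟩, ⟨a, ha⟩, ⟨e, he⟩, ?_, ?_, ?_, ?_, ?_, ?_, ?_⟩
      · intro h; exact hbc' (congrArg Subtype.val h)
      · intro h; exact hae' (congrArg Subtype.val h)
      · simp only [toB, toMat, decide_eq_true_eq]; exact hab.symm
      · simp only [toB, toMat, decide_eq_true_eq]; exact hce
      · simp only [toB, toMat, decide_eq_false_iff_not]; exact hbe
      · simp only [toB, toMat, decide_eq_false_iff_not]; exact fun h => hac h.symm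
      · show toMat A G'.1 = Bip.flip (toMat A G.1) ⟨b, hb⟩ ⟨c, hc⟩ ⟨a, ha⟩ ⟨e, he⟩
        rw [hG', swap_comm1]
        exact toMat_swap G.1 ⟨b, hb⟩ ⟨c, hc⟩ ⟨a, ha⟩ ⟨e, he⟩
          (fun h => hbc' (congrArg Subtype.val h)) (fun h => hae' (congrArg Subtype.val h))
          hab.symm hce hbe (fun h => hac h.symm)
  · rintro ⟨i, j, x, y, hij, hxy, h1, h2, h3, h4, hM'⟩
    simp only [toB, toMat, decide_eq_true_eq, decide_eq_false_iff_not] at h1 h2 h3 h4
    have hiy : i.1 ≠ y.1 := fun h => y.2 (h ▸ i.2)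
    have hxj : x.1 ≠ j.1 := fun h => x.2 (h ▸ j.2)
    have hsw : IsSwitch G.1 (swap G.1 i.1 x.1 y.1 j.1) :=
      ⟨i.1, x.1, y.1, j.1, hiy, hxj, h1, h2.symm, h3, fun h => h4 h.symm, rfl⟩
    have hdeg : ∀ v, (swap G.1 i.1 x.1 y.1 j.1).degree v = d v := by
      intro v; rw [hsw.degree v]; exact G.2 v
    have heq : toB hall ⟨swap G.1 i.1 x.1 y.1 j.1, hdeg⟩ = toB hall G' := by
      apply Subtype.ext
      show toMat A (swap G.1 i.1 x.1 y.1 j.1) = (toB hall G').1
      rw [hM']
      exact toMat_swap G.1 i j x y hij hxy h1 h2 h3 h4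
    have := toB_injective hall heq
    rw [← this]
    exact hsw

end bridge2

section transfer

open Vale.Agent.H12.Bip

variable {d : V → ℕ} {A : Finset V}

/-- the Poincare inequality of the bipartite class transfers to the realizations of a split
degree function -/
theorem split_poincare (hall : ∀ G : Omega d, IsSplit G.1 A) (hge : ∀ u ∈ A, A.card - 1 ≤ d u)
    (hbip : ∀ f : BOmega (rowSum d A) (colSum d A) → ℝ, ∑ M, f M = 0 →
      2 * ∑ M, f M ^ 2 ≤ ∑ M, f M * lapB (rowSum d A) (colSum d A) f M)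
    (f : Omega d → ℝ) (hf : ∑ G, f G = 0) :
    2 * ∑ G, f G ^ 2 ≤ ∑ G, f G * lapΩ d f G := by
  let E : Omega d ≃ BOmega (rowSum d A) (colSum d A) :=
    Equiv.ofBijective (toB hall) ⟨toB_injective hall, toB_surjective hall hge⟩
  have hE : ∀ G, E G = toB hall G := fun G => rfl
  have h0 : ∑ M, (f ∘ E.symm) M = 0 := by
    rw [← hf]; exact Equiv.sum_comp E.symm f
  have h := hbip (f ∘ E.symm) h0
  have e1 : ∑ M, (f ∘ E.symm) M ^ 2 = ∑ G, f G ^ 2 :=
    Equiv.sum_comp E.symm (fun G => f G ^ 2)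
  have e2 : ∑ M, (f ∘ E.symm) M * lapB (rowSum d A) (colSum d A) (f ∘ E.symm) M
      = ∑ G, f G * lapΩ d f G := by
    rw [← Equiv.sum_comp E]
    refine Finset.sum_congr rfl (fun G _ => ?_)
    simp only [Function.comp, Equiv.symm_apply_apply]
    congr 1
    rw [lapΩ_apply]
    unfold lapB
    rw [← Equiv.sum_comp E]
    refine Finset.sum_congr rfl (fun G' _ => ?_)
    have hiff := toB_switch_iff hall G G'
    by_cases hsw : adjΩ d G G'
    · have : BSwitch (E G).1 (E G').1 := by rw [hE, hE]; exact hiff.mp hsw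
      rw [if_pos this, if_pos hsw]
      simp only [Function.comp_apply, Equiv.symm_apply_apply]
    · have : ¬ BSwitch (E G).1 (E G').1 := by
        rw [hE, hE]; exact fun h => hsw (hiff.mpr h)
      rw [if_neg this, if_neg hsw]
  rw [e1, e2] at h
  exact h

end transfer

/-- Poincare inequality for every degree function with a split realization, from the
Poincare inequality of all bipartite classes -/
theorem split_poincare_of_bip
    (hbip : ∀ (R C : Type) [Fintype R] [DecidableEq R] [Fintype C] [DecidableEq C]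
      (r : R → ℕ) (c : C → ℕ) (f : Bip.BOmega r c → ℝ), ∑ M, f M = 0 →
      2 * ∑ M, f M ^ 2 ≤ ∑ M, f M * Bip.lapB r c f M)
    (d : V → ℕ) (G₀ : Omega d) (A : Finset V) (h₀ : IsSplit G₀.1 A)
    (f : Omega d → ℝ) (hf : ∑ G, f G = 0) :
    2 * ∑ G, f G ^ 2 ≤ ∑ G, f G * lapΩ d f G := by
  have hall : ∀ G : Omega d, IsSplit G.1 A := fun G =>
    isSplit_of_degree_eq G₀.1 G.1 A h₀ (fun v => by rw [G.2 v, G₀.2 v])
  have hge : ∀ u ∈ A, A.card - 1 ≤ d u := by
    intro u hu
    rw [← G₀.2 u, degree_split G₀.1 A u, nb_clique G₀.1 h₀ u hu]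
    omega
  refine split_poincare hall hge ?_ f hf
  intro g hg
  exact @hbip _ _ _ _ _ _ _ _ g hg

/-- **Reduction for split degree sequences.** If every bipartite class satisfies the Poincare
inequality with constant `2` for its switch Laplacian, then for every degree sequence with a
split realization the switch chain mixes within `n^6` steps. -/
theorem mixing_split_of_bip
    (hbip : ∀ (R C : Type) [Fintype R] [DecidableEq R] [Fintype C] [DecidableEq C]
      (r : R → ℕ) (c : C → ℕ) (f : Bip.BOmega r c → ℝ), ∑ M, f M = 0 →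
      2 * ∑ M, f M ^ 2 ≤ ∑ M, f M * Bip.lapB r c f M)
    (n : ℕ) (hn : 4 ≤ n) (d : Fin n → ℕ)
    (hsplit : ∃ (G₀ : Omega d) (A : Finset (Fin n)), IsSplit G₀.1 A) :
    ∃ t ≤ n ^ 6, ∀ G : Omega d,
      (1 / 2 : ℝ) * ∑ G', |(kernel d ^ t) G G' - 1 / (Fintype.card (Omega d) : ℝ)| ≤ 1 / 4 := by
  obtain ⟨G₀, A, h₀⟩ := hsplit
  exact mixing_of_poincare n hn d (split_poincare_of_bip hbip d G₀ A h₀)

end Vale.Agent.H12.Switch
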