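import Vale.Agent.H12.SwitchConn
import Vale.Agent.H12.MixCore
import Vale.Agent.H12.GapCore

/-!
The lazy switch chain on the realizations of a degree function, and the
reduction of polynomial mixing to an operator inequality for the Laplacian
of the realization graph.
-/

namespace Vale.Agent.H12.Switch

open Finset SimpleGraph
open scoped Classical

variable {V : Type} [Fintype V]

/-- the switch relation on `Omega d` -/
def adjΩ (d : V → ℕ) (G G' : Omega d) : Prop := IsSwitch G.1 G'.1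

noncomputable instance instDecAdjΩ (d : V → ℕ) : DecidableRel (adjΩ d) := Classical.decRel _

/-- Laplacian of the realization graph (vertices `Omega d`, edges = switches) -/
noncomputable def lapΩ (d : V → ℕ) (f : Omega d → ℝ) (G : Omega d) : ℝ :=
  GapCore.lap (adjΩ d) f G

theorem lapΩ_apply (d : V → ℕ) [inst : DecidableRel (adjΩ d)] (f : Omega d → ℝ) (G : Omega d) :
    lapΩ d f G = ∑ G' : Omega d, if adjΩ d G G' then f G - f G' else 0 := by
  unfold lapΩ GapCore.lap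
  refine Finset.sum_congr rfl (fun G' _ => ?_)
  by_cases h : adjΩ d G G' <;> simp [h]

theorem adjΩ_symm (d : V → ℕ) (G G' : Omega d) (h : adjΩ d G G') : adjΩ d G' G :=
  IsSwitch.symm h

theorem adjΩ_connected (d : V → ℕ) (G G' : Omega d) : Relation.ReflTransGen (adjΩ d) G G' := by
  have key : ∀ (A B : SimpleGraph V), Relation.ReflTransGen IsSwitch A B →
      ∀ hA : (∀ i, A.degree i = d i), ∃ hB : (∀ i, B.degree i = d i),
        Relation.ReflTransGen (adjΩ d) ⟨A, hA⟩ ⟨B, hB⟩ := by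
    intro A B h
    induction h with
    | refl => intro hA; exact ⟨hA, Relation.ReflTransGen.refl⟩
    | tail _ hbc ih =>
      intro hA
      obtain ⟨hB, hr⟩ := ih hA
      refine ⟨fun i => by rw [hbc.degree i]; exact hB i, ?_⟩
      exact Relation.ReflTransGen.tail hr hbc
  have hconn : Relation.ReflTransGen IsSwitch G.1 G'.1 :=
    switch_connected G.1 G'.1 (fun v => by rw [G.2 v, G'.2 v])
  obtain ⟨_, hr⟩ := key G.1 G'.1 hconn G.2
  exact hr

theorem propose_degree (G : SimpleGraph V) (t : Fin 4 ↪ V) (i : V) :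
    (propose G t).degree i = G.degree i := by
  by_cases h : G.Adj (t 0) (t 1) ∧ G.Adj (t 2) (t 3) ∧ ¬ G.Adj (t 0) (t 2) ∧ ¬ G.Adj (t 1) (t 3)
  · have e : propose G t = swap G (t 0) (t 1) (t 2) (t 3) := if_pos h
    rw [e]
    exact swap_degree G _ _ _ _ h.1 h.2.1 h.2.2.1 h.2.2.2
      (t.injective.ne (by decide)) (t.injective.ne (by decide)) i
  · have e : propose G t = G := if_neg h
    rw [e]

/-- the proposal map on `Omega d` -/
noncomputable def proposeΩ (d : V → ℕ) (G : Omega d) (t : Fin 4 ↪ V) : Omega d :=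
  ⟨propose G.1 t, fun i => by rw [propose_degree]; exact G.2 i⟩

/-- the non-lazy proposal kernel -/
noncomputable def K (d : V → ℕ) : Matrix (Omega d) (Omega d) ℝ :=
  fun G G' => ((univ.filter (fun t : Fin 4 ↪ V => propose G.1 t = G'.1)).card : ℝ)
        / (Fintype.card (Fin 4 ↪ V) : ℝ)

theorem kernel_eq (d : V → ℕ) : kernel d = MixCore.lazy (K d) := by
  ext G G'
  rw [MixCore.lazy]
  simp only [Matrix.smul_apply, Matrix.add_apply, Matrix.one_apply, smul_eq_mul]
  unfold kernel K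
  by_cases h : G = G'
  · simp only [h, if_true]; ring
  · simp only [h, if_false]; ring

theorem K_nonneg (d : V → ℕ) (G G' : Omega d) : 0 ≤ K d G G' := by
  unfold K; positivity

theorem K_row (d : V → ℕ) (hN : 0 < Fintype.card (Fin 4 ↪ V)) (G : Omega d) :
    ∑ G', K d G G' = 1 := by
  unfold K
  rw [← Finset.sum_div]
  have h : ∑ G' : Omega d, ((univ.filter (fun t : Fin 4 ↪ V => propose G.1 t = G'.1)).card : ℝ)
      = (Fintype.card (Fin 4 ↪ V) : ℝ) := by
    rw [← Nat.cast_sum]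
    congr 1
    have h1 := Finset.card_eq_sum_card_fiberwise (f := proposeΩ d G)
      (s := (univ : Finset (Fin 4 ↪ V))) (t := (univ : Finset (Omega d)))
      (fun t _ => Finset.mem_univ _)
    rw [Finset.card_univ] at h1
    rw [h1]
    refine Finset.sum_congr rfl (fun G' _ => ?_)
    congr 1
    ext t
    simp only [mem_filter, mem_univ, true_and]
    unfold proposeΩ
    constructor
    · intro h; exact Subtype.ext h
    · intro h; exact congrArg Subtype.val h
  rw [h]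
  have : (0 : ℝ) < Fintype.card (Fin 4 ↪ V) := by exact_mod_cast hN
  field_simp

/-- exchange the two middle entries of a proposal -/
def tau (t : Fin 4 ↪ V) : Fin 4 ↪ V := (Equiv.swap (1 : Fin 4) 2).toEmbedding.trans t

theorem tau_apply0 (t : Fin 4 ↪ V) : tau t 0 = t 0 := by
  have : (Equiv.swap (1 : Fin 4) 2) 0 = 0 := by decide
  simp [tau, this]

theorem tau_apply1 (t : Fin 4 ↪ V) : tau t 1 = t 2 := by
  simp [tau]

theorem tau_apply2 (t : Fin 4 ↪ V) : tau t 2 = t 1 := by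
  simp [tau]

theorem tau_apply3 (t : Fin 4 ↪ V) : tau t 3 = t 3 := by
  have : (Equiv.swap (1 : Fin 4) 2) 3 = 3 := by decide
  simp [tau, this]

theorem tau_tau (t : Fin 4 ↪ V) : tau (tau t) = t := by
  ext i
  simp [tau]

theorem propose_rev (G G' : SimpleGraph V) (t : Fin 4 ↪ V) (h : propose G t = G')
    (hne : G' ≠ G) : propose G' (tau t) = G := by
  by_cases happ : G.Adj (t 0) (t 1) ∧ G.Adj (t 2) (t 3) ∧ ¬ G.Adj (t 0) (t 2) ∧ ¬ G.Adj (t 1) (t 3)
  · have e : propose G t = swap G (t 0) (t 1) (t 2) (t 3) := if_pos happ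
    rw [e] at h
    subst h
    have h02 : t 0 ≠ t 2 := t.injective.ne (by decide)
    have h13 : t 1 ≠ t 3 := t.injective.ne (by decide)
    have hrev := swap_rev_applicable G (t 0) (t 1) (t 2) (t 3) happ.1 happ.2.1 happ.2.2.1
      happ.2.2.2 h02 h13
    have e2 : propose (swap G (t 0) (t 1) (t 2) (t 3)) (tau t)
        = swap (swap G (t 0) (t 1) (t 2) (t 3)) (t 0) (t 2) (t 1) (t 3) := by
      unfold propose
      rw [tau_apply0, tau_apply1, tau_apply2, tau_apply3]
      exact if_pos hrev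
    rw [e2]
    exact swap_swap G _ _ _ _ happ.1 happ.2.1 happ.2.2.1 happ.2.2.2 h02 h13
  · have e : propose G t = G := if_neg happ
    rw [e] at h
    exact absurd h.symm hne

theorem card_propose_le (G G' : SimpleGraph V) (hne : G' ≠ G) :
    (univ.filter (fun t : Fin 4 ↪ V => propose G t = G')).card
      ≤ (univ.filter (fun t : Fin 4 ↪ V => propose G' t = G)).card := by
  apply Finset.card_le_card_of_injOn tau
  · intro t ht
    simp only [coe_filter, mem_univ, true_and, Set.mem_ofPred_eq] at ht ⊢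
    exact propose_rev G G' t ht hne
  · intro t _ t' _ htt
    have := congrArg tau htt
    simpa [tau_tau] using this

theorem K_symm (d : V → ℕ) (G G' : Omega d) : K d G G' = K d G' G := by
  by_cases h : G = G'
  · rw [h]
  · unfold K
    have h1 : G'.1 ≠ G.1 := fun h' => h (Subtype.ext h'.symm)
    have h2 : G.1 ≠ G'.1 := fun h' => h (Subtype.ext h')
    have := le_antisymm (card_propose_le G.1 G'.1 h1) (card_propose_le G'.1 G.1 h2)
    rw [this]

theorem K_ge (d : V → ℕ) (G G' : Omega d) (h : adjΩ d G G') :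
    1 / (Fintype.card (Fin 4 ↪ V) : ℝ) ≤ K d G G' := by
  obtain ⟨a, b, c, e, hac', hbe', hab, hce, hac, hbe, hG'⟩ := h
  have hab' : a ≠ b := hab.ne
  have hce' : c ≠ e := hce.ne
  have hae' : a ≠ e := by
    rintro rfl; exact hac hce.symm
  have hbc' : b ≠ c := by
    rintro rfl; exact hac hab
  let t : Fin 4 ↪ V := ⟨![a, b, c, e], by
    intro i j hij
    fin_cases i <;> fin_cases j <;> simp_all⟩
  have ht : propose G.1 t = G'.1 := by
    unfold propose
    have happ : G.1.Adj (t 0) (t 1) ∧ G.1.Adj (t 2) (t 3) ∧ ¬ G.1.Adj (t 0) (t 2)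
        ∧ ¬ G.1.Adj (t 1) (t 3) := ⟨hab, hce, hac, hbe⟩
    rw [if_pos happ]
    exact hG'.symm
  unfold K
  have hpos : 0 < (univ.filter (fun t : Fin 4 ↪ V => propose G.1 t = G'.1)).card :=
    Finset.card_pos.mpr ⟨t, by simp [ht]⟩
  have h1 : (1 : ℝ) ≤ ((univ.filter (fun t : Fin 4 ↪ V => propose G.1 t = G'.1)).card : ℝ) := by
    exact_mod_cast hpos
  exact div_le_div_of_nonneg_right h1 (Nat.cast_nonneg _)

theorem K_poincare (d : V → ℕ) (κ : ℝ)
    (hP : ∀ f : Omega d → ℝ, ∑ G, f G = 0 → κ * ∑ G, f G ^ 2 ≤ ∑ G, f G * lapΩ d f G)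
    (f : Omega d → ℝ) (hf : ∑ G, f G = 0) :
    (κ / (Fintype.card (Fin 4 ↪ V) : ℝ)) * ∑ G, f G ^ 2
      ≤ (1 / 2 : ℝ) * ∑ G, ∑ G', K d G G' * (f G - f G') ^ 2 := by
  have h1 := hP f hf
  have h2 : ∑ G, f G * lapΩ d f G
      = (1 / 2 : ℝ) * ∑ G, ∑ G', if adjΩ d G G' then (f G - f G') ^ 2 else 0 :=
    GapCore.inner_lap_self (adjΩ d) (adjΩ_symm d) f
  set N : ℝ := (Fintype.card (Fin 4 ↪ V) : ℝ) with hN
  have hN0 : 0 ≤ N := Nat.cast_nonneg _
  have h3 : ∑ G, ∑ G', (if adjΩ d G G' then (f G - f G') ^ 2 else 0) / N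
      ≤ ∑ G, ∑ G', K d G G' * (f G - f G') ^ 2 := by
    apply Finset.sum_le_sum; intro G _
    apply Finset.sum_le_sum; intro G' _
    by_cases h : adjΩ d G G'
    · simp only [h, if_true]
      have := K_ge d G G' h
      calc (f G - f G') ^ 2 / N = (1 / N) * (f G - f G') ^ 2 := by ring
        _ ≤ K d G G' * (f G - f G') ^ 2 := mul_le_mul_of_nonneg_right this (sq_nonneg _)
    · simp only [h, if_false, zero_div]
      exact mul_nonneg (K_nonneg d G G') (sq_nonneg _)
  have h4 : ∑ G, ∑ G', (if adjΩ d G G' then (f G - f G') ^ 2 else 0) / N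
      = (∑ G, ∑ G', if adjΩ d G G' then (f G - f G') ^ 2 else 0) / N := by
    rw [Finset.sum_div]
    refine Finset.sum_congr rfl (fun G _ => ?_)
    rw [Finset.sum_div]
  rw [h4] at h3
  rw [h2] at h1
  calc κ / N * ∑ G, f G ^ 2 = (κ * ∑ G, f G ^ 2) / N := by ring
    _ ≤ ((1 / 2 : ℝ) * ∑ G, ∑ G', if adjΩ d G G' then (f G - f G') ^ 2 else 0) / N :=
        div_le_div_of_nonneg_right h1 hN0
    _ = (1 / 2 : ℝ) * ((∑ G, ∑ G', if adjΩ d G G' then (f G - f G') ^ 2 else 0) / N) := by ring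
    _ ≤ (1 / 2 : ℝ) * ∑ G, ∑ G', K d G G' * (f G - f G') ^ 2 :=
        mul_le_mul_of_nonneg_left h3 (by norm_num)

/-- L1 distance to uniform of the lazy switch chain, given a Poincare inequality for the
realization graph. -/
theorem l1_bound_of_poincare (d : V → ℕ) (hN : 0 < Fintype.card (Fin 4 ↪ V)) (κ : ℝ)
    (hκ : κ ≤ 2 * (Fintype.card (Fin 4 ↪ V) : ℝ))
    (hP : ∀ f : Omega d → ℝ, ∑ G, f G = 0 → κ * ∑ G, f G ^ 2 ≤ ∑ G, f G * lapΩ d f G)
    (t : ℕ) (G : Omega d) :
    (∑ G', |(kernel d ^ t) G G' - 1 / (Fintype.card (Omega d) : ℝ)|) ^ 2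
      ≤ (Fintype.card (Omega d) : ℝ) * (1 - κ / (2 * (Fintype.card (Fin 4 ↪ V) : ℝ))) ^ t := by
  rw [kernel_eq]
  have hNr : (0 : ℝ) < Fintype.card (Fin 4 ↪ V) := by exact_mod_cast hN
  have hγ : κ / (Fintype.card (Fin 4 ↪ V) : ℝ) ≤ 2 := by
    rw [div_le_iff₀ hNr]; exact hκ
  have := MixCore.l1_bound (K d) (K_symm d) (K_nonneg d) (K_row d hN)
    (κ / (Fintype.card (Fin 4 ↪ V) : ℝ)) hγ (K_poincare d κ hP) t G
  have e : (1 - κ / (Fintype.card (Fin 4 ↪ V) : ℝ) / 2)
      = (1 - κ / (2 * (Fintype.card (Fin 4 ↪ V) : ℝ))) := by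
    field_simp
  rw [e] at this
  exact this

theorem card_Omega_le (n : ℕ) (d : Fin n → ℕ) : Fintype.card (Omega d) ≤ 2 ^ (n * n) := by
  have hinj : Function.Injective
      (fun (G : Omega d) (p : Fin n × Fin n) => decide (G.1.Adj p.1 p.2)) := by
    intro G G' h
    apply Subtype.ext
    ext a b
    have := congrFun h (a, b)
    simpa using this
  have := Fintype.card_le_of_injective _ hinj
  simpa using this

theorem descFactorial_bound (n : ℕ) (hn : 4 ≤ n) : n.descFactorial 4 * (n * n + 2) ≤ n ^ 6 := by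
  obtain ⟨m, rfl⟩ : ∃ m, n = m + 4 := ⟨n - 4, by omega⟩
  have e : (m + 4).descFactorial 4 = (m + 1) * (m + 2) * (m + 3) * (m + 4) := by
    simp only [Nat.descFactorial]
    have h1 : m + 4 - 3 = m + 1 := by omega
    have h2 : m + 4 - 2 = m + 2 := by omega
    have h3 : m + 4 - 1 = m + 3 := by omega
    have h4 : m + 4 - 0 = m + 4 := by omega
    rw [h1, h2, h3, h4]
    ring
  rw [e]
  have key : (m + 1) * (m + 2) * (m + 3) * (m + 4) * ((m + 4) * (m + 4) + 2)
      + (m + 4) * (6 * m ^ 4 + 83 * m ^ 3 + 438 * m ^ 2 + 1034 * m + 916) = (m + 4) ^ 6 := by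
    ring
  omega

theorem pow_bound (N m : ℕ) (hN : 0 < N) :
    (1 - 1 / (N : ℝ)) ^ (N * m) ≤ (1 / 2 : ℝ) ^ m := by
  have hNr : (1 : ℝ) ≤ N := by exact_mod_cast hN
  have hb : (0 : ℝ) ≤ 1 - 1 / (N : ℝ) := by
    have : 1 / (N : ℝ) ≤ 1 := by
      rw [div_le_one (by linarith)]; exact hNr
    linarith
  have h1 : (1 - 1 / (N : ℝ)) ^ N ≤ 1 / 2 := by
    have h2 : 1 - 1 / (N : ℝ) ≤ Real.exp (-(1 / (N : ℝ))) := Real.one_sub_le_exp_neg _
    have h3 : (1 - 1 / (N : ℝ)) ^ N ≤ Real.exp (-(1 / (N : ℝ))) ^ N :=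
      pow_le_pow_left₀ hb h2 N
    have h4 : Real.exp (-(1 / (N : ℝ))) ^ N = Real.exp (-1) := by
      rw [← Real.exp_nat_mul]
      congr 1
      field_simp
    have h5 : Real.exp (-1) ≤ 1 / 2 := by
      rw [Real.exp_neg]
      have : (2 : ℝ) ≤ Real.exp 1 := by
        have := Real.add_one_le_exp (1 : ℝ)
        linarith
      rw [one_div]
      exact inv_anti₀ (by norm_num) this
    linarith
  rw [pow_mul]
  exact pow_le_pow_left₀ (pow_nonneg hb N) h1 m

/-- **Reduction.** If the realization graph of `d` satisfies the Poincare inequality with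
constant `2`, the lazy switch chain is within total variation distance `1/4` of uniform
after at most `n^6` steps. -/
theorem mixing_of_poincare (n : ℕ) (hn : 4 ≤ n) (d : Fin n → ℕ)
    (hP : ∀ f : Omega d → ℝ, ∑ G, f G = 0 → 2 * ∑ G, f G ^ 2 ≤ ∑ G, f G * lapΩ d f G) :
    ∃ t ≤ n ^ 6, ∀ G : Omega d,
      (1 / 2 : ℝ) * ∑ G', |(kernel d ^ t) G G' - 1 / (Fintype.card (Omega d) : ℝ)| ≤ 1 / 4 := by
  have hNeq : Fintype.card (Fin 4 ↪ Fin n) = n.descFactorial 4 := by
    rw [Fintype.card_embedding_eq]; simp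
  have hNpos : 0 < Fintype.card (Fin 4 ↪ Fin n) := by
    rw [hNeq]
    exact Nat.pos_of_ne_zero (fun h => by
      rw [Nat.descFactorial_eq_zero_iff_lt] at h; omega)
  refine ⟨Fintype.card (Fin 4 ↪ Fin n) * (n * n + 2), ?_, ?_⟩
  · rw [hNeq]; exact descFactorial_bound n hn
  · intro G
    have hNr : (1 : ℝ) ≤ (Fintype.card (Fin 4 ↪ Fin n) : ℝ) := by exact_mod_cast hNpos
    have h := l1_bound_of_poincare d hNpos 2 (by linarith) hP
      (Fintype.card (Fin 4 ↪ Fin n) * (n * n + 2)) G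
    have e : (1 - 2 / (2 * (Fintype.card (Fin 4 ↪ Fin n) : ℝ)))
        = 1 - 1 / (Fintype.card (Fin 4 ↪ Fin n) : ℝ) := by
      field_simp
    rw [e] at h
    have hp := pow_bound (Fintype.card (Fin 4 ↪ Fin n)) (n * n + 2) hNpos
    have hc : (Fintype.card (Omega d) : ℝ) ≤ (2 : ℝ) ^ (n * n) := by
      exact_mod_cast card_Omega_le n d
    set S := ∑ G', |(kernel d ^ (Fintype.card (Fin 4 ↪ Fin n) * (n * n + 2))) G G'
      - 1 / (Fintype.card (Omega d) : ℝ)| with hS
    have hS0 : 0 ≤ S := Finset.sum_nonneg (fun _ _ => abs_nonneg _)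
    have hpn : (0 : ℝ) ≤ (1 - 1 / (Fintype.card (Fin 4 ↪ Fin n) : ℝ))
        ^ (Fintype.card (Fin 4 ↪ Fin n) * (n * n + 2)) := by
      apply pow_nonneg
      have : 1 / (Fintype.card (Fin 4 ↪ Fin n) : ℝ) ≤ 1 := by
        rw [div_le_one (by linarith)]; exact hNr
      linarith
    have h2 : S ^ 2 ≤ (2 : ℝ) ^ (n * n) * (1 / 2 : ℝ) ^ (n * n + 2) := by
      calc S ^ 2 ≤ (Fintype.card (Omega d) : ℝ) * (1 - 1 / (Fintype.card (Fin 4 ↪ Fin n) : ℝ))
            ^ (Fintype.card (Fin 4 ↪ Fin n) * (n * n + 2)) := h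
        _ ≤ (2 : ℝ) ^ (n * n) * (1 - 1 / (Fintype.card (Fin 4 ↪ Fin n) : ℝ))
            ^ (Fintype.card (Fin 4 ↪ Fin n) * (n * n + 2)) :=
            mul_le_mul_of_nonneg_right hc hpn
        _ ≤ (2 : ℝ) ^ (n * n) * (1 / 2 : ℝ) ^ (n * n + 2) :=
            mul_le_mul_of_nonneg_left hp (by positivity)
    have h3 : (2 : ℝ) ^ (n * n) * (1 / 2 : ℝ) ^ (n * n + 2) = 1 / 4 := by
      rw [pow_add, ← mul_assoc, ← mul_pow]
      norm_num
    rw [h3] at h2
    nlinarith

/-- **Reduction, operator form.** If the Laplacian `L` of the realization graph of `d`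
satisfies `2 L ≤ L^2` (as quadratic forms), the switch chain mixes within `n^6` steps. -/
theorem mixing_of_sq (n : ℕ) (hn : 4 ≤ n) (d : Fin n → ℕ)
    (hsq : ∀ h : Omega d → ℝ, 2 * ∑ G, h G * lapΩ d h G ≤ ∑ G, lapΩ d h G ^ 2) :
    ∃ t ≤ n ^ 6, ∀ G : Omega d,
      (1 / 2 : ℝ) * ∑ G', |(kernel d ^ t) G G' - 1 / (Fintype.card (Omega d) : ℝ)| ≤ 1 / 4 :=
  mixing_of_poincare n hn d
    (GapCore.poincare_of_sq (adjΩ d) (adjΩ_symm d) (adjΩ_connected d) 2 (by norm_num) hsq)

end Vale.Agent.H12.Switch
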