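import Vale.Agent.H12.SwitchDefs

/-!
Switches on simple graphs: definition, reversibility, invariance of degrees,
and connectivity of the set of realizations of a degree function under switches.
-/

namespace Vale.Agent.H12.Switch

open Finset SimpleGraph
open scoped Classical

variable {V : Type*}

theorem swap_adj (G : SimpleGraph V) (a b c e u v : V) :
    (swap G a b c e).Adj u v ↔
      (G.Adj u v ∧ ¬ ((s(u, v) = s(a, b) ∨ s(u, v) = s(c, e)) ∧ u ≠ v)) ∨
        ((s(u, v) = s(a, c) ∨ s(u, v) = s(b, e)) ∧ u ≠ v) := by
  unfold swap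
  simp only [sup_adj, sdiff_adj, fromEdgeSet_adj, Set.mem_insert_iff, Set.mem_singleton_iff]

/-- `G'` arises from `G` by one switch -/
def IsSwitch (G G' : SimpleGraph V) : Prop :=
  ∃ a b c e : V, a ≠ c ∧ b ≠ e ∧ G.Adj a b ∧ G.Adj c e ∧ ¬ G.Adj a c ∧ ¬ G.Adj b e ∧
    G' = swap G a b c e

theorem swap_swap (G : SimpleGraph V) (a b c e : V) (hab : G.Adj a b) (hce : G.Adj c e)
    (hac : ¬ G.Adj a c) (hbe : ¬ G.Adj b e) (hac' : a ≠ c) (hbe' : b ≠ e) :
    swap (swap G a b c e) a c b e = G := by
  ext u v
  rw [swap_adj, swap_adj]
  have h1 : s(u, v) = s(a, b) → G.Adj u v := by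
    intro h
    rw [← mem_edgeSet, h, mem_edgeSet]; exact hab
  have h2 : s(u, v) = s(c, e) → G.Adj u v := by
    intro h
    rw [← mem_edgeSet, h, mem_edgeSet]; exact hce
  have h3 : s(u, v) = s(a, c) → ¬ G.Adj u v := by
    intro h
    rw [← mem_edgeSet, h, mem_edgeSet]; exact hac
  have h4 : s(u, v) = s(b, e) → ¬ G.Adj u v := by
    intro h
    rw [← mem_edgeSet, h, mem_edgeSet]; exact hbe
  have h5 : G.Adj u v → u ≠ v := fun h => h.ne
  tauto

theorem IsSwitch.symm {G G' : SimpleGraph V} (h : IsSwitch G G') : IsSwitch G' G := by
  obtain ⟨a, b, c, e, hac', hbe', hab, hce, hac, hbe, rfl⟩ := h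
  have hab' : a ≠ b := hab.ne
  have hce' : c ≠ e := hce.ne
  have hae' : a ≠ e := by
    rintro rfl; exact hac hce.symm
  have hbc' : b ≠ c := by
    rintro rfl; exact hac hab
  refine ⟨a, c, b, e, hab', hce', ?_, ?_, ?_, ?_, (swap_swap G a b c e hab hce hac hbe hac' hbe').symm⟩
  · rw [swap_adj]; right; exact ⟨Or.inl rfl, hac'⟩
  · rw [swap_adj]; right; exact ⟨Or.inr rfl, hbe'⟩
  · rw [swap_adj]
    simp only [Sym2.eq_iff]
    tauto
  · rw [swap_adj]
    simp only [Sym2.eq_iff]
    tauto

/-- number of neighbours of `v` inside `A` -/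
noncomputable def nb (G : SimpleGraph V) (A : Finset V) (v : V) : ℕ :=
  (A.filter (fun u => G.Adj v u)).card

theorem nb_swap_first (G : SimpleGraph V) (A : Finset V) (a b c e : V)
    (hab : G.Adj a b) (hce : G.Adj c e) (hac : ¬ G.Adj a c) (hbe : ¬ G.Adj b e)
    (hac' : a ≠ c) (hbe' : b ≠ e) (hb : b ∈ A) (hc : c ∈ A) :
    nb (swap G a b c e) A a = nb G A a := by
  have hab' : a ≠ b := hab.ne
  have hce' : c ≠ e := hce.ne
  have hae' : a ≠ e := by
    rintro rfl; exact hac hce.symm
  have hbc' : b ≠ c := by
    rintro rfl; exact hac hab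
  unfold nb
  have key : A.filter (fun u => (swap G a b c e).Adj a u)
      = insert c ((A.filter (fun u => G.Adj a u)).erase b) := by
    ext u
    simp only [mem_filter, mem_insert, mem_erase, swap_adj, Sym2.eq_iff]
    by_cases h1 : u = c
    · subst h1; simp [hc, hac']
    · by_cases h2 : u = b
      · subst h2; simp [hab', hb, h1, hae', hbe', hac']
      · have h3 : G.Adj a u → a ≠ u := fun h => h.ne
        tauto
  rw [key, Finset.card_insert_of_notMem, Finset.card_erase_of_mem]
  · have : 0 < (A.filter (fun u => G.Adj a u)).card :=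
      Finset.card_pos.mpr ⟨b, by simp [hb, hab]⟩
    omega
  · simp [hb, hab]
  · simp [hac, hbc'.symm]

theorem swap_comm1 (G : SimpleGraph V) (a b c e : V) : swap G a b c e = swap G b a e c := by
  unfold swap
  rw [Sym2.eq_swap (a := a) (b := b), Sym2.eq_swap (a := c) (b := e),
    Set.pair_comm s(a, c) s(b, e)]

theorem swap_comm2 (G : SimpleGraph V) (a b c e : V) : swap G a b c e = swap G c e a b := by
  unfold swap
  rw [Set.pair_comm s(a, b) s(c, e), Sym2.eq_swap (a := a) (b := c),
    Sym2.eq_swap (a := b) (b := e)]

theorem swap_comm3 (G : SimpleGraph V) (a b c e : V) : swap G a b c e = swap G e c b a := by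
  rw [swap_comm1, swap_comm2]

theorem swap_adj_other (G : SimpleGraph V) (a b c e u v : V)
    (h : s(u, v) ≠ s(a, b) ∧ s(u, v) ≠ s(c, e) ∧ s(u, v) ≠ s(a, c) ∧ s(u, v) ≠ s(b, e)) :
    (swap G a b c e).Adj u v ↔ G.Adj u v := by
  rw [swap_adj]
  tauto

theorem nb_swap (G : SimpleGraph V) (A : Finset V) (a b c e : V)
    (hab : G.Adj a b) (hce : G.Adj c e) (hac : ¬ G.Adj a c) (hbe : ¬ G.Adj b e)
    (hac' : a ≠ c) (hbe' : b ≠ e) (ha : a ∈ A) (hb : b ∈ A) (hc : c ∈ A) (he : e ∈ A) (v : V) :
    nb (swap G a b c e) A v = nb G A v := by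
  by_cases h1 : v = a
  · subst h1
    exact nb_swap_first G A v b c e hab hce hac hbe hac' hbe' hb hc
  by_cases h2 : v = b
  · subst h2
    rw [swap_comm1]
    exact nb_swap_first G A v a e c hab.symm hce.symm hbe hac hbe' hac' ha he
  by_cases h3 : v = c
  · subst h3
    rw [swap_comm2]
    exact nb_swap_first G A v e a b hce hab (fun h => hac h.symm) (fun h => hbe h.symm)
      hac'.symm hbe'.symm he ha
  by_cases h4 : v = e
  · subst h4
    rw [swap_comm3]
    exact nb_swap_first G A v c b a hce.symm hab.symm (fun h => hbe h.symm) (fun h => hac h.symm)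
      hbe'.symm hac'.symm hc hb
  unfold nb
  congr 1
  ext u
  simp only [mem_filter]
  rw [swap_adj_other]
  simp only [ne_eq, Sym2.eq_iff]
  tauto

/-- vertices of `A` at which `G` and `H` disagree about adjacency to `w` -/
noncomputable def dis (G H : SimpleGraph V) (A : Finset V) (w : V) : Finset V :=
  A.filter (fun v => ¬ (G.Adj w v ↔ H.Adj w v))

theorem dis_comm (G H : SimpleGraph V) (A : Finset V) (w : V) : dis G H A w = dis H G A w := by
  unfold dis
  congr 1
  funext v
  rw [iff_comm]

/-- `G` and `H` differ only inside `A` and have the same numbers of neighbours inside `A` -/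
def Agree (G H : SimpleGraph V) (A : Finset V) : Prop :=
  (∀ u v, ¬ (G.Adj u v ↔ H.Adj u v) → u ∈ A ∧ v ∈ A) ∧ ∀ v ∈ A, nb G A v = nb H A v

theorem Agree.symm {G H : SimpleGraph V} {A : Finset V} (h : Agree G H A) : Agree H G A :=
  ⟨fun u v huv => h.1 u v (fun h' => huv h'.symm), fun v hv => (h.2 v hv).symm⟩

theorem step (G H : SimpleGraph V) (A : Finset V) (hA : Agree G H A) (w z x : V)
    (hz : z ∈ A) (hx : x ∈ A) (hw : w ∈ A)
    (hwz : G.Adj w z) (hwz' : ¬ H.Adj w z) (hwx : ¬ G.Adj w x) (hwx' : H.Adj w x)
    (hle : nb G A z ≤ nb G A x) :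
    ∃ G₁, IsSwitch G G₁ ∧ Agree G₁ H A ∧ dis G₁ H A w ⊂ dis G H A w := by
  have hzx : z ≠ x := by rintro rfl; exact hwx hwz
  have hwz0 : w ≠ z := hwz.ne
  have hwx0 : w ≠ x := hwx'.ne
  -- find y
  have hy : ∃ y ∈ A, G.Adj x y ∧ ¬ G.Adj z y ∧ y ≠ z := by
    set Nx := (A.filter (fun u => G.Adj x u)).erase z with hNx
    set Nz := (A.filter (fun u => G.Adj z u)).erase x with hNz
    have hcard : Nz.card ≤ Nx.card := by
      unfold nb at hle
      by_cases hxz : G.Adj x z
      · have h1 : z ∈ A.filter (fun u => G.Adj x u) := by simp [hz, hxz]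
        have h2 : x ∈ A.filter (fun u => G.Adj z u) := by simp [hx, hxz.symm]
        rw [hNx, hNz, Finset.card_erase_of_mem h1, Finset.card_erase_of_mem h2]
        omega
      · have h1 : z ∉ A.filter (fun u => G.Adj x u) := by simp [hxz]
        have h2 : x ∉ A.filter (fun u => G.Adj z u) := by
          simp only [mem_filter, not_and]
          intro _ h
          exact hxz h.symm
        rw [hNx, hNz, Finset.erase_eq_of_notMem h1, Finset.erase_eq_of_notMem h2]
        exact hle
    have hwNz : w ∈ Nz := by
      rw [hNz]; simp [hw, hwz.symm, hwx0]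
    have hwNx : w ∉ Nx := by
      rw [hNx]
      simp only [mem_erase, mem_filter, not_and]
      intro _ _ h
      exact hwx h.symm
    by_contra hcon
    have hsub : Nx ⊆ Nz := by
      intro y hy
      by_contra hyz
      apply hcon
      rw [hNx] at hy
      simp only [mem_erase, mem_filter] at hy
      refine ⟨y, hy.2.1, hy.2.2, ?_, hy.1⟩
      intro hzy
      apply hyz
      rw [hNz]
      simp only [mem_erase, mem_filter]
      exact ⟨fun h => hy.2.2.ne h.symm, hy.2.1, hzy⟩
    have := Finset.eq_of_subset_of_card_le hsub hcard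
    rw [this] at hwNx
    exact hwNx hwNz
  obtain ⟨y, hyA, hxy, hzy, hyz⟩ := hy
  have hxy0 : x ≠ y := hxy.ne
  have hwy0 : w ≠ y := by
    rintro rfl; exact hwx hxy.symm
  refine ⟨swap G w z x y, ⟨w, z, x, y, hwx0, hyz.symm, hwz, hxy, hwx, hzy, rfl⟩, ⟨?_, ?_⟩, ?_⟩
  · intro u v huv
    by_cases hG : G.Adj u v ↔ H.Adj u v
    · have hne : ¬ ((swap G w z x y).Adj u v ↔ G.Adj u v) := by
        intro h; exact huv (h.trans hG)
      have : ¬ (s(u, v) ≠ s(w, z) ∧ s(u, v) ≠ s(x, y) ∧ s(u, v) ≠ s(w, x) ∧ s(u, v) ≠ s(z, y)) :=
        fun h => hne (swap_adj_other G w z x y u v h)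
      simp only [ne_eq, Sym2.eq_iff] at this
      have h4 : (u = w ∨ u = z ∨ u = x ∨ u = y) ∧ (v = w ∨ v = z ∨ v = x ∨ v = y) := by tauto
      constructor
      · rcases h4.1 with h | h | h | h <;> rw [h] <;> assumption
      · rcases h4.2 with h | h | h | h <;> rw [h] <;> assumption
    · exact hA.1 u v hG
  · intro v hv
    rw [nb_swap G A w z x y hwz hxy hwx hzy hwx0 hyz.symm hw hz hx hyA v]
    exact hA.2 v hv
  · have hadj : ∀ v, (swap G w z x y).Adj w v ↔ (G.Adj w v ∧ v ≠ z) ∨ v = x := by
      intro v
      rw [swap_adj]
      simp only [Sym2.eq_iff]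
      have h3 : G.Adj w v → w ≠ v := fun h => h.ne
      constructor
      · rintro (⟨h1, h2⟩ | ⟨h1, h2⟩)
        · left
          refine ⟨h1, ?_⟩
          rintro rfl
          exact h2 ⟨by simp, hwz0⟩
        · rcases h1 with (⟨_, h⟩ | ⟨h, _⟩) | (⟨h, _⟩ | ⟨h, _⟩)
          · right; exact h
          · exact absurd h hwx0
          · exact absurd h hwz0
          · exact absurd h hwy0
      · rintro (⟨h1, h2⟩ | rfl)
        · left
          refine ⟨h1, ?_⟩
          rintro ⟨(⟨_, h⟩ | ⟨h, _⟩) | (⟨h, _⟩ | ⟨h, _⟩), _⟩
          · exact h2 h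
          · exact hwz0 h
          · exact hwx0 h
          · exact hwy0 h
        · right
          exact ⟨by simp, hwx0⟩
    rw [Finset.ssubset_iff_of_subset]
    · refine ⟨z, ?_, ?_⟩
      · unfold dis
        simp only [mem_filter]
        exact ⟨hz, fun h => hwz' (h.mp hwz)⟩
      · unfold dis
        simp only [mem_filter, not_and, not_not]
        intro _
        rw [hadj]
        constructor
        · rintro (⟨_, h⟩ | h)
          · exact absurd rfl h
          · exact absurd h hzx
        · intro h; exact absurd h hwz'
    · intro v hv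
      unfold dis at hv ⊢
      simp only [mem_filter] at hv ⊢
      refine ⟨hv.1, fun h => hv.2 ?_⟩
      rw [hadj]
      by_cases hvz : v = z
      · subst hvz
        constructor
        · rintro (⟨_, h⟩ | h)
          · exact absurd rfl h
          · exact absurd h hzx
        · intro h; exact absurd h hwz'
      · by_cases hvx : v = x
        · subst hvx
          constructor
          · intro _; exact hwx'
          · intro _; right; rfl
        · rw [← h]
          constructor
          · rintro (⟨h1, _⟩ | h1)
            · exact h1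
            · exact absurd h1 hvx
          · intro h1; left; exact ⟨h1, hvz⟩

theorem reach_symm {G H : SimpleGraph V} (h : Relation.ReflTransGen IsSwitch G H) :
    Relation.ReflTransGen IsSwitch H G := by
  induction h with
  | refl => exact Relation.ReflTransGen.refl
  | tail _ hbc ih => exact Relation.ReflTransGen.head hbc.symm ih

theorem reach_of_agree (A : Finset V) :
    ∀ G H : SimpleGraph V, Agree G H A → Relation.ReflTransGen IsSwitch G H := by
  induction A using Finset.strongInduction with
  | H A ih =>
    intro G H hA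
    by_cases hAe : A = ∅
    · have : G = H := by
        ext u v
        by_contra h
        have := (hA.1 u v h).1
        rw [hAe] at this
        simp at this
      rw [this]
    · obtain ⟨w, hw⟩ := Finset.nonempty_iff_ne_empty.mpr hAe
      have inner : ∀ k : ℕ, ∀ G H : SimpleGraph V, Agree G H A → (dis G H A w).card = k →
          Relation.ReflTransGen IsSwitch G H := by
        intro k
        induction k using Nat.strong_induction_on with
        | _ k ihk =>
          intro G H hA hk
          by_cases hd : dis G H A w = ∅
          · have hagree : ∀ v, G.Adj w v ↔ H.Adj w v := by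
              intro v
              by_contra h
              have hv : v ∈ dis G H A w := by
                unfold dis
                simp only [mem_filter]
                exact ⟨(hA.1 w v h).2, h⟩
              rw [hd] at hv
              simp at hv
            apply ih (A.erase w) (Finset.erase_ssubset hw)
            refine ⟨?_, ?_⟩
            · intro u v huv
              obtain ⟨hu, hv⟩ := hA.1 u v huv
              refine ⟨Finset.mem_erase.mpr ⟨?_, hu⟩, Finset.mem_erase.mpr ⟨?_, hv⟩⟩
              · rintro rfl; exact huv (hagree v)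
              · rintro rfl
                apply huv
                rw [G.adj_comm, H.adj_comm]
                exact hagree u
            · intro v hv
              have hvA : v ∈ A := Finset.mem_of_mem_erase hv
              have h1 := hA.2 v hvA
              unfold nb at h1 ⊢
              rw [Finset.filter_erase, Finset.filter_erase]
              have hvw : G.Adj v w ↔ H.Adj v w := by
                rw [G.adj_comm, H.adj_comm]; exact hagree v
              by_cases hG : G.Adj v w
              · have h2 : w ∈ A.filter (fun u => G.Adj v u) := by simp [hw, hG]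
                have h3 : w ∈ A.filter (fun u => H.Adj v u) := by simp [hw, hvw.mp hG]
                rw [Finset.card_erase_of_mem h2, Finset.card_erase_of_mem h3, h1]
              · have h2 : w ∉ A.filter (fun u => G.Adj v u) := by simp [hG]
                have h3 : w ∉ A.filter (fun u => H.Adj v u) := by
                  simp only [mem_filter, not_and]
                  intro _ h
                  exact hG (hvw.mpr h)
                rw [Finset.erase_eq_of_notMem h2, Finset.erase_eq_of_notMem h3, h1]
          · obtain ⟨v, hv⟩ := Finset.nonempty_iff_ne_empty.mpr hd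
            unfold dis at hv
            simp only [mem_filter] at hv
            set N := A.filter (fun u => G.Adj w u) with hN
            set M := A.filter (fun u => H.Adj w u) with hM
            have hcard : N.card = M.card := hA.2 w hw
            have hne : N ≠ M := by
              intro h
              apply hv.2
              have h1 : v ∈ N ↔ v ∈ M := by rw [h]
              rw [hN, hM] at h1
              simp only [mem_filter, hv.1, true_and] at h1
              exact h1
            have hz : ∃ z ∈ N, z ∉ M := by
              by_contra hcon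
              apply hne
              apply Finset.eq_of_subset_of_card_le
              · intro z hz
                by_contra hzM
                exact hcon ⟨z, hz, hzM⟩
              · rw [hcard]
            have hx : ∃ x ∈ M, x ∉ N := by
              by_contra hcon
              apply hne
              symm
              apply Finset.eq_of_subset_of_card_le
              · intro z hz
                by_contra hzM
                exact hcon ⟨z, hz, hzM⟩
              · rw [hcard]
            obtain ⟨z, hzN, hzM⟩ := hz
            obtain ⟨x, hxM, hxN⟩ := hx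
            rw [hN] at hzN hxN
            rw [hM] at hzM hxM
            simp only [mem_filter, not_and] at hzN hxN hzM hxM
            have hzA : z ∈ A := hzN.1
            have hxA : x ∈ A := hxM.1
            have hwz : G.Adj w z := hzN.2
            have hwz' : ¬ H.Adj w z := hzM hzA
            have hwx' : H.Adj w x := hxM.2
            have hwx : ¬ G.Adj w x := hxN hxA
            by_cases hle : nb G A z ≤ nb G A x
            · obtain ⟨G₁, hsw, hA₁, hss⟩ := step G H A hA w z x hzA hxA hw hwz hwz' hwx hwx' hle
              have hlt : (dis G₁ H A w).card < k := by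
                rw [← hk]; exact Finset.card_lt_card hss
              exact Relation.ReflTransGen.head hsw (ihk _ hlt G₁ H hA₁ rfl)
            · have hle' : nb H A x ≤ nb H A z := by
                rw [← hA.2 x hxA, ← hA.2 z hzA]; omega
              obtain ⟨H₁, hsw, hA₁, hss⟩ :=
                step H G A hA.symm w x z hxA hzA hw hwx' hwx hwz' hwz hle'
              have hlt : (dis H₁ G A w).card < k := by
                rw [← hk, dis_comm G H]; exact Finset.card_lt_card hss
              have h1 : Relation.ReflTransGen IsSwitch H G :=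
                Relation.ReflTransGen.head hsw (ihk _ hlt H₁ G hA₁ rfl)
              exact reach_symm h1
      exact inner _ G H hA rfl

/-- **Connectivity of the realization graph**: two simple graphs with the same degrees are
joined by a sequence of switches. -/
theorem switch_connected [Fintype V] (G H : SimpleGraph V) (h : ∀ v, G.degree v = H.degree v) :
    Relation.ReflTransGen IsSwitch G H := by
  apply reach_of_agree Finset.univ G H
  refine ⟨fun u v _ => ⟨Finset.mem_univ u, Finset.mem_univ v⟩, fun v _ => ?_⟩
  have e : ∀ K : SimpleGraph V, nb K Finset.univ v = K.degree v := by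
    intro K
    unfold nb
    rw [← SimpleGraph.card_neighborFinset_eq_degree, SimpleGraph.neighborFinset_eq_filter]
  rw [e G, e H, h v]

theorem degree_eq_nb [Fintype V] (G : SimpleGraph V) (v : V) :
    G.degree v = nb G Finset.univ v := by
  unfold nb
  rw [← SimpleGraph.card_neighborFinset_eq_degree, SimpleGraph.neighborFinset_eq_filter]

theorem swap_degree [Fintype V] (G : SimpleGraph V) (a b c e : V)
    (hab : G.Adj a b) (hce : G.Adj c e) (hac : ¬ G.Adj a c) (hbe : ¬ G.Adj b e)
    (hac' : a ≠ c) (hbe' : b ≠ e) (v : V) :
    (swap G a b c e).degree v = G.degree v := by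
  rw [degree_eq_nb, degree_eq_nb]
  exact nb_swap G Finset.univ a b c e hab hce hac hbe hac' hbe' (Finset.mem_univ _)
    (Finset.mem_univ _) (Finset.mem_univ _) (Finset.mem_univ _) v

theorem IsSwitch.degree [Fintype V] {G G' : SimpleGraph V} (h : IsSwitch G G') (v : V) :
    G'.degree v = G.degree v := by
  obtain ⟨a, b, c, e, hac', hbe', hab, hce, hac, hbe, rfl⟩ := h
  exact swap_degree G a b c e hab hce hac hbe hac' hbe' v

/-- after the switch `(a,b,c,e)` the reverse switch `(a,c,b,e)` is applicable -/
theorem swap_rev_applicable (G : SimpleGraph V) (a b c e : V) (hab : G.Adj a b) (hce : G.Adj c e)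
    (hac : ¬ G.Adj a c) (hbe : ¬ G.Adj b e) (hac' : a ≠ c) (hbe' : b ≠ e) :
    (swap G a b c e).Adj a c ∧ (swap G a b c e).Adj b e ∧ ¬ (swap G a b c e).Adj a b ∧
      ¬ (swap G a b c e).Adj c e := by
  have hab' : a ≠ b := hab.ne
  have hce' : c ≠ e := hce.ne
  have hae' : a ≠ e := by
    rintro rfl; exact hac hce.symm
  have hbc' : b ≠ c := by
    rintro rfl; exact hac hab
  refine ⟨?_, ?_, ?_, ?_⟩
  · rw [swap_adj]; right; exact ⟨Or.inl rfl, hac'⟩
  · rw [swap_adj]; right; exact ⟨Or.inr rfl, hbe'⟩
  · rw [swap_adj]
    simp only [Sym2.eq_iff]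
    tauto
  · rw [swap_adj]
    simp only [Sym2.eq_iff]
    tauto

end Vale.Agent.H12.Switch
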