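import Mathlib

/-!
Definitions for the switch chain on the simple graphs with a prescribed degree function:
the switch move, the set of realizations, the proposal map and the transition matrix of
the lazy chain, and split graphs.
-/

namespace Vale.Agent.H12.Switch

open Finset SimpleGraph
open scoped Classical

section

variable {V : Type*}

/-- delete the edges `ab`, `ce` and insert the edges `ac`, `be` -/
def swap (G : SimpleGraph V) (a b c e : V) : SimpleGraph V :=
  (G \ fromEdgeSet {s(a, b), s(c, e)}) ⊔ fromEdgeSet {s(a, c), s(b, e)}

end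

section

variable {V : Type} [Fintype V]

/-- the simple graphs on `V` in which every vertex `i` has degree `d i` -/
def Omega (d : V → ℕ) : Type := {G : SimpleGraph V // ∀ i, G.degree i = d i}

noncomputable instance instFintypeOmega (d : V → ℕ) : Fintype (Omega d) := by
  classical
  unfold Omega
  infer_instance

noncomputable instance instDecEqOmega (d : V → ℕ) : DecidableEq (Omega d) :=
  Classical.decEq _

/-- Outcome of the proposal `t = (a, b, c, e)` (four distinct vertices) at `G`:
if `ab` and `ce` are edges and `ac` and `be` are non-edges, the edges `ab`, `ce` are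
replaced by `ac`, `be`; otherwise the graph stays put. -/
noncomputable def propose (G : SimpleGraph V) (t : Fin 4 ↪ V) : SimpleGraph V :=
  if G.Adj (t 0) (t 1) ∧ G.Adj (t 2) (t 3) ∧ ¬ G.Adj (t 0) (t 2) ∧ ¬ G.Adj (t 1) (t 3) then
    swap G (t 0) (t 1) (t 2) (t 3) else G

/-- Transition matrix of the lazy switch chain on `Omega d`: with probability `1/2` stay put,
otherwise apply a uniformly random proposal. -/
noncomputable def kernel (d : V → ℕ) : Matrix (Omega d) (Omega d) ℝ :=
  fun G G' => (1 / 2 : ℝ) * (if G = G' then 1 else 0)
    + (1 / 2 : ℝ) * (((univ.filter (fun t : Fin 4 ↪ V => propose G.1 t = G'.1)).card : ℝ)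
        / (Fintype.card (Fin 4 ↪ V) : ℝ))

/-- `A` is a clique and its complement is independent in `G` -/
def IsSplit (G : SimpleGraph V) (A : Finset V) : Prop :=
  (∀ u ∈ A, ∀ v ∈ A, u ≠ v → G.Adj u v) ∧ (∀ u, u ∉ A → ∀ v, v ∉ A → ¬ G.Adj u v)

end

end Vale.Agent.H12.Switch
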